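import Mathlib

set_option autoImplicit false

/-!
Scalar inequalities behind the fan cover of the regular tetrahedron.
-/

namespace Crest.Agent.TetCover

/-- Parameters of a point in the low fan. -/
lemma exists_fan_param (b y τ : ℝ) (hy : |y| ≤ τ) :
    ∃ t ρ : ℝ, |t| ≤ 1 ∧ 0 ≤ ρ ∧ τ = ρ + b * t ∧ y = τ * t + b * (1 - t ^ 2) / 2 := by
  have hτ : 0 ≤ τ := le_trans (abs_nonneg y) hy
  have hy2 : y ^ 2 ≤ τ ^ 2 := by
    rw [← sq_abs y]; exact pow_le_pow_left₀ (abs_nonneg y) hy 2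
  have hD : (y - b) ^ 2 ≤ τ ^ 2 - 2 * b * y + b ^ 2 := by nlinarith
  set ρ := Real.sqrt (τ ^ 2 - 2 * b * y + b ^ 2) with hρ
  have hρ2 : ρ ^ 2 = τ ^ 2 - 2 * b * y + b ^ 2 := Real.sq_sqrt (le_trans (sq_nonneg _) hD)
  have hρ0 : 0 ≤ ρ := Real.sqrt_nonneg _
  have hρy : |y - b| ≤ ρ := Real.abs_le_sqrt hD
  rcases (add_nonneg hτ hρ0).eq_or_lt with h0 | h0
  · have h1 : τ = 0 := by linarith
    have h2 : ρ = 0 := by linarith
    have h3 : y = 0 := by
      have : |y| ≤ 0 := by rw [h1] at hy; exact hy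
      exact abs_eq_zero.1 (le_antisymm this (abs_nonneg _))
    have h4 : b = 0 := by
      rw [h2, h1, h3] at hρ2
      have : b ^ 2 = 0 := by linarith
      exact pow_eq_zero_iff (two_ne_zero) |>.1 this
    exact ⟨0, 0, by simp, le_refl _, by simp [h1], by simp [h3, h4]⟩
  · refine ⟨(2 * y - b) / (τ + ρ), ρ, ?_, hρ0, ?_, ?_⟩
    · rw [abs_div, abs_of_pos h0, div_le_one h0]
      calc |2 * y - b| = |y + (y - b)| := by ring_nf
        _ ≤ |y| + |y - b| := abs_add_le _ _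
        _ ≤ τ + ρ := by linarith
    · field_simp
      nlinarith
    · have hne : τ + ρ ≠ 0 := h0.ne'
      field_simp
      have : b ^ 2 = ρ ^ 2 - τ ^ 2 + 2 * b * y := by linarith
      linear_combination (b - 2 * y) * this


lemma abs_mul_le_mul {p q P Q : ℝ} (hp : |p| ≤ P) (hq : |q| ≤ Q) : |p * q| ≤ P * Q := by
  rw [abs_mul]
  exact mul_le_mul hp hq (abs_nonneg _) (le_trans (abs_nonneg _) hp)

set_option maxHeartbeats 2000000 in
/-- The two fans overlap along their common boundary. -/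
lemma fan_key (a : ℝ) (ha0 : 0 < a) (ha : a ≤ 1 / 1000) (x y τ ρ r t u : ℝ)
    (hx : |x| ≤ 1 - τ) (hy : |y| ≤ τ) (ht : |t| ≤ 1) (hu : |u| ≤ 1)
    (e1 : τ = ρ + a * x * t) (e2 : y = τ * t + a * x * (1 - t ^ 2) / 2)
    (e3 : 1 - τ = r - a * y * u) (e4 : x = (1 - τ) * u - a * y * (1 - u ^ 2) / 2)
    (h1 : 1 / 2 + a ^ 2 * ((t ^ 2 + t ^ 4) / 4 + 1 / 240) < ρ)
    (h2 : 1 / 2 + a ^ 2 * ((u ^ 2 + u ^ 4) / 4 + 1 / 240) < r) : False := by
  have ha2 : 0 < a ^ 2 := by positivity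
  have hτ0 : 0 ≤ τ := le_trans (abs_nonneg _) hy
  have hτ1 : 0 ≤ 1 - τ := le_trans (abs_nonneg _) hx
  have hx1 : |x| ≤ 1 := by linarith
  have hy1 : |y| ≤ 1 := by linarith
  have hρ : 1 / 2 < ρ := by
    have : 0 ≤ a ^ 2 * ((t ^ 2 + t ^ 4) / 4 + 1 / 240) := by positivity
    linarith
  have hr : 1 / 2 < r := by
    have : 0 ≤ a ^ 2 * ((u ^ 2 + u ^ 4) / 4 + 1 / 240) := by positivity
    linarith
  have ht2 : 0 ≤ 1 - t ^ 2 := by
    have := abs_le.1 ht; nlinarith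
  have hu2 : 0 ≤ 1 - u ^ 2 := by
    have := abs_le.1 hu; nlinarith
  have ht2' : |1 - t ^ 2| ≤ 1 := by rw [abs_of_nonneg ht2]; nlinarith [sq_nonneg t]
  have hu2' : |1 - u ^ 2| ≤ 1 := by rw [abs_of_nonneg hu2]; nlinarith [sq_nonneg u]
  -- first bounds
  have hxt := abs_le.1 (abs_mul_le_mul hx1 ht)
  have hyu := abs_le.1 (abs_mul_le_mul hy1 hu)
  have m1 : a * (-(1 * 1)) ≤ a * (x * t) := mul_le_mul_of_nonneg_left hxt.1 ha0.le
  have m2 : a * (y * u) ≤ a * (1 * 1) := mul_le_mul_of_nonneg_left hyu.2 ha0.le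
  have e1' : τ = ρ + a * (x * t) := by rw [e1]; ring
  have e3' : 1 - τ = r - a * (y * u) := by rw [e3]; ring
  have hxa : |x| ≤ 1 / 2 + a := by linarith
  have hya : |y| ≤ 1 / 2 + a := by linarith
  clear hxt hyu m1 m2
  -- second bounds
  have hxt := abs_le.1 (abs_mul_le_mul hxa ht)
  have m1 : a * (-((1 / 2 + a) * 1)) ≤ a * (x * t) := mul_le_mul_of_nonneg_left hxt.1 ha0.le
  have m2 : a * (x * t) ≤ a * ((1 / 2 + a) * 1) := mul_le_mul_of_nonneg_left hxt.2 ha0.le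
  obtain ⟨δ, hδ⟩ : ∃ δ, δ = y * u - x * t := ⟨_, rfl⟩
  have hsum : ρ + r = 1 + a * δ := by rw [hδ]; linarith
  obtain ⟨e, he⟩ : ∃ e, e = ρ - 1 / 2 := ⟨_, rfl⟩
  have he0 : 0 < e := by linarith
  have he1 : e < a * δ := by linarith
  have hδpos : 0 < δ := by
    by_contra hcon
    have h3 : a * δ ≤ 0 := mul_nonpos_of_nonneg_of_nonpos ha0.le (not_lt.1 hcon)
    linarith
  have hτe : τ - 1 / 2 = a * (x * t) + e := by linarith
  have hτa : |τ - 1 / 2| ≤ a * (1 / 2 + a) + a * δ := by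
    rw [abs_le]
    constructor <;> linarith
  have hδeq : δ = 2 * ((τ - 1 / 2) * (t * u)) + a / 2 * (x * (1 - t ^ 2) * u) +
      a / 2 * (y * (1 - u ^ 2) * t) := by
    rw [hδ]
    linear_combination u * e2 - t * e4
  have htu : |t * u| ≤ 1 := by simpa using abs_mul_le_mul ht hu
  have hA := abs_le.1 (abs_mul_le_mul hτa htu)
  have hB := abs_le.1 (abs_mul_le_mul (abs_mul_le_mul hxa ht2') hu)
  have hC := abs_le.1 (abs_mul_le_mul (abs_mul_le_mul hya hu2') ht)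
  have ha2' : 0 < a / 2 := by positivity
  have hB' := mul_le_mul_of_nonneg_left hB.2 ha2'.le
  have hC' := mul_le_mul_of_nonneg_left hC.2 ha2'.le
  have hδ1 : δ ≤ 151 / 100 * a := by
    have h3 : δ * (1 - 2 * a) ≤ 3 * a * (1 / 2 + a) := by linarith
    have h4 : 0 ≤ a * (1 / 1000 - a) := mul_nonneg ha0.le (by linarith)
    have h5 : δ * (1 - 2 / 1000) ≤ δ * (1 - 2 * a) :=
      mul_le_mul_of_nonneg_left (by linarith) hδpos.le
    linarith
  clear hA hB hC hB' hC' hτa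
  have he2 : e ≤ 151 / 100 * a ^ 2 := by
    have := mul_le_mul_of_nonneg_left hδ1 ha0.le
    linarith
  have haa : a ^ 2 ≤ 1 / 1000 * a := by
    have h4 : 0 ≤ a * (1 / 1000 - a) := mul_nonneg ha0.le (by linarith)
    linarith
  have haaa : a * (151 / 100 * a ^ 2) ≤ a * (151 / 100 * (1 / 1000 * a)) :=
    mul_le_mul_of_nonneg_left (by linarith) ha0.le
  have hτa : |τ - 1 / 2| ≤ 504 / 1000 * a := by
    rw [abs_le]
    constructor <;> linarith
  -- comparison of x with u / 2 and of y with t / 2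
  have hya2 : |y - t / 2| ≤ 755 / 1000 * a := by
    have h3 : y - t / 2 = (τ - 1 / 2) * t + a / 2 * (x * (1 - t ^ 2)) := by
      linear_combination e2
    have hA := abs_le.1 (abs_mul_le_mul hτa ht)
    have hB := abs_le.1 (abs_mul_le_mul hxa ht2')
    have hB1 := mul_le_mul_of_nonneg_left hB.1 ha2'.le
    have hB2 := mul_le_mul_of_nonneg_left hB.2 ha2'.le
    rw [h3, abs_le]
    constructor <;> linarith
  have hxa2 : |x - u / 2| ≤ 755 / 1000 * a := by
    have h3 : x - u / 2 = -((τ - 1 / 2) * u) - a / 2 * (y * (1 - u ^ 2)) := by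
      linear_combination e4
    have hA := abs_le.1 (abs_mul_le_mul hτa hu)
    have hB := abs_le.1 (abs_mul_le_mul hya hu2')
    have hB1 := mul_le_mul_of_nonneg_left hB.1 ha2'.le
    have hB2 := mul_le_mul_of_nonneg_left hB.2 ha2'.le
    rw [h3, abs_le]
    constructor <;> linarith
  -- final comparison
  have htt : |t * (t * u)| ≤ 1 := by simpa using abs_mul_le_mul ht htu
  have ht2u : |(1 - t ^ 2) * u| ≤ 1 := by simpa using abs_mul_le_mul ht2' hu
  have hu2t : |(1 - u ^ 2) * t| ≤ 1 := by simpa using abs_mul_le_mul hu2' ht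
  have hP := (abs_le.1 (abs_mul_le_mul hxa2 htt)).2
  have hQ := (abs_le.1 (abs_mul_le_mul hxa2 ht2u)).2
  have hR := (abs_le.1 (abs_mul_le_mul hya2 hu2t)).2
  have hP' := mul_le_mul_of_nonneg_left hP ha0.le
  have hQ' := mul_le_mul_of_nonneg_left hQ ha2'.le
  have hR' := mul_le_mul_of_nonneg_left hR ha2'.le
  have hE : e * (t * u) ≤ e := by
    have := mul_le_mul_of_nonneg_left (abs_le.1 htu).2 he0.le
    linarith
  have hδ2 : δ ≤ a * ((t ^ 2 + u ^ 2) / 4 + t ^ 2 * u ^ 2 / 2) + 53 / 10 * a ^ 2 := by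
    have h3 : δ = a * ((t ^ 2 + u ^ 2) / 4 + t ^ 2 * u ^ 2 / 2) + 2 * (e * (t * u)) +
        2 * (a * ((x - u / 2) * (t * (t * u)))) + a / 2 * ((x - u / 2) * ((1 - t ^ 2) * u)) +
        a / 2 * ((y - t / 2) * ((1 - u ^ 2) * t)) := by
      linear_combination hδeq + 2 * t * u * hτe
    linarith
  have h4 : a * ((t ^ 2 + t ^ 4 + u ^ 2 + u ^ 4) / 4 + 1 / 120) < δ := by
    have h5 : a * (a * ((t ^ 2 + t ^ 4 + u ^ 2 + u ^ 4) / 4 + 1 / 120)) < a * δ := by linarith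
    exact lt_of_mul_lt_mul_left h5 ha0.le
  have h5 : 0 ≤ a * ((t ^ 2 - u ^ 2) ^ 2) := by positivity
  linarith

end Crest.Agent.TetCover
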