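import Crest.Agent.TetCover.Flat
import Crest.Agent.TetCover.FanKey

set_option autoImplicit false

/-!
The fan cover of the regular tetrahedron.
-/

namespace Crest.Agent.TetCover

open MeasureTheory Module
open scoped ENNReal

/-- A point with fan parameters `(t, ρ)`, `t` close to `c`, lies in the cylinder over the thin
triangle of the fan (all in coordinates). -/
lemma fan_scalar (a c h H x y τ t ρ : ℝ) (hh : 0 < h) (hH0 : 0 < H) (hx : |x| ≤ 1)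
    (htc : |t - c| ≤ h) (hρ : 0 ≤ ρ) (hH : ρ + 5 / 2 * |a| * h ≤ H)
    (e1 : τ = ρ + a * x * t) (e2 : y = τ * t + a * x * (1 - t ^ 2) / 2) :
    ∃ α β : ℝ, 0 ≤ α ∧ 0 ≤ β ∧ α + β ≤ 1 ∧
      y = -(c * (3 / 2 * |a| * h)) + (α * ((c - h) * H) + β * ((c + h) * H)) +
        x * (a * (1 + c ^ 2) / 2) ∧
      τ = -(3 / 2 * |a| * h) + (α * H + β * H) + x * (a * c) := by
  obtain ⟨s, hs⟩ : ∃ s, s = t - c := ⟨_, rfl⟩
  have ht : t = c + s := by rw [hs]; ring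
  rw [← hs] at htc
  -- the point of the triangle plane
  obtain ⟨τ', hτ'⟩ : ∃ τ', τ' = ρ + x * a * s := ⟨_, rfl⟩
  obtain ⟨v, hv⟩ : ∃ v, v = s * ρ + x * a * s ^ 2 / 2 := ⟨_, rfl⟩
  have hxa : |x * a| ≤ |a| := by
    rw [abs_mul]
    have := mul_le_mul_of_nonneg_right hx (abs_nonneg a)
    linarith
  have hxas : |x * a * s| ≤ |a| * h := abs_mul_le_mul hxa htc
  have hs2 : |s * s| ≤ h * h := abs_mul_le_mul htc htc
  have hxas2 : |x * a * (s * s)| ≤ |a| * (h * h) := abs_mul_le_mul hxa hs2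
  have hsρ : |s * ρ| ≤ h * ρ := by
    have : |ρ| ≤ ρ := (abs_of_nonneg hρ).le
    exact abs_mul_le_mul htc this
  have h1 := abs_le.1 hxas
  have h2 := abs_le.1 hxas2
  have h3 := abs_le.1 hsρ
  have h1a := mul_le_mul_of_nonneg_left h1.1 hh.le
  have h1b := mul_le_mul_of_nonneg_left h1.2 hh.le
  have hvb : |v| ≤ h * (τ' + 3 / 2 * |a| * h) := by
    rw [hv, hτ', abs_le]
    constructor <;> linarith
  have hτb : τ' + 3 / 2 * |a| * h ≤ H := by rw [hτ']; linarith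
  have hv' := abs_le.1 hvb
  have hhH : 0 < h * H := mul_pos hh hH0
  refine ⟨((τ' + 3 / 2 * |a| * h) / H - v / (h * H)) / 2,
    ((τ' + 3 / 2 * |a| * h) / H + v / (h * H)) / 2, ?_, ?_, ?_, ?_, ?_⟩
  · have : v / (h * H) ≤ (τ' + 3 / 2 * |a| * h) / H := by
      rw [div_le_div_iff₀ hhH hH0]
      nlinarith [mul_le_mul_of_nonneg_right hv'.2 hH0.le]
    linarith
  · have : -(v / (h * H)) ≤ (τ' + 3 / 2 * |a| * h) / H := by
      rw [← neg_div, div_le_div_iff₀ hhH hH0]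
      nlinarith [mul_le_mul_of_nonneg_right hv'.1 hH0.le]
    linarith
  · have : (τ' + 3 / 2 * |a| * h) / H ≤ 1 := by rw [div_le_one hH0]; exact hτb
    linarith
  · field_simp
    rw [e2, e1, hv, hτ', ht]
    ring
  · field_simp
    rw [e1, hτ', ht]
    ring


lemma inv_sqrt_le (g : ℝ) (h0 : 0 ≤ g) (h1 : g ≤ 1) :
    1 / Real.sqrt (1 + g) ≤ 1 - g / 2 + 3 * g ^ 2 / 8 := by
  have hs : 0 < Real.sqrt (1 + g) := Real.sqrt_pos.2 (by linarith)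
  rw [div_le_iff₀ hs]
  have hq : 0 ≤ 1 - g / 2 + 3 * g ^ 2 / 8 := by nlinarith [sq_nonneg g]
  have h2 : Real.sqrt (1 + g) ^ 2 = 1 + g := Real.sq_sqrt (by linarith)
  have h3 : (1:ℝ) ^ 2 ≤ ((1 - g / 2 + 3 * g ^ 2 / 8) * Real.sqrt (1 + g)) ^ 2 := by
    rw [mul_pow, h2]
    have h4 : (1 - g / 2 + 3 * g ^ 2 / 8) ^ 2 * (1 + g) - 1 ^ 2 =
        g ^ 3 * (5 / 8 - 15 / 64 * g) + 9 / 64 * g ^ 5 := by ring
    have h5 : 0 ≤ g ^ 3 * (5 / 8 - 15 / 64 * g) := mul_nonneg (by positivity) (by linarith)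
    have h6 : 0 ≤ 9 / 64 * g ^ 5 := by positivity
    linarith
  have h7 : 0 ≤ (1 - g / 2 + 3 * g ^ 2 / 8) * Real.sqrt (1 + g) := by positivity
  exact (pow_le_pow_iff_left₀ (by norm_num) h7 (by norm_num)).1 h3

/-- Height of the thin triangle at the tag `c`. -/
noncomputable def fanH (a c : ℝ) : ℝ := 1 / 2 + a ^ 2 * ((c ^ 2 + c ^ 4) / 4 + 59 / 12000)

lemma fanH_pos (a c : ℝ) : 0 < fanH a c := by unfold fanH; positivity

lemma fan_area_term (a c : ℝ) (ha0 : 0 < a) (ha : a ≤ 1 / 1000) (hc : |c| ≤ 1) :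
    fanH a c ^ 2 / Real.sqrt (1 + a ^ 2 * ((1 + c ^ 2) ^ 2 / 4 + 2 * c ^ 2)) ≤
      1 / 4 + a ^ 2 * (59 / 12000 - 1 / 32 + 2 * a ^ 2 - c ^ 2 / 16 + 7 * c ^ 4 / 32) := by
  have hc2 : c ^ 2 ≤ 1 := by
    rw [← sq_abs]; exact pow_le_one₀ (abs_nonneg _) hc
  obtain ⟨p, hp⟩ : ∃ p, p = c ^ 2 := ⟨_, rfl⟩
  obtain ⟨A, hA⟩ : ∃ A, A = a ^ 2 := ⟨_, rfl⟩
  have hp0 : 0 ≤ p := by rw [hp]; positivity
  have hA0 : 0 ≤ A := by rw [hA]; positivity
  have hA1 : A ≤ 1 / 1000000 := by rw [hA]; nlinarith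
  have hc4 : c ^ 4 = p ^ 2 := by rw [hp]; ring
  rw [fanH, hc4, ← hp, ← hA]
  rw [← hp] at hc2
  have hp2 : p ^ 2 ≤ 1 := by nlinarith
  obtain ⟨G, hG⟩ : ∃ G, G = (p + p ^ 2) / 4 + 59 / 12000 := ⟨_, rfl⟩
  obtain ⟨m, hm⟩ : ∃ m, m = (1 + p) ^ 2 / 4 + 2 * p := ⟨_, rfl⟩
  rw [← hG, ← hm]
  have hG0 : 0 ≤ G := by rw [hG]; positivity
  have hG1 : G ≤ 51 / 100 := by rw [hG]; linarith
  have hm0 : 0 ≤ m := by rw [hm]; positivity
  have hm1 : m ≤ 3 := by rw [hm]; nlinarith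
  have hAm0 : 0 ≤ A * m := by positivity
  have hAm : A * m ≤ 1 := by nlinarith
  have h1 := inv_sqrt_le (A * m) hAm0 hAm
  have h2 : (1 / 2 + A * G) ^ 2 / Real.sqrt (1 + A * m) ≤
      (1 / 2 + A * G) ^ 2 * (1 - A * m / 2 + 3 * (A * m) ^ 2 / 8) := by
    rw [div_eq_mul_one_div]
    exact mul_le_mul_of_nonneg_left h1 (by positivity)
  refine h2.trans ?_
  have hG2 : G ^ 2 ≤ 27 / 100 := by nlinarith
  have hm2 : m ^ 2 ≤ 9 := by nlinarith
  have hGm : G * m ^ 2 ≤ 51 / 100 * 9 := by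
    apply mul_le_mul hG1 hm2 (by positivity) (by norm_num)
  have hG2m2 : G ^ 2 * m ^ 2 ≤ 27 / 100 * 9 := by
    apply mul_le_mul hG2 hm2 (by positivity) (by norm_num)
  have hA2 : 0 ≤ A ^ 2 := by positivity
  have hA3 : A ^ 3 ≤ A ^ 2 * (1 / 1000000) := by
    have := mul_le_mul_of_nonneg_left hA1 hA2
    calc A ^ 3 = A ^ 2 * A := by ring
      _ ≤ _ := this
  have hA4 : A ^ 4 ≤ A ^ 2 * (1 / 1000000) := by
    have h5 : A ^ 2 ≤ 1 / 1000000 := by nlinarith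
    have := mul_le_mul_of_nonneg_left h5 hA2
    calc A ^ 4 = A ^ 2 * A ^ 2 := by ring
      _ ≤ _ := this
  have t1 := mul_le_mul_of_nonneg_left hm2 hA2
  have t3 := mul_le_mul_of_nonneg_left hG2 hA2
  have hA3' : 0 ≤ A ^ 3 := by positivity
  have hA4' : 0 ≤ A ^ 4 := by positivity
  have t4 := mul_le_mul_of_nonneg_left hGm hA3'
  have t6 := mul_le_mul_of_nonneg_left hG2m2 hA4'
  have t2 : 0 ≤ A ^ 2 * (G * m) := by positivity
  have t5 : 0 ≤ A ^ 3 * (G ^ 2 * m) := by positivity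
  have hGm8 : G - m / 8 = 59 / 12000 - 1 / 32 - p / 16 + 7 * p ^ 2 / 32 := by
    rw [hG, hm]; ring
  have hfin : (1 / 2 + A * G) ^ 2 * (1 - A * m / 2 + 3 * (A * m) ^ 2 / 8) =
      1 / 4 + A * (G - m / 8) + A ^ 2 * (m ^ 2) * (3 / 32) - A ^ 2 * (G * m) / 2 + A ^ 2 * G ^ 2 +
      A ^ 3 * (G * m ^ 2) * (3 / 8) - A ^ 3 * (G ^ 2 * m) / 2 +
      A ^ 4 * (G ^ 2 * m ^ 2) * (3 / 8) := by ring
  rw [hfin, hGm8]
  linarith

/-- The telescoping estimate of the total area of one fan. -/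
lemma fan_sum (a B h : ℝ) (N : ℕ) (hN : (N : ℝ) * h = 1) (hh : 0 < h) :
    ∑ k ∈ Finset.range N, h * (B + a ^ 2 * (-(-1 + (2 * (k:ℝ) + 1) * h) ^ 2 / 16 +
        7 * (-1 + (2 * (k:ℝ) + 1) * h) ^ 4 / 32)) ≤
      B + a ^ 2 * (h ^ 2 / 48 - 1 / 48 + 7 / 160) := by
  set F : ℕ → ℝ := fun k => B * (-1 + 2 * (k:ℝ) * h) / 2 + a ^ 2 * (h ^ 2 * (-1 + 2 * (k:ℝ) * h) / 96 -
    (-1 + 2 * (k:ℝ) * h) ^ 3 / 96 + 7 * (-1 + 2 * (k:ℝ) * h) ^ 5 / 320) with hF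
  have h1 : ∑ k ∈ Finset.range N, (F (k + 1) - F k) = F N - F 0 := Finset.sum_range_sub F N
  have h2 : F N - F 0 = B + a ^ 2 * (h ^ 2 / 48 - 1 / 48 + 7 / 160) := by
    simp only [hF]
    have e : -1 + 2 * (N:ℝ) * h = 1 := by rw [mul_assoc, hN]; norm_num
    rw [e]
    push_cast
    ring
  rw [← h2, ← h1]
  apply Finset.sum_le_sum
  intro k _
  simp only [hF]
  push_cast
  obtain ⟨c, hc⟩ : ∃ c, c = -1 + (2 * (k:ℝ) + 1) * h := ⟨_, rfl⟩
  have e1 : -1 + 2 * ((k:ℝ) + 1) * h = c + h := by rw [hc]; ring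
  have e2 : -1 + 2 * (k:ℝ) * h = c - h := by rw [hc]; ring
  rw [e1, e2, ← hc]
  have h3 : 0 ≤ a ^ 2 * (7 * c ^ 2 * h ^ 3 / 16 + 7 * h ^ 5 / 160) := by positivity
  nlinarith [h3]


/-- The regular tetrahedron of the statements. -/
noncomputable def Tet : Set E3 :=
  convexHull ℝ {!₂[1, 0, 0], !₂[-1, 0, 0], !₂[0, 1, Real.sqrt 2], !₂[0, -1, Real.sqrt 2]}

lemma tet_coords {v : E3} (hv : v ∈ Tet) :
    |v 0| ≤ 1 - v 2 / Real.sqrt 2 ∧ |v 1| ≤ v 2 / Real.sqrt 2 := by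
  have hs : (0:ℝ) < Real.sqrt 2 := Real.sqrt_pos.2 (by norm_num)
  have hconv : Convex ℝ {v : E3 | |v 0| ≤ 1 - v 2 / Real.sqrt 2 ∧ |v 1| ≤ v 2 / Real.sqrt 2} := by
    intro x hx y hy a b ha hb hab
    simp only [Set.mem_ofPred_eq, PiLp.add_apply, PiLp.smul_apply, smul_eq_mul] at hx hy ⊢
    have hx1 := abs_le.1 hx.1
    have hx2 := abs_le.1 hx.2
    have hy1 := abs_le.1 hy.1
    have hy2 := abs_le.1 hy.2
    have e : (a * x 2 + b * y 2) / Real.sqrt 2 = a * (x 2 / Real.sqrt 2) + b * (y 2 / Real.sqrt 2) := by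
      ring
    rw [e]
    have hb' : b = 1 - a := by linarith
    constructor
    · rw [abs_le]
      constructor
      · have := mul_le_mul_of_nonneg_left hx1.1 ha
        have := mul_le_mul_of_nonneg_left hy1.1 hb
        linarith
      · have := mul_le_mul_of_nonneg_left hx1.2 ha
        have := mul_le_mul_of_nonneg_left hy1.2 hb
        linarith
    · rw [abs_le]
      constructor
      · have := mul_le_mul_of_nonneg_left hx2.1 ha
        have := mul_le_mul_of_nonneg_left hy2.1 hb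
        linarith
      · have := mul_le_mul_of_nonneg_left hx2.2 ha
        have := mul_le_mul_of_nonneg_left hy2.2 hb
        linarith
  have hsub : Tet ⊆ {v : E3 | |v 0| ≤ 1 - v 2 / Real.sqrt 2 ∧ |v 1| ≤ v 2 / Real.sqrt 2} := by
    apply convexHull_min _ hconv
    intro x hx
    simp only [Set.mem_insert_iff, Set.mem_singleton_iff] at hx
    rcases hx with rfl | rfl | rfl | rfl <;> simp [hs.ne']
  exact hsub hv

/-- Low family points. -/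
noncomputable def lowPt (x y τ : ℝ) : E3 := !₂[x, y, Real.sqrt 2 * τ]
/-- Up family points. -/
noncomputable def upPt (x y τ : ℝ) : E3 := !₂[y, x, Real.sqrt 2 * (1 - τ)]
/-- Up family vectors. -/
noncomputable def upVec (x y τ : ℝ) : E3 := !₂[y, x, -(Real.sqrt 2 * τ)]

lemma norm_low (a c : ℝ) : ‖lowPt 1 (a * (1 + c ^ 2) / 2) (a * c)‖ =
    Real.sqrt (1 + a ^ 2 * ((1 + c ^ 2) ^ 2 / 4 + 2 * c ^ 2)) := by
  rw [← Real.sqrt_sq (norm_nonneg (lowPt 1 (a * (1 + c ^ 2) / 2) (a * c)))]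
  congr 1
  rw [normsq3]
  have h2 : Real.sqrt 2 ^ 2 = 2 := Real.sq_sqrt (by norm_num)
  simp only [lowPt, PiLp.toLp_apply, Matrix.cons_val_zero, Matrix.cons_val_one, Matrix.cons_val]
  rw [mul_pow, h2]
  ring

lemma norm_up (a c : ℝ) : ‖upVec 1 (a * (1 + c ^ 2) / 2) (a * c)‖ =
    Real.sqrt (1 + a ^ 2 * ((1 + c ^ 2) ^ 2 / 4 + 2 * c ^ 2)) := by
  rw [← Real.sqrt_sq (norm_nonneg (upVec 1 (a * (1 + c ^ 2) / 2) (a * c)))]
  congr 1
  rw [normsq3]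
  have h2 : Real.sqrt 2 ^ 2 = 2 := Real.sq_sqrt (by norm_num)
  simp only [upVec, PiLp.toLp_apply, Matrix.cons_val_zero, Matrix.cons_val_one, Matrix.cons_val]
  rw [neg_sq, mul_pow, h2]
  ring

/-- A cylinder of the low family. -/
lemma low_cyl (a c h H : ℝ) (hh : 0 < h) (hH0 : 0 < H) :
    ∃ u p q r : E3, ‖u‖ = 1 ∧ inner ℝ p u = 0 ∧ inner ℝ q u = 0 ∧ inner ℝ r u = 0 ∧
      (∀ (x y τ t ρ : ℝ), |x| ≤ 1 → |t - c| ≤ h → 0 ≤ ρ → ρ + 5 / 2 * |a| * h ≤ H →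
        τ = ρ + a * x * t → y = τ * t + a * x * (1 - t ^ 2) / 2 →
        ∃ b ∈ convexHull ℝ ({p, q, r} : Set E3), ∃ t : ℝ, lowPt x y τ = b + t • u) ∧
      (μHE[2] (convexHull ℝ ({p, q, r} : Set E3))).toReal =
        Real.sqrt 2 * (h * (H ^ 2 /
          Real.sqrt (1 + a ^ 2 * ((1 + c ^ 2) ^ 2 / 4 + 2 * c ^ 2)))) := by
  set U : E3 := lowPt 1 (a * (1 + c ^ 2) / 2) (a * c) with hU
  set P : E3 := lowPt 0 (-(c * (3 / 2 * |a| * h))) (-(3 / 2 * |a| * h)) with hP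
  set Q : E3 := P + lowPt 0 ((c - h) * H) H with hQ
  set R : E3 := P + lowPt 0 ((c + h) * H) H with hR
  have hU0 : U ≠ 0 := by
    intro h0
    have : U 0 = 0 := by rw [h0]; rfl
    simp [hU, lowPt] at this
  obtain ⟨u, p, q, r, hu, hp, hq, hr, hc, hA⟩ := cyl_of_flat P Q R U hU0
  refine ⟨u, p, q, r, hu, hp, hq, hr, ?_, ?_⟩
  · intro x y τ t ρ hx htc hρ hH e1 e2
    obtain ⟨α, β, hα, hβ, hαβ, h1, h2⟩ := fan_scalar a c h H x y τ t ρ hh hH0 hx htc hρ hH e1 e2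
    obtain ⟨b, hb, s, hs⟩ := hc α β x hα hβ hαβ
    refine ⟨b, hb, s, ?_⟩
    rw [← hs, hQ, hR, add_sub_cancel_left, add_sub_cancel_left, hP, hU, h1, h2]
    ext i
    fin_cases i
    · simp [lowPt]
    · simp [lowPt]
    · simp [lowPt]; ring
  · rw [hA, hQ, hR, add_sub_cancel_left, add_sub_cancel_left]
    rw [← norm_low a c, ← hU]
    have hn : 0 < ‖U‖ := norm_pos_iff.2 hU0
    have e : flatDet (lowPt 0 ((c - h) * H) H) (lowPt 0 ((c + h) * H) H) U =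
        -(2 * Real.sqrt 2 * h * H ^ 2) := by
      simp [flatDet, lowPt, hU]; ring
    rw [e, abs_neg, abs_of_nonneg (by positivity)]
    field_simp

/-- A cylinder of the up family. -/
lemma up_cyl (a c h H : ℝ) (hh : 0 < h) (hH0 : 0 < H) :
    ∃ u p q r : E3, ‖u‖ = 1 ∧ inner ℝ p u = 0 ∧ inner ℝ q u = 0 ∧ inner ℝ r u = 0 ∧
      (∀ (x y τ t ρ : ℝ), |x| ≤ 1 → |t - c| ≤ h → 0 ≤ ρ → ρ + 5 / 2 * |a| * h ≤ H →
        τ = ρ + a * x * t → y = τ * t + a * x * (1 - t ^ 2) / 2 →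
        ∃ b ∈ convexHull ℝ ({p, q, r} : Set E3), ∃ t : ℝ, upPt x y τ = b + t • u) ∧
      (μHE[2] (convexHull ℝ ({p, q, r} : Set E3))).toReal =
        Real.sqrt 2 * (h * (H ^ 2 /
          Real.sqrt (1 + a ^ 2 * ((1 + c ^ 2) ^ 2 / 4 + 2 * c ^ 2)))) := by
  set U : E3 := upVec 1 (a * (1 + c ^ 2) / 2) (a * c) with hU
  set P : E3 := upPt 0 (-(c * (3 / 2 * |a| * h))) (-(3 / 2 * |a| * h)) with hP
  set Q : E3 := P + upVec 0 ((c - h) * H) H with hQ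
  set R : E3 := P + upVec 0 ((c + h) * H) H with hR
  have hU0 : U ≠ 0 := by
    intro h0
    have : U 1 = 0 := by rw [h0]; rfl
    simp [hU, upVec] at this
  obtain ⟨u, p, q, r, hu, hp, hq, hr, hc, hA⟩ := cyl_of_flat P Q R U hU0
  refine ⟨u, p, q, r, hu, hp, hq, hr, ?_, ?_⟩
  · intro x y τ t ρ hx htc hρ hH e1 e2
    obtain ⟨α, β, hα, hβ, hαβ, h1, h2⟩ := fan_scalar a c h H x y τ t ρ hh hH0 hx htc hρ hH e1 e2
    obtain ⟨b, hb, s, hs⟩ := hc α β x hα hβ hαβ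
    refine ⟨b, hb, s, ?_⟩
    rw [← hs, hQ, hR, add_sub_cancel_left, add_sub_cancel_left, hP, hU, h1, h2]
    ext i
    fin_cases i
    · simp [upPt, upVec]
    · simp [upPt, upVec]
    · simp [upPt, upVec]; ring
  · rw [hA, hQ, hR, add_sub_cancel_left, add_sub_cancel_left]
    rw [← norm_up a c, ← hU]
    have hn : 0 < ‖U‖ := norm_pos_iff.2 hU0
    have e : flatDet (upVec 0 ((c - h) * H) H) (upVec 0 ((c + h) * H) H) U =
        -(2 * Real.sqrt 2 * h * H ^ 2) := by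
      simp [flatDet, upVec, hU]; ring
    rw [e, abs_neg, abs_of_nonneg (by positivity)]
    field_simp

lemma exists_tag (N : ℕ) (h : ℝ) (hN : (N : ℝ) * h = 1) (hh : 0 < h) (t : ℝ) (ht : |t| ≤ 1) :
    ∃ k : Fin N, |t - (-1 + (2 * ((k : ℕ) : ℝ) + 1) * h)| ≤ h := by
  have hN0 : 0 < N := by
    rcases Nat.eq_zero_or_pos N with h0 | h0
    · rw [h0] at hN; simp at hN
    · exact h0
  have ht' := abs_le.1 ht
  have hz : 0 ≤ (t + 1) / (2 * h) := div_nonneg (by linarith) (by linarith)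
  have h2h : 0 < 2 * h := by linarith
  rcases lt_or_ge (⌊(t + 1) / (2 * h)⌋₊) N with hlt | hge
  · refine ⟨⟨_, hlt⟩, ?_⟩
    have h1 := Nat.floor_le hz
    have h2 := Nat.lt_floor_add_one ((t + 1) / (2 * h))
    simp only
    set j : ℝ := (⌊(t + 1) / (2 * h)⌋₊ : ℝ) with hj
    rw [le_div_iff₀ h2h] at h1
    rw [div_lt_iff₀ h2h] at h2
    rw [abs_le]
    constructor <;> linarith
  · have h1 := Nat.floor_le hz
    rw [le_div_iff₀ h2h] at h1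
    have h3 : (N : ℝ) ≤ (⌊(t + 1) / (2 * h)⌋₊ : ℝ) := by exact_mod_cast hge
    have h4 := mul_le_mul_of_nonneg_right h3 h2h.le
    have h5 : t = 1 := by linarith
    refine ⟨⟨N - 1, by omega⟩, ?_⟩
    simp only
    have h6 : ((N - 1 : ℕ) : ℝ) = (N : ℝ) - 1 := by
      rw [Nat.cast_sub hN0]; simp
    rw [h6, h5]
    have : (1 : ℝ) - (-1 + (2 * ((N:ℝ) - 1) + 1) * h) = 2 - 2 * ((N:ℝ) * h) + h := by ring
    rw [this, hN, abs_le]
    constructor <;> linarith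

/-- Values of the sweep radius at neighbouring parameters. -/
lemma radius_le (a c h t ρ : ℝ) (ha0 : 0 < a) (ha : a ≤ 1 / 1000) (hh : 0 < h)
    (hha : h ≤ a / 4000) (hc : |c| ≤ 1) (ht : |t| ≤ 1) (htc : |t - c| ≤ h)
    (hρ : ρ ≤ 1 / 2 + a ^ 2 * ((t ^ 2 + t ^ 4) / 4 + 1 / 240)) :
    ρ + 5 / 2 * |a| * h ≤ fanH a c := by
  rw [abs_of_pos ha0, fanH]
  have h1 : |t + c| ≤ 2 := by
    calc |t + c| ≤ |t| + |c| := abs_add_le _ _
      _ ≤ 2 := by linarith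
  have h2 : t ^ 2 - c ^ 2 ≤ h * 2 := by
    have := (abs_le.1 (abs_mul_le_mul htc h1)).2
    linarith
  have ht2 : t ^ 2 ≤ 1 := by rw [← sq_abs]; exact pow_le_one₀ (abs_nonneg _) ht
  have hc2 : c ^ 2 ≤ 1 := by rw [← sq_abs]; exact pow_le_one₀ (abs_nonneg _) hc
  have h3 : t ^ 4 - c ^ 4 ≤ h * 4 := by
    have e : t ^ 4 - c ^ 4 = (t ^ 2 - c ^ 2) * (t ^ 2 + c ^ 2) := by ring
    rw [e]
    calc (t ^ 2 - c ^ 2) * (t ^ 2 + c ^ 2) ≤ (h * 2) * (t ^ 2 + c ^ 2) :=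
          mul_le_mul_of_nonneg_right h2 (by positivity)
      _ ≤ (h * 2) * 2 := mul_le_mul_of_nonneg_left (by linarith) (by positivity)
      _ = h * 4 := by ring
  have h4 : a ^ 2 * ((t ^ 2 + t ^ 4) / 4) ≤ a ^ 2 * ((c ^ 2 + c ^ 4) / 4 + 3 / 2 * h) :=
    mul_le_mul_of_nonneg_left (by linarith) (by positivity)
  have h5 : a * h ≤ a * (a / 4000) := mul_le_mul_of_nonneg_left hha ha0.le
  have h6 : a ^ 2 * h ≤ (1 / 1000) * (a * h) := by
    have := mul_le_mul_of_nonneg_right ha (by positivity : 0 ≤ a * h)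
    linarith
  linarith [sq_nonneg a]

/-- The fan cover of the regular tetrahedron: total base area below `√2 (1/2 - 6·10⁻⁹)`. -/
theorem fan_cover : ∃ (m : ℕ) (u p q r : Fin m → E3), m < 16000000 ∧
    (∀ i, ‖u i‖ = 1) ∧
    (∀ i, inner ℝ (p i) (u i) = 0 ∧ inner ℝ (q i) (u i) = 0 ∧ inner ℝ (r i) (u i) = 0) ∧
    Tet ⊆ ⋃ i, {x : E3 | ∃ b ∈ convexHull ℝ ({p i, q i, r i} : Set E3), ∃ t : ℝ, x = b + t • u i} ∧
    ∑ i, (μHE[2] (convexHull ℝ ({p i, q i, r i} : Set E3))).toReal ≤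
      Real.sqrt 2 * (1 / 2 - 6 / 10 ^ 9) := by
  obtain ⟨N, hNdef⟩ : ∃ N : ℕ, N = 4000000 := ⟨_, rfl⟩
  obtain ⟨h, hhdef⟩ : ∃ h : ℝ, h = 1 / 4000000 := ⟨_, rfl⟩
  obtain ⟨a, hadef⟩ : ∃ a : ℝ, a = 1 / 1000 := ⟨_, rfl⟩
  have hN : (N : ℝ) * h = 1 := by rw [hNdef, hhdef]; norm_num
  have hh : 0 < h := by rw [hhdef]; norm_num
  have ha0 : 0 < a := by rw [hadef]; norm_num
  have ha : a ≤ 1 / 1000 := by rw [hadef]
  have hha : h ≤ a / 4000 := by rw [hadef, hhdef]; norm_num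
  have hs2 : 0 < Real.sqrt 2 := Real.sqrt_pos.2 (by norm_num)
  set c : ℕ → ℝ := fun k => -1 + (2 * (k : ℝ) + 1) * h with hcdef
  have hc : ∀ k : Fin N, |c k| ≤ 1 := by
    intro k
    have hk : ((k : ℕ) : ℝ) + 1 ≤ N := by exact_mod_cast k.2
    have h1 := mul_le_mul_of_nonneg_right hk hh.le
    have h2 : 0 ≤ ((k : ℕ) : ℝ) * h := by positivity
    simp only [hcdef]
    rw [abs_le]
    constructor <;> linarith
  have low := fun k : Fin N => low_cyl a (c k) h (fanH a (c k)) hh (fanH_pos _ _)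
  have up := fun k : Fin N => up_cyl (-a) (c k) h (fanH a (c k)) hh (fanH_pos _ _)
  choose u1 p1 q1 r1 hu1 hp1 hq1 hr1 hcyl1 hA1 using low
  choose u2 p2 q2 r2 hu2 hp2 hq2 hr2 hcyl2 hA2 using up
  refine ⟨N + N, Fin.addCases u1 u2, Fin.addCases p1 p2, Fin.addCases q1 q2, Fin.addCases r1 r2,
    by omega, ?_, ?_, ?_, ?_⟩
  · intro i
    refine Fin.addCases (fun k => ?_) (fun k => ?_) i
    · simp only [Fin.addCases_left]; exact hu1 k
    · simp only [Fin.addCases_right]; exact hu2 k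
  · intro i
    refine Fin.addCases (fun k => ?_) (fun k => ?_) i
    · simp only [Fin.addCases_left]; exact ⟨hp1 k, hq1 k, hr1 k⟩
    · simp only [Fin.addCases_right]; exact ⟨hp2 k, hq2 k, hr2 k⟩
  · intro v hv
    obtain ⟨hx, hy⟩ := tet_coords hv
    obtain ⟨τ, hτ⟩ : ∃ τ, τ = v 2 / Real.sqrt 2 := ⟨_, rfl⟩
    rw [← hτ] at hx hy
    obtain ⟨t, ρ, ht, hρ, e1, e2⟩ := exists_fan_param (a * v 0) (v 1) τ hy
    obtain ⟨s, r, hs, hr, e3, e4⟩ := exists_fan_param (-a * v 1) (v 0) (1 - τ) hx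
    have hx1 : |v 0| ≤ 1 := by have := abs_nonneg (v 1); linarith
    have hy1 : |v 1| ≤ 1 := by have := abs_nonneg (v 0); linarith
    have hkey : ρ ≤ 1 / 2 + a ^ 2 * ((t ^ 2 + t ^ 4) / 4 + 1 / 240) ∨
        r ≤ 1 / 2 + a ^ 2 * ((s ^ 2 + s ^ 4) / 4 + 1 / 240) := by
      by_contra hcon
      push Not at hcon
      refine fan_key a ha0 ha (v 0) (v 1) τ ρ r t s hx hy ht hs ?_ ?_ ?_ ?_ hcon.1 hcon.2
      · exact e1
      · exact e2
      · rw [e3]; ring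
      · rw [e4]; ring
    rw [Set.mem_iUnion]
    rcases hkey with hρ1 | hr1'
    · obtain ⟨k, hk⟩ := exists_tag N h hN hh t ht
      refine ⟨Fin.castAdd N k, ?_⟩
      obtain ⟨b, hb, w, hw⟩ := hcyl1 k (v 0) (v 1) τ t ρ hx1 hk hρ
        (radius_le a (c k) h t ρ ha0 ha hh hha (hc k) ht hk hρ1) e1 e2
      have hv' : v = lowPt (v 0) (v 1) τ := by
        ext i
        fin_cases i
        · simp [lowPt]
        · simp [lowPt]
        · simp [lowPt, hτ]; field_simp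
      simp only [Set.mem_ofPred_eq, Fin.addCases_left]
      exact ⟨b, hb, w, hv'.trans hw⟩
    · obtain ⟨k, hk⟩ := exists_tag N h hN hh s hs
      refine ⟨Fin.natAdd N k, ?_⟩
      obtain ⟨b, hb, w, hw⟩ := hcyl2 k (v 1) (v 0) (1 - τ) s r hy1 hk hr
        (by
          rw [abs_neg]
          exact radius_le a (c k) h s r ha0 ha hh hha (hc k) hs hk hr1') e3 e4
      have hv' : v = upPt (v 1) (v 0) (1 - τ) := by
        ext i
        fin_cases i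
        · simp [upPt]
        · simp [upPt]
        · simp [upPt, hτ]; field_simp
      simp only [Set.mem_ofPred_eq, Fin.addCases_right]
      exact ⟨b, hb, w, hv'.trans hw⟩
  · rw [Fin.sum_univ_add]
    simp only [Fin.addCases_left, Fin.addCases_right, hA1, hA2]
    rw [neg_sq, ← two_mul, ← Finset.mul_sum]
    have h1 : ∑ k : Fin N, h * (fanH a (c k) ^ 2 /
        Real.sqrt (1 + a ^ 2 * ((1 + c k ^ 2) ^ 2 / 4 + 2 * c k ^ 2))) ≤
        ∑ k : Fin N, h * ((1 / 4 + a ^ 2 * (59 / 12000 - 1 / 32 + 2 * a ^ 2)) +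
          a ^ 2 * (-(-1 + (2 * ((k:ℕ):ℝ) + 1) * h) ^ 2 / 16 +
            7 * (-1 + (2 * ((k:ℕ):ℝ) + 1) * h) ^ 4 / 32)) := by
      apply Finset.sum_le_sum
      intro k _
      have h2 := fan_area_term a (c k) ha0 ha (hc k)
      apply mul_le_mul_of_nonneg_left _ hh.le
      refine h2.trans (le_of_eq ?_)
      simp only [hcdef]
      ring
    rw [Fin.sum_univ_eq_sum_range (fun k : ℕ => h * ((1 / 4 + a ^ 2 * (59 / 12000 - 1 / 32 + 2 * a ^ 2)) +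
          a ^ 2 * (-(-1 + (2 * ((k:ℕ):ℝ) + 1) * h) ^ 2 / 16 +
            7 * (-1 + (2 * ((k:ℕ):ℝ) + 1) * h) ^ 4 / 32))) N] at h1
    have h3 := fan_sum a (1 / 4 + a ^ 2 * (59 / 12000 - 1 / 32 + 2 * a ^ 2)) h N hN hh
    have h4 := h1.trans h3
    have h5 : (1 / 4 + a ^ 2 * (59 / 12000 - 1 / 32 + 2 * a ^ 2)) +
        a ^ 2 * (h ^ 2 / 48 - 1 / 48 + 7 / 160) ≤ (1 / 2 - 6 / 10 ^ 9) / 2 := by
      rw [hadef, hhdef]; norm_num
    have h6 := mul_le_mul_of_nonneg_left (h4.trans h5) hs2.le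
    linarith

end Crest.Agent.TetCover
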