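import Mathlib

set_option autoImplicit false

/-!
Area library for the cylinder-cover statements: Euclidean Hausdorff measure `μHE[2]` of affine
images of planar sets, of triangles and of parallelograms in `EuclideanSpace ℝ (Fin 3)`.
-/

namespace Crest.Agent.TetCover

open MeasureTheory Module
open scoped ENNReal

/-- The plane. -/
abbrev E2 : Type := EuclideanSpace ℝ (Fin 2)
/-- Three-space. -/
abbrev E3 : Type := EuclideanSpace ℝ (Fin 3)

/-- The linear map `x ↦ x₀ a + x₁ b`. -/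
noncomputable def lin2 (a b : E3) : E2 →ₗ[ℝ] E3 where
  toFun x := x 0 • a + x 1 • b
  map_add' x y := by simp [add_smul]; abel
  map_smul' c x := by simp [mul_smul, smul_add]

@[simp] lemma lin2_apply (a b : E3) (x : E2) : lin2 a b x = x 0 • a + x 1 • b := rfl

/-- Area of the parallelogram spanned by `a` and `b`. -/
noncomputable def area2 (a b : E3) : ℝ := Real.sqrt (‖a‖ ^ 2 * ‖b‖ ^ 2 - inner ℝ a b ^ 2)

lemma area2_nonneg (a b : E3) : 0 ≤ area2 a b := Real.sqrt_nonneg _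

lemma gram_nonneg (a b : E3) : 0 ≤ ‖a‖ ^ 2 * ‖b‖ ^ 2 - inner ℝ a b ^ 2 := by
  have h := abs_real_inner_le_norm a b
  have h2 : inner ℝ a b ^ 2 ≤ (‖a‖ * ‖b‖) ^ 2 := by
    rw [← sq_abs]
    exact pow_le_pow_left₀ (abs_nonneg _) h 2
  nlinarith [h2]

lemma area2_sq (a b : E3) : area2 a b ^ 2 = ‖a‖ ^ 2 * ‖b‖ ^ 2 - inner ℝ a b ^ 2 :=
  Real.sq_sqrt (gram_nonneg a b)

lemma normDet_lin2 (a b : E3) : (lin2 a b).normDet = area2 a b := by
  have h := (lin2 a b).normDet_sq_eq_det_gram (EuclideanSpace.basisFun (Fin 2) ℝ)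
  rw [Matrix.det_fin_two] at h
  have h0 : (lin2 a b) ((EuclideanSpace.basisFun (Fin 2) ℝ) 0) = a := by simp
  have h1 : (lin2 a b) ((EuclideanSpace.basisFun (Fin 2) ℝ) 1) = b := by simp
  simp only [Matrix.gram, Matrix.of_apply, h0, h1, real_inner_self_eq_norm_sq] at h
  rw [real_inner_comm a b] at h
  have h' : (lin2 a b).normDet ^ 2 = area2 a b ^ 2 := by
    rw [area2_sq]
    have : ((lin2 a b).normDet ^ 2 : ℝ) = ‖a‖ ^ 2 * ‖b‖ ^ 2 - inner ℝ a b * inner ℝ a b := by
      simpa [real_inner_comm] using h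
    rw [this]; ring
  exact (pow_left_inj₀ (LinearMap.normDet_nonneg _) (area2_nonneg a b) two_ne_zero).1 h'

lemma muHE_lin2_image (a b : E3) (s : Set E2) :
    μHE[2] ((lin2 a b) '' s) = ENNReal.ofReal (area2 a b) * volume s := by
  have h := (lin2 a b).euclideanHausdorffMeasure_image_eq_normDet_mul_volume s
  rw [normDet_lin2] at h
  simpa using h

lemma muHE_affine_image (c a b : E3) (s : Set E2) :
    μHE[2] ((fun x : E2 => c + (x 0 • a + x 1 • b)) '' s) =
      ENNReal.ofReal (area2 a b) * volume s := by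
  have : (fun x : E2 => c + (x 0 • a + x 1 • b)) '' s = (IsometryEquiv.addLeft c) '' ((lin2 a b) '' s) := by
    rw [Set.image_image]; rfl
  rw [this, Isometry.euclideanHausdorffMeasure_image (IsometryEquiv.isometry _), muHE_lin2_image]


/-- E2 is measurably ℝ × ℝ. -/
lemma mp_E2 : MeasurePreserving (fun x : E2 => (x 0, x 1)) volume (volume : Measure (ℝ × ℝ)) := by
  have h1 := EuclideanSpace.volume_preserving_symm_measurableEquiv_toLp (Fin 2)
  have h2 := MeasureTheory.volume_preserving_finTwoArrow ℝ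
  exact h2.comp h1

/-- The standard triangle. -/
def T0 : Set E2 := {x | 0 ≤ x 0 ∧ 0 ≤ x 1 ∧ x 0 + x 1 ≤ 1}
/-- The unit square. -/
def Q0 : Set E2 := {x | 0 ≤ x 0 ∧ x 0 ≤ 1 ∧ 0 ≤ x 1 ∧ x 1 ≤ 1}

lemma volume_T0 : volume T0 = ENNReal.ofReal (1 / 2) := by
  have hS : MeasurableSet {p : ℝ × ℝ | 0 ≤ p.1 ∧ 0 ≤ p.2 ∧ p.1 + p.2 ≤ 1} := by
    apply IsClosed.measurableSet
    exact (isClosed_le continuous_const continuous_fst).inter
      ((isClosed_le continuous_const continuous_snd).inter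
        (isClosed_le (continuous_fst.add continuous_snd) continuous_const))
  have h := mp_E2.measure_preimage hS.nullMeasurableSet
  have e : (fun x : E2 => (x 0, x 1)) ⁻¹' {p : ℝ × ℝ | 0 ≤ p.1 ∧ 0 ≤ p.2 ∧ p.1 + p.2 ≤ 1} = T0 := rfl
  rw [e] at h
  rw [h, Measure.volume_eq_prod, Measure.prod_apply hS]
  have h2 : ∀ x : ℝ, volume (Prod.mk x ⁻¹' {p : ℝ × ℝ | 0 ≤ p.1 ∧ 0 ≤ p.2 ∧ p.1 + p.2 ≤ 1}) =
      (Set.Icc (0:ℝ) 1).indicator (fun x => ENNReal.ofReal (1 - x)) x := by
    intro x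
    by_cases hx : x ∈ Set.Icc (0:ℝ) 1
    · rw [Set.indicator_of_mem hx]
      have : Prod.mk x ⁻¹' {p : ℝ × ℝ | 0 ≤ p.1 ∧ 0 ≤ p.2 ∧ p.1 + p.2 ≤ 1} = Set.Icc 0 (1 - x) := by
        ext y
        simp only [Set.mem_preimage, Set.mem_ofPred_eq, Set.mem_Icc]
        constructor
        · rintro ⟨_, h1, h2⟩; exact ⟨h1, by linarith⟩
        · rintro ⟨h1, h2⟩; exact ⟨hx.1, h1, by linarith⟩
      rw [this, Real.volume_Icc]; simp
    · rw [Set.indicator_of_notMem hx]
      have : Prod.mk x ⁻¹' {p : ℝ × ℝ | 0 ≤ p.1 ∧ 0 ≤ p.2 ∧ p.1 + p.2 ≤ 1} = ∅ := by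
        ext y
        simp only [Set.mem_preimage, Set.mem_ofPred_eq, Set.mem_empty_iff_false, iff_false]
        rintro ⟨h0, h1, h2⟩
        exact hx ⟨h0, by linarith⟩
      rw [this]; simp
  simp_rw [h2]
  rw [lintegral_indicator measurableSet_Icc, ← ofReal_integral_eq_lintegral_ofReal]
  · congr 1
    rw [integral_Icc_eq_integral_Ioc, ← intervalIntegral.integral_of_le (by norm_num)]
    rw [intervalIntegral.integral_sub (by simp) (by simp)]
    simp
    norm_num
  · exact (continuous_const.sub continuous_id).continuousOn.integrableOn_compact isCompact_Icc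
  · filter_upwards [ae_restrict_mem measurableSet_Icc] with x hx
    simp only [Pi.zero_apply]
    linarith [hx.2]

lemma volume_Q0 : volume Q0 = 1 := by
  have hS : MeasurableSet (Set.Icc (0:ℝ) 1 ×ˢ Set.Icc (0:ℝ) 1) := measurableSet_Icc.prod measurableSet_Icc
  have h := mp_E2.measure_preimage hS.nullMeasurableSet
  have e : (fun x : E2 => (x 0, x 1)) ⁻¹' (Set.Icc (0:ℝ) 1 ×ˢ Set.Icc (0:ℝ) 1) = Q0 := by
    ext x; simp only [Q0, Set.mem_preimage, Set.mem_prod, Set.mem_Icc, Set.mem_ofPred_eq]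
    tauto
  rw [e] at h
  rw [h, Measure.volume_eq_prod, Measure.prod_prod]
  simp


lemma mem_triangle_iff {E : Type*} [AddCommGroup E] [Module ℝ E] (p q r x : E) :
    x ∈ convexHull ℝ ({p, q, r} : Set E) ↔
      ∃ α β : ℝ, 0 ≤ α ∧ 0 ≤ β ∧ α + β ≤ 1 ∧ x = p + (α • (q - p) + β • (r - p)) := by
  rw [convexHull_insert (by simp), convexHull_pair]
  simp only [convexJoin_singleton_left, Set.mem_iUnion, segment, Set.mem_ofPred_eq, exists_prop]
  constructor
  · rintro ⟨y, ⟨a, b, ha, hb, hab, rfl⟩, c, d, hc, hd, hcd, rfl⟩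
    refine ⟨d * a, d * b, by positivity, by positivity, ?_, ?_⟩
    · rw [← mul_add, hab]; linarith
    · have : c = 1 - d := by linarith
      subst this
      have : a = 1 - b := by linarith
      subst this
      module
  · rintro ⟨α, β, hα, hβ, hαβ, rfl⟩
    rcases (add_nonneg hα hβ).eq_or_lt with h0 | h0
    · have h1 : α = 0 := by linarith
      have h2 : β = 0 := by linarith
      subst h1 h2
      exact ⟨q, ⟨1, 0, by simp, by simp, by simp, by simp⟩, 1, 0, by simp, by simp, by simp, by simp⟩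
    · refine ⟨(α / (α + β)) • q + (β / (α + β)) • r,
        ⟨α / (α + β), β / (α + β), by positivity, by positivity, ?_, rfl⟩,
        1 - (α + β), α + β, by linarith, h0.le, by ring, ?_⟩
      · rw [← add_div, div_self h0.ne']
      · rw [smul_add, smul_smul, smul_smul, mul_div_cancel₀ _ h0.ne', mul_div_cancel₀ _ h0.ne']
        module

lemma triangle_eq_image (p q r : E3) :
    convexHull ℝ ({p, q, r} : Set E3) = (fun x : E2 => p + (x 0 • (q - p) + x 1 • (r - p))) '' T0 := by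
  ext x
  rw [mem_triangle_iff]
  constructor
  · rintro ⟨α, β, hα, hβ, hαβ, rfl⟩
    exact ⟨!₂[α, β], ⟨by simpa using hα, by simpa using hβ, by simpa using hαβ⟩, by simp⟩
  · rintro ⟨y, ⟨h0, h1, h2⟩, rfl⟩
    exact ⟨y 0, y 1, h0, h1, h2, rfl⟩

lemma muHE_triangle (p q r : E3) :
    μHE[2] (convexHull ℝ ({p, q, r} : Set E3)) = ENNReal.ofReal (area2 (q - p) (r - p) / 2) := by
  rw [triangle_eq_image, muHE_affine_image, volume_T0, ← ENNReal.ofReal_mul (area2_nonneg _ _)]
  congr 1; ring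

lemma muHE_triangle_toReal (p q r : E3) :
    (μHE[2] (convexHull ℝ ({p, q, r} : Set E3))).toReal = area2 (q - p) (r - p) / 2 := by
  rw [muHE_triangle, ENNReal.toReal_ofReal]
  have := area2_nonneg (q - p) (r - p)
  linarith

lemma parallelogram_eq_image (c a b : E3) :
    {x : E3 | ∃ s ∈ Set.Icc (0 : ℝ) 1, ∃ t ∈ Set.Icc (0 : ℝ) 1, x = c + s • a + t • b} =
      (fun x : E2 => c + (x 0 • a + x 1 • b)) '' Q0 := by
  ext x
  constructor
  · rintro ⟨s, hs, t, ht, rfl⟩
    exact ⟨!₂[s, t], ⟨by simpa using hs.1, by simpa using hs.2, by simpa using ht.1, by simpa using ht.2⟩,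
      by simp [add_assoc]⟩
  · rintro ⟨y, ⟨h0, h1, h2, h3⟩, rfl⟩
    exact ⟨y 0, ⟨h0, h1⟩, y 1, ⟨h2, h3⟩, by simp [add_assoc]⟩

lemma muHE_parallelogram (c a b : E3) :
    μHE[2] {x : E3 | ∃ s ∈ Set.Icc (0 : ℝ) 1, ∃ t ∈ Set.Icc (0 : ℝ) 1, x = c + s • a + t • b} =
      ENNReal.ofReal (area2 a b) := by
  rw [parallelogram_eq_image, muHE_affine_image, volume_Q0, mul_one]

lemma muHE_parallelogram_toReal (c a b : E3) :
    (μHE[2] {x : E3 | ∃ s ∈ Set.Icc (0 : ℝ) 1, ∃ t ∈ Set.Icc (0 : ℝ) 1, x = c + s • a + t • b}).toReal =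
      area2 a b := by
  rw [muHE_parallelogram, ENNReal.toReal_ofReal (area2_nonneg _ _)]

/-- `μH[2]` is a fixed positive finite multiple of `μHE[2]`, on every subset of three-space. -/
lemma exists_muH_eq : ∃ κ : ℝ, 0 < κ ∧ ∀ s : Set E3, (μH[(2 : ℝ)] s).toReal = κ * (μHE[2] s).toReal := by
  refine ⟨(Measure.addHaarScalarFactor (volume : Measure (EuclideanSpace ℝ (Fin 2))) μH[(2 : ℕ)] : ℝ)⁻¹, ?_, ?_⟩
  · have := Measure.addHaarScalarFactor_volume_hausdorffMeasure_ne_zero 2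
    positivity
  · intro s
    have h := Measure.addHaarScalarFactor_volume_hausdorffMeasure_ne_zero 2
    rw [Measure.euclideanHausdorffMeasure_def]
    simp only [Measure.smul_apply, Measure.nnreal_smul_coe_apply, ENNReal.toReal_mul,
      ENNReal.coe_toReal]
    rw [← mul_assoc, inv_mul_cancel₀ (by exact_mod_cast h), one_mul]
    norm_cast

end Crest.Agent.TetCover
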