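import Mathlib
import Crest.Agent.TetCover.Area

set_option autoImplicit false

/-!
Projections of the regular tetrahedron with vertices `(±1,0,0)`, `(0,±1,√2)`: the least area is `√2`.
-/

namespace Crest.Agent.TetCover

open MeasureTheory Module
open scoped ENNReal

/-- Triple product. -/
noncomputable def det3 (v a b : E3) : ℝ :=
  v 0 * (a 1 * b 2 - a 2 * b 1) - v 1 * (a 0 * b 2 - a 2 * b 0) + v 2 * (a 0 * b 1 - a 1 * b 0)

lemma inner3 (a b : E3) : inner ℝ a b = a 0 * b 0 + a 1 * b 1 + a 2 * b 2 := by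
  simp [PiLp.inner_apply, Fin.sum_univ_three]; ring

lemma norm3_sq (a : E3) : ‖a‖ ^ 2 = a 0 ^ 2 + a 1 ^ 2 + a 2 ^ 2 := by
  simp [EuclideanSpace.norm_sq_eq, Fin.sum_univ_three]

/-- The projection along `v`, as a linear map. -/
noncomputable def projv (v : E3) : E3 →ₗ[ℝ] E3 where
  toFun y := y - inner ℝ y v • v
  map_add' x y := by rw [inner_add_left, add_smul]; abel
  map_smul' c x := by simp [inner_smul_left, mul_smul, smul_sub]

lemma projv_apply (v y : E3) : projv v y = y - inner ℝ y v • v := rfl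

lemma projv_coe (v : E3) : (fun y : E3 => y - inner ℝ y v • v) = projv v := rfl

lemma inner_projv (v : E3) (hv : ‖v‖ = 1) (y : E3) : inner ℝ (projv v y) v = 0 := by
  rw [projv_apply, inner_sub_left, inner_smul_left, real_inner_self_eq_norm_sq, hv]
  simp

lemma area2_projv (v a b : E3) (hv : ‖v‖ = 1) : area2 (projv v a) (projv v b) = |det3 v a b| := by
  unfold area2
  rw [← Real.sqrt_sq_eq_abs]
  congr 1
  have hv2 : v 0 ^ 2 + v 1 ^ 2 + v 2 ^ 2 = 1 := by rw [← norm3_sq, hv]; norm_num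
  have hz : ∀ c : E3, ‖projv v c‖ ^ 2 = (c 0 ^ 2 + c 1 ^ 2 + c 2 ^ 2) - (c 0 * v 0 + c 1 * v 1 + c 2 * v 2) ^ 2 := by
    intro c
    rw [norm3_sq, projv_apply, inner3]
    simp only [PiLp.sub_apply, PiLp.smul_apply, smul_eq_mul]
    linear_combination (c 0 * v 0 + c 1 * v 1 + c 2 * v 2) ^ 2 * hv2
  have hi : inner ℝ (projv v a) (projv v b) = (a 0 * b 0 + a 1 * b 1 + a 2 * b 2) -
      (a 0 * v 0 + a 1 * v 1 + a 2 * v 2) * (b 0 * v 0 + b 1 * v 1 + b 2 * v 2) := by
    rw [inner3, projv_apply, projv_apply, inner3, inner3]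
    simp only [PiLp.sub_apply, PiLp.smul_apply, smul_eq_mul]
    linear_combination (a 0 * v 0 + a 1 * v 1 + a 2 * v 2) * (b 0 * v 0 + b 1 * v 1 + b 2 * v 2) * hv2
  rw [hz, hz, hi]
  unfold det3
  linear_combination (-((a 0 * b 1 - a 1 * b 0) ^ 2 + (a 0 * b 2 - a 2 * b 0) ^ 2 + (a 1 * b 2 - a 2 * b 1) ^ 2)) * hv2

lemma det3_smul_add (v a b c : E3) (s t : ℝ) : det3 v a (s • b + t • c) = s * det3 v a b + t * det3 v a c := by
  simp only [det3, PiLp.add_apply, PiLp.smul_apply, smul_eq_mul]; ring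

lemma det3_self (v a : E3) : det3 v a a = 0 := by
  simp only [det3]; ring

lemma det3_projv (v a b : E3) : det3 v (projv v a) (projv v b) = det3 v a b := by
  simp only [det3, projv_apply, PiLp.sub_apply, PiLp.smul_apply, smul_eq_mul]; ring

lemma volume_line : volume {x : E2 | x 1 = 0} = 0 := by
  have hS : MeasurableSet {p : ℝ × ℝ | p.2 = 0} := (isClosed_eq continuous_snd continuous_const).measurableSet
  have h := mp_E2.measure_preimage hS.nullMeasurableSet
  have e : (fun x : E2 => (x 0, x 1)) ⁻¹' {p : ℝ × ℝ | p.2 = 0} = {x : E2 | x 1 = 0} := rfl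
  rw [e] at h
  rw [h]
  have : {p : ℝ × ℝ | p.2 = 0} = Set.univ ×ˢ {0} := by ext p; simp
  rw [this, Measure.volume_eq_prod, Measure.prod_prod]
  simp

lemma image_projv_convexHull (v : E3) (S : Set E3) :
    (projv v) '' (convexHull ℝ S) = convexHull ℝ ((projv v) '' S) :=
  LinearMap.image_convexHull _ _

lemma measurableSet_triangle (p q r : E3) : MeasurableSet (convexHull ℝ ({p, q, r} : Set E3)) :=
  ((Set.toFinite _).isCompact_convexHull (𝕜 := ℝ)).isClosed.measurableSet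

/-- A projected triangle inside a projected convex set. -/
lemma tri_le (v : E3) (hv : ‖v‖ = 1) (K : Set E3) (hK : Convex ℝ K) (p q r : E3)
    (hp : p ∈ K) (hq : q ∈ K) (hr : r ∈ K) :
    ENNReal.ofReal (|det3 v (q - p) (r - p)| / 2) ≤ μHE[2] ((projv v) '' K) := by
  have h : convexHull ℝ ({projv v p, projv v q, projv v r} : Set E3) ⊆ (projv v) '' K := by
    apply convexHull_min
    · rintro x (rfl | rfl | rfl)
      exacts [⟨p, hp, rfl⟩, ⟨q, hq, rfl⟩, ⟨r, hr, rfl⟩]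
    · exact hK.linear_image _
  refine le_trans ?_ (measure_mono h)
  rw [muHE_triangle, ← map_sub, ← map_sub, area2_projv v _ _ hv]

/-- The quadrilateral bound: if `P3, P4` are on strictly opposite sides of the line `P1 P2`. -/
lemma quad_opp (v : E3) (hv : ‖v‖ = 1) (K : Set E3) (hK : Convex ℝ K) (p1 p2 p3 p4 : E3)
    (h1 : p1 ∈ K) (h2 : p2 ∈ K) (h3 : p3 ∈ K) (h4 : p4 ∈ K)
    (ho : det3 v (p2 - p1) (p3 - p1) * det3 v (p2 - p1) (p4 - p1) < 0) :
    ENNReal.ofReal (|det3 v (p2 - p1) (p3 - p1)| / 2 + |det3 v (p2 - p1) (p4 - p1)| / 2) ≤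
      μHE[2] ((projv v) '' K) := by
  set T1 := convexHull ℝ ({projv v p1, projv v p2, projv v p3} : Set E3) with hT1
  set T2 := convexHull ℝ ({projv v p1, projv v p2, projv v p4} : Set E3) with hT2
  have s1 : T1 ⊆ (projv v) '' K := by
    apply convexHull_min
    · rintro x (rfl | rfl | rfl)
      exacts [⟨_, h1, rfl⟩, ⟨_, h2, rfl⟩, ⟨_, h3, rfl⟩]
    · exact hK.linear_image _
  have s2 : T2 ⊆ (projv v) '' K := by
    apply convexHull_min
    · rintro x (rfl | rfl | rfl)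
      exacts [⟨_, h1, rfl⟩, ⟨_, h2, rfl⟩, ⟨_, h4, rfl⟩]
    · exact hK.linear_image _
  have hd : μHE[2] (T1 ∩ T2) = 0 := by
    have hsub : T1 ∩ T2 ⊆ (fun x : E2 => projv v p1 + (x 0 • (projv v p2 - projv v p1) +
        x 1 • (projv v p3 - projv v p1))) '' {x : E2 | x 1 = 0} := by
      rintro x ⟨hx1, hx2⟩
      rw [hT1, mem_triangle_iff] at hx1
      rw [hT2, mem_triangle_iff] at hx2
      obtain ⟨α, β, hα, hβ, hαβ, rfl⟩ := hx1
      obtain ⟨α', β', hα', hβ', hαβ', hx⟩ := hx2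
      have e1 := add_left_cancel hx
      have e2 := congrArg (det3 v (projv v p2 - projv v p1)) e1
      rw [det3_smul_add, det3_smul_add, det3_self, ← map_sub, ← map_sub, ← map_sub, det3_projv, det3_projv,
        mul_zero, mul_zero, zero_add, zero_add] at e2
      have hβ0 : β = 0 := by
        rcases mul_neg_iff.1 ho with ⟨a, b⟩ | ⟨a, b⟩
        · have : β * det3 v (p2 - p1) (p3 - p1) ≤ 0 := by rw [e2]; exact mul_nonpos_of_nonneg_of_nonpos hβ' b.le
          nlinarith [mul_nonneg hβ a.le]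
        · have : 0 ≤ β * det3 v (p2 - p1) (p3 - p1) := by rw [e2]; exact mul_nonneg hβ' b.le
          nlinarith [mul_nonneg hβ (neg_nonneg.2 a.le)]
      exact ⟨!₂[α, β], by simp [hβ0], by simp⟩
    refine measure_mono_null hsub ?_
    rw [muHE_affine_image, volume_line, mul_zero]
  have hu : μHE[2] (T1 ∪ T2) = μHE[2] T1 + μHE[2] T2 := by
    apply measure_union₀ (measurableSet_triangle _ _ _).nullMeasurableSet hd
  have e1 : μHE[2] T1 = ENNReal.ofReal (|det3 v (p2 - p1) (p3 - p1)| / 2) := by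
    rw [hT1, muHE_triangle, ← map_sub, ← map_sub, area2_projv v _ _ hv]
  have e2 : μHE[2] T2 = ENNReal.ofReal (|det3 v (p2 - p1) (p4 - p1)| / 2) := by
    rw [hT2, muHE_triangle, ← map_sub, ← map_sub, area2_projv v _ _ hv]
  rw [ENNReal.ofReal_add (by positivity) (by positivity), ← e1, ← e2, ← hu]
  exact measure_mono (Set.union_subset s1 s2)

/-- The bound by the cross product of two "diagonals". -/
lemma quad_le (v : E3) (hv : ‖v‖ = 1) (K : Set E3) (hK : Convex ℝ K) (p1 p2 p3 p4 : E3)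
    (h1 : p1 ∈ K) (h2 : p2 ∈ K) (h3 : p3 ∈ K) (h4 : p4 ∈ K) :
    ENNReal.ofReal (|det3 v (p2 - p1) (p4 - p3)| / 2) ≤ μHE[2] ((projv v) '' K) := by
  have he : det3 v (p2 - p1) (p4 - p3) = det3 v (p2 - p1) (p4 - p1) - det3 v (p2 - p1) (p3 - p1) := by
    simp only [det3, PiLp.sub_apply]; ring
  rw [he]
  set D3 := det3 v (p2 - p1) (p3 - p1) with hD3
  set D4 := det3 v (p2 - p1) (p4 - p1) with hD4
  by_cases ho : D3 * D4 < 0
  · refine le_trans (ENNReal.ofReal_le_ofReal ?_) (quad_opp v hv K hK p1 p2 p3 p4 h1 h2 h3 h4 ho)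
    have := abs_sub D4 D3
    linarith
  · push Not at ho
    rcases le_total |D3| |D4| with h | h
    · refine le_trans (ENNReal.ofReal_le_ofReal ?_) (tri_le v hv K hK p1 p2 p4 h1 h2 h4)
      rw [← hD4]
      have : |D4 - D3| ≤ |D4| := by
        apply sq_le_sq.1
        have h2 : D3 * D3 ≤ D3 * D4 := by
          rcases le_total 0 D3 with a | a <;> rcases le_total 0 D4 with b | b
          · rw [abs_of_nonneg a, abs_of_nonneg b] at h; nlinarith
          · rw [abs_of_nonneg a, abs_of_nonpos b] at h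
            nlinarith [mul_nonneg a (neg_nonneg.2 b)]
          · rw [abs_of_nonpos a, abs_of_nonneg b] at h
            nlinarith [mul_nonneg (neg_nonneg.2 a) b]
          · rw [abs_of_nonpos a, abs_of_nonpos b] at h; nlinarith
        nlinarith
      linarith
    · refine le_trans (ENNReal.ofReal_le_ofReal ?_) (tri_le v hv K hK p1 p2 p3 h1 h2 h3)
      rw [← hD3]
      have : |D4 - D3| ≤ |D3| := by
        apply sq_le_sq.1
        have h2 : D4 * D4 ≤ D3 * D4 := by
          rcases le_total 0 D3 with a | a <;> rcases le_total 0 D4 with b | b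
          · rw [abs_of_nonneg a, abs_of_nonneg b] at h; nlinarith
          · rw [abs_of_nonneg a, abs_of_nonpos b] at h
            nlinarith [mul_nonneg a (neg_nonneg.2 b)]
          · rw [abs_of_nonpos a, abs_of_nonneg b] at h
            nlinarith [mul_nonneg (neg_nonneg.2 a) b]
          · rw [abs_of_nonpos a, abs_of_nonpos b] at h; nlinarith
        nlinarith
      linarith


/-- The tetrahedron. -/
noncomputable def Ktet : Set E3 :=
  convexHull ℝ {!₂[1, 0, 0], !₂[-1, 0, 0], !₂[0, 1, Real.sqrt 2], !₂[0, -1, Real.sqrt 2]}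

/-- The elementary inequality. -/
lemma seven_aux (s x y z : ℝ) (hs : 0 < s) (hs2 : s ^ 2 = 2) (h : x ^ 2 + y ^ 2 + z ^ 2 = 1) :
    s ≤ |4 * z| / 2 ∨ s ≤ |2 * s * x + 2 * s * y| / 2 ∨ s ≤ |2 * s * x - 2 * s * y| / 2 ∨
    s ≤ |2 * s * y - 2 * z| / 2 ∨ s ≤ |2 * s * y + 2 * z| / 2 ∨
    s ≤ |2 * s * x - 2 * z| / 2 ∨ s ≤ |2 * s * x + 2 * z| / 2 := by
  by_contra hcon
  push Not at hcon
  obtain ⟨h1, h2, h3, h4, h5, h6, h7⟩ := hcon
  have key : ∀ X Y Z : ℝ, 0 ≤ X → 0 ≤ Y → 0 ≤ Z → X ^ 2 + Y ^ 2 + Z ^ 2 = 1 → Y ≤ X → X + Y < 1 → 2 * Z < s →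
      s ≤ s * X + Z := by
    intro X Y Z hX hY hZ hXYZ hYX hXY hZs
    have hZ2 : 4 * Z ^ 2 < 2 := by nlinarith
    have hX2 : 1 / 4 < X ^ 2 := by nlinarith
    have hX3 : 1 / 2 < X := by nlinarith
    have hX4 : X ≤ 1 := by linarith
    have hZ3 : (s * (1 - X)) ^ 2 ≤ Z ^ 2 := by
      have : (s * (1 - X)) ^ 2 = 2 * (1 - X) ^ 2 := by rw [mul_pow, hs2]
      rw [this]
      nlinarith [mul_nonneg (sub_nonneg.2 hX4) (sub_nonneg.2 hX3.le)]
    have := abs_le_of_sq_le_sq' hZ3 hZ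
    linarith [this.2]
  have e1 : 2 * |z| < s := by rw [abs_mul] at h1; norm_num at h1; linarith
  have e2 : |x| + |y| < 1 := by
    have a1 : |x + y| < 1 := by
      have : |2 * s * x + 2 * s * y| = 2 * s * |x + y| := by
        rw [← mul_add, abs_mul, abs_of_pos (by positivity : 0 < 2 * s)]
      rw [this] at h2; nlinarith
    have a2 : |x - y| < 1 := by
      have : |2 * s * x - 2 * s * y| = 2 * s * |x - y| := by
        rw [← mul_sub, abs_mul, abs_of_pos (by positivity : 0 < 2 * s)]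
      rw [this] at h3; nlinarith
    rw [abs_lt] at a1 a2
    rcases abs_cases x with ⟨hx, _⟩ | ⟨hx, _⟩ <;> rcases abs_cases y with ⟨hy, _⟩ | ⟨hy, _⟩ <;> rw [hx, hy] <;>
      linarith [a1.1, a1.2, a2.1, a2.2]
  have e3 : s * |x| + |z| < s := by
    have a1 : |s * x - z| < s := by
      have : |2 * s * x - 2 * z| = 2 * |s * x - z| := by
        rw [mul_assoc, ← mul_sub, abs_mul]; norm_num
      rw [this] at h6; linarith
    have a2 : |s * x + z| < s := by
      have : |2 * s * x + 2 * z| = 2 * |s * x + z| := by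
        rw [mul_assoc, ← mul_add, abs_mul]; norm_num
      rw [this] at h7; linarith
    rw [abs_lt] at a1 a2
    rcases abs_cases x with ⟨hx, _⟩ | ⟨hx, _⟩ <;> rcases abs_cases z with ⟨hz, _⟩ | ⟨hz, _⟩ <;> rw [hx, hz] <;>
      linarith [a1.1, a1.2, a2.1, a2.2]
  have e4 : s * |y| + |z| < s := by
    have a1 : |s * y - z| < s := by
      have : |2 * s * y - 2 * z| = 2 * |s * y - z| := by
        rw [mul_assoc, ← mul_sub, abs_mul]; norm_num
      rw [this] at h4; linarith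
    have a2 : |s * y + z| < s := by
      have : |2 * s * y + 2 * z| = 2 * |s * y + z| := by
        rw [mul_assoc, ← mul_add, abs_mul]; norm_num
      rw [this] at h5; linarith
    rw [abs_lt] at a1 a2
    rcases abs_cases y with ⟨hy, _⟩ | ⟨hy, _⟩ <;> rcases abs_cases z with ⟨hz, _⟩ | ⟨hz, _⟩ <;> rw [hy, hz] <;>
      linarith [a1.1, a1.2, a2.1, a2.2]
  rcases le_total |y| |x| with hxy | hxy
  · have := key |x| |y| |z| (abs_nonneg _) (abs_nonneg _) (abs_nonneg _) (by rw [sq_abs, sq_abs, sq_abs]; exact h)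
      hxy e2 e1
    linarith
  · have := key |y| |x| |z| (abs_nonneg _) (abs_nonneg _) (abs_nonneg _)
      (by rw [sq_abs, sq_abs, sq_abs]; linarith) hxy (by linarith) e1
    linarith

theorem proj_lower (v : E3) (hv : ‖v‖ = 1) : ENNReal.ofReal (Real.sqrt 2) ≤ μHE[2] ((projv v) '' Ktet) := by
  have hK : Convex ℝ Ktet := convex_convexHull _ _
  have h1 : (!₂[1, 0, 0] : E3) ∈ Ktet := subset_convexHull ℝ _ (by simp)
  have h2 : (!₂[-1, 0, 0] : E3) ∈ Ktet := subset_convexHull ℝ _ (by simp)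
  have h3 : (!₂[0, 1, Real.sqrt 2] : E3) ∈ Ktet := subset_convexHull ℝ _ (by simp)
  have h4 : (!₂[0, -1, Real.sqrt 2] : E3) ∈ Ktet := subset_convexHull ℝ _ (by simp)
  have hv2 : v 0 ^ 2 + v 1 ^ 2 + v 2 ^ 2 = 1 := by rw [← norm3_sq, hv]; norm_num
  have hs : 0 < Real.sqrt 2 := by positivity
  have hs2 : Real.sqrt 2 ^ 2 = 2 := Real.sq_sqrt (by norm_num)
  rcases seven_aux (Real.sqrt 2) (v 0) (v 1) (v 2) hs hs2 hv2 with h | h | h | h | h | h | h
  · refine le_trans (ENNReal.ofReal_le_ofReal h) (le_trans (le_of_eq ?_) (quad_le v hv Ktet hK _ _ _ _ h1 h2 h3 h4))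
    congr 3; simp [det3]; ring
  · refine le_trans (ENNReal.ofReal_le_ofReal h) (le_trans (le_of_eq ?_) (quad_le v hv Ktet hK _ _ _ _ h1 h3 h2 h4))
    congr 3; simp [det3]; ring
  · refine le_trans (ENNReal.ofReal_le_ofReal h) (le_trans (le_of_eq ?_) (quad_le v hv Ktet hK _ _ _ _ h1 h4 h3 h2))
    congr 3; simp [det3]; ring
  · refine le_trans (ENNReal.ofReal_le_ofReal h) (le_trans (le_of_eq ?_) (tri_le v hv Ktet hK _ _ _ h1 h2 h3))
    congr 3; simp [det3]; ring
  · refine le_trans (ENNReal.ofReal_le_ofReal h) (le_trans (le_of_eq ?_) (tri_le v hv Ktet hK _ _ _ h1 h2 h4))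
    congr 3; simp [det3]; ring
  · refine le_trans (ENNReal.ofReal_le_ofReal h) (le_trans (le_of_eq ?_) (tri_le v hv Ktet hK _ _ _ h2 h3 h4))
    congr 3; simp [det3]; ring
  · refine le_trans (ENNReal.ofReal_le_ofReal h) (le_trans (le_of_eq ?_) (tri_le v hv Ktet hK _ _ _ h1 h3 h4))
    congr 3; simp [det3]; ring

theorem proj_eq : μHE[2] ((projv (!₂[1, 0, 0] : E3)) '' Ktet) = ENNReal.ofReal (Real.sqrt 2) := by
  have e : (projv (!₂[1, 0, 0] : E3)) '' Ktet =
      convexHull ℝ ({!₂[0, 0, 0], !₂[0, 1, Real.sqrt 2], !₂[0, -1, Real.sqrt 2]} : Set E3) := by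
    unfold Ktet
    rw [image_projv_convexHull]
    congr 1
    simp only [Set.image_insert_eq, Set.image_singleton]
    have a1 : projv (!₂[1, 0, 0] : E3) !₂[1, 0, 0] = !₂[0, 0, 0] := by
      rw [projv_apply, inner3]; ext i; fin_cases i <;> simp
    have a2 : projv (!₂[1, 0, 0] : E3) !₂[-1, 0, 0] = !₂[0, 0, 0] := by
      rw [projv_apply, inner3]; ext i; fin_cases i <;> simp
    have a3 : projv (!₂[1, 0, 0] : E3) !₂[0, 1, Real.sqrt 2] = !₂[0, 1, Real.sqrt 2] := by
      rw [projv_apply, inner3]; ext i; fin_cases i <;> simp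
    have a4 : projv (!₂[1, 0, 0] : E3) !₂[0, -1, Real.sqrt 2] = !₂[0, -1, Real.sqrt 2] := by
      rw [projv_apply, inner3]; ext i; fin_cases i <;> simp
    rw [a1, a2, a3, a4, Set.insert_eq_of_mem (by simp)]
  rw [e, muHE_triangle]
  congr 1
  have hs : 0 ≤ Real.sqrt 2 := by positivity
  have hs2 : Real.sqrt 2 ^ 2 = 2 := Real.sq_sqrt (by norm_num)
  have : area2 (!₂[0, 1, Real.sqrt 2] - !₂[0, 0, 0] : E3) (!₂[0, -1, Real.sqrt 2] - !₂[0, 0, 0] : E3) = 2 * Real.sqrt 2 := by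
    unfold area2
    rw [norm3_sq, norm3_sq, inner3]
    rw [Real.sqrt_eq_iff_mul_self_eq (by simp; nlinarith) (by positivity)]
    simp
    nlinarith
  rw [this]; ring

/-- A bounded set in a plane through the origin has finite area. -/
theorem muHE_lt_top (v : E3) (hv : ‖v‖ = 1) (S : Set E3) (hS : Bornology.IsBounded S)
    (h : ∀ x ∈ S, inner ℝ x v = 0) : μHE[2] S < ⊤ := by
  have : Fact (finrank ℝ E3 = 2 + 1) := ⟨by simp⟩
  have hv0 : v ≠ 0 := by rintro rfl; simp at hv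
  have hf : finrank ℝ (ℝ ∙ v)ᗮ = 2 := Submodule.finrank_orthogonal_span_singleton hv0
  let b := (stdOrthonormalBasis ℝ (ℝ ∙ v)ᗮ).reindex (finCongr hf)
  obtain ⟨R, hR⟩ := hS.exists_norm_le
  have hsub : S ⊆ (lin2 (b 0 : E3) (b 1 : E3)) '' (Metric.closedBall 0 (2 * R)) := by
    intro x hx
    have hx' : x ∈ (ℝ ∙ v)ᗮ := by
      rw [Submodule.mem_orthogonal_singleton_iff_inner_left]
      exact h x hx
    have hb := b.sum_repr ⟨x, hx'⟩
    rw [Fin.sum_univ_two] at hb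
    have hb2 := congrArg (Subtype.val) hb
    refine ⟨!₂[b.repr ⟨x, hx'⟩ 0, b.repr ⟨x, hx'⟩ 1], ?_, ?_⟩
    · rw [mem_closedBall_zero_iff]
      have hn : ‖b.repr ⟨x, hx'⟩‖ = ‖x‖ := by rw [LinearIsometryEquiv.norm_map]; rfl
      have hxR := hR x hx
      have h0 : ‖(!₂[b.repr ⟨x, hx'⟩ 0, b.repr ⟨x, hx'⟩ 1] : E2)‖ ^ 2 = ‖b.repr ⟨x, hx'⟩‖ ^ 2 := by
        rw [EuclideanSpace.norm_sq_eq, EuclideanSpace.norm_sq_eq, Fin.sum_univ_two, Fin.sum_univ_two]
        simp
      rw [pow_left_inj₀ (norm_nonneg _) (norm_nonneg _) two_ne_zero] at h0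
      rw [h0, hn]
      linarith [norm_nonneg x]
    · simpa using hb2
  refine lt_of_le_of_lt (measure_mono hsub) ?_
  rw [muHE_lin2_image]
  exact ENNReal.mul_lt_top ENNReal.ofReal_lt_top measure_closedBall_lt_top

theorem proj_lt_top (v : E3) (hv : ‖v‖ = 1) (K : Set E3) (hK : Bornology.IsBounded K) :
    μHE[2] ((projv v) '' K) < ⊤ := by
  apply muHE_lt_top v hv
  · have hl : LipschitzWith 2 (projv v) := by
      apply LipschitzWith.of_dist_le_mul
      intro x y
      rw [dist_eq_norm, dist_eq_norm, ← map_sub, projv_apply]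
      have h1 : ‖inner ℝ (x - y) v • v‖ ≤ ‖x - y‖ := by
        rw [norm_smul, hv, mul_one]
        simpa [hv] using abs_real_inner_le_norm (x - y) v
      calc ‖x - y - inner ℝ (x - y) v • v‖ ≤ ‖x - y‖ + ‖inner ℝ (x - y) v • v‖ := norm_sub_le _ _
        _ ≤ 2 * ‖x - y‖ := by linarith
        _ = _ := by norm_num
    exact hl.isBounded_image hK
  · rintro _ ⟨y, _, rfl⟩
    exact inner_projv v hv y

lemma isBounded_Ktet : Bornology.IsBounded Ktet :=
  ((Set.toFinite _).isCompact_convexHull (𝕜 := ℝ)).isBounded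

theorem proj_Ktet_lt_top (v : E3) (hv : ‖v‖ = 1) : μHE[2] ((projv v) '' Ktet) < ⊤ :=
  proj_lt_top v hv Ktet isBounded_Ktet

theorem proj_lower_toReal (v : E3) (hv : ‖v‖ = 1) : Real.sqrt 2 ≤ (μHE[2] ((projv v) '' Ktet)).toReal := by
  rw [← ENNReal.ofReal_le_iff_le_toReal (proj_Ktet_lt_top v hv).ne]
  exact proj_lower v hv

/-- Part 1 of S0325. -/
theorem S0325_part1 :
    (∀ v : EuclideanSpace ℝ (Fin 3), ‖v‖ = 1 →
        ENNReal.ofReal (Real.sqrt 2) ≤ μHE[2] ((fun y => y - inner ℝ y v • v) '' convexHull ℝ {!₂[1, 0, 0], !₂[-1, 0, 0], !₂[0, 1, Real.sqrt 2], !₂[0, -1, Real.sqrt 2]})) ∧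
      ∃ v : EuclideanSpace ℝ (Fin 3), ‖v‖ = 1 ∧
        μHE[2] ((fun y => y - inner ℝ y v • v) '' convexHull ℝ {!₂[1, 0, 0], !₂[-1, 0, 0], !₂[0, 1, Real.sqrt 2], !₂[0, -1, Real.sqrt 2]}) = ENNReal.ofReal (Real.sqrt 2) :=
  ⟨fun v hv => proj_lower v hv, !₂[1, 0, 0], by
    have h := norm3_sq (!₂[1, 0, 0] : E3)
    simp at h
    rcases h with h | h
    · exact h
    · linarith [norm_nonneg (!₂[1, 0, 0] : E3)], proj_eq⟩

end Crest.Agent.TetCover
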