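import Crest.Agent.TetCover.Area

set_option autoImplicit false

/-!
Padding a finite cylinder cover by degenerate triangles and one triangle of prescribed area.
-/

namespace Crest.Agent.TetCover

open MeasureTheory Module
open scoped ENNReal

/-- From a cover of `K` with less than `16000000` triangular cylinders and total area at most
`√2 (1/2 - 6e-10)`, get covers with exactly `2⌈2/ε²⌉` cylinders and prescribed total area. -/
theorem pad_cover (K : Set E3) (m : ℕ) (hm : m < 16000000) (u p q r : Fin m → E3)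
    (hu : ∀ i, ‖u i‖ = 1)
    (ho : ∀ i, inner ℝ (p i) (u i) = 0 ∧ inner ℝ (q i) (u i) = 0 ∧ inner ℝ (r i) (u i) = 0)
    (hK : K ⊆ ⋃ i, {x : E3 | ∃ b ∈ convexHull ℝ {p i, q i, r i}, ∃ t : ℝ, x = b + t • u i})
    (hA : ∑ i, (μHE[2] (convexHull ℝ ({p i, q i, r i} : Set E3))).toReal ≤
      Real.sqrt 2 * (1 / 2 - 6 / 10 ^ 10))
    (ε : ℝ) (hε : 0 < ε) (hε' : ε ≤ 1 / 2000) :
    ∃ (u p q r : Fin (2 * ⌈2 / ε ^ 2⌉₊) → EuclideanSpace ℝ (Fin 3)),
        (∀ i, ‖u i‖ = 1) ∧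
        (∀ i, inner ℝ (p i) (u i) = 0 ∧ inner ℝ (q i) (u i) = 0 ∧ inner ℝ (r i) (u i) = 0) ∧
        K ⊆
          ⋃ i, {x : EuclideanSpace ℝ (Fin 3) | ∃ b ∈ convexHull ℝ {p i, q i, r i}, ∃ t : ℝ, x = b + t • u i} ∧
        abs ((∑ i, (μHE[2] (convexHull ℝ ({p i, q i, r i} : Set (EuclideanSpace ℝ (Fin 3))))).toReal) / Real.sqrt 2 -
            (1 / 2 - 13 / 6000 * ε ^ 2)) ≤ 2 * ε ^ 4 := by
  -- the number of cylinders is larger than `m`
  have h2 : (8000000 : ℝ) ≤ 2 / ε ^ 2 := by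
    rw [le_div_iff₀ (by positivity)]
    have : ε ^ 2 ≤ (1 / 2000) ^ 2 := pow_le_pow_left₀ hε.le hε' 2
    linarith
  have h3 : 8000000 ≤ ⌈2 / ε ^ 2⌉₊ := by
    have h4 : (8000000 : ℝ) ≤ (⌈2 / ε ^ 2⌉₊ : ℝ) := h2.trans (Nat.le_ceil _)
    exact_mod_cast h4
  obtain ⟨j, hj⟩ : ∃ j, 2 * ⌈2 / ε ^ 2⌉₊ = m + (j + 1) :=
    ⟨2 * ⌈2 / ε ^ 2⌉₊ - m - 1, by omega⟩
  rw [hj]
  -- the missing area
  set A : ℝ := ∑ i, (μHE[2] (convexHull ℝ ({p i, q i, r i} : Set E3))).toReal with hAdef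
  set S : ℝ := Real.sqrt 2 * (1 / 2 - 13 / 6000 * ε ^ 2) - A with hSdef
  have hs2 : 0 < Real.sqrt 2 := Real.sqrt_pos.2 two_pos
  have hS : 0 ≤ S := by
    have h5 : ε ^ 2 ≤ (1 / 2000) ^ 2 := pow_le_pow_left₀ hε.le hε' 2
    have h6 : (1 / 2 - 6 / 10 ^ 10 : ℝ) ≤ 1 / 2 - 13 / 6000 * ε ^ 2 := by
      norm_num at h5 ⊢
      linarith
    have h7 := mul_le_mul_of_nonneg_left h6 hs2.le
    rw [hSdef]
    linarith
  let e0 : E3 := EuclideanSpace.single 0 1
  let e1 : E3 := EuclideanSpace.single 1 1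
  let e2 : E3 := EuclideanSpace.single 2 1
  have he0 : ‖e0‖ = 1 := by simp [e0]
  have he1 : ‖e1‖ = 1 := by simp [e1]
  have he2 : ‖e2‖ = 1 := by simp [e2]
  have h10 : inner ℝ e1 e0 = 0 := by
    simp [e1, e0, EuclideanSpace.inner_single_left]
  have h20 : inner ℝ e2 e0 = 0 := by
    simp [e2, e0, EuclideanSpace.inner_single_left]
  have h12 : inner ℝ e1 e2 = 0 := by
    simp [e1, e2, EuclideanSpace.inner_single_left]
  let q' : Fin (j + 1) → E3 := Fin.cons e1 (fun _ => 0)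
  let r' : Fin (j + 1) → E3 := Fin.cons ((2 * S) • e2) (fun _ => 0)
  refine ⟨Fin.append u (fun _ => e0), Fin.append p (fun _ => 0), Fin.append q q',
    Fin.append r r', ?_, ?_, ?_, ?_⟩
  · intro i
    refine Fin.addCases (fun i => ?_) (fun i => ?_) i
    · simpa using hu i
    · simpa using he0
  · intro i
    refine Fin.addCases (fun i => ?_) (fun i => ?_) i
    · simpa using ho i
    · simp only [Fin.append_right, inner_zero_left, true_and]
      refine Fin.cases ?_ (fun i => ?_) i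
      · simp only [q', r', Fin.cons_zero]
        refine ⟨h10, ?_⟩
        rw [real_inner_smul_left, h20, mul_zero]
      · simp [q', r']
  · intro x hx
    obtain ⟨i, hi⟩ := Set.mem_iUnion.1 (hK hx)
    refine Set.mem_iUnion.2 ⟨Fin.castAdd (j + 1) i, ?_⟩
    simpa using hi
  · rw [Fin.sum_univ_add]
    simp only [Fin.append_left, Fin.append_right]
    rw [← hAdef]
    have hB : ∑ i : Fin (j + 1), (μHE[2] (convexHull ℝ ({0, q' i, r' i} : Set E3))).toReal = S := by
      rw [Fin.sum_univ_succ]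
      have hz : ∀ i : Fin j, (μHE[2] (convexHull ℝ ({0, q' i.succ, r' i.succ} : Set E3))).toReal = 0 := by
        intro i
        rw [muHE_triangle_toReal]
        simp [q', r', area2]
      rw [Finset.sum_eq_zero (fun i _ => hz i), add_zero, muHE_triangle_toReal]
      simp only [q', r', Fin.cons_zero, sub_zero]
      unfold area2
      rw [real_inner_smul_right, h12, norm_smul, he1, he2]
      rw [Real.norm_eq_abs, abs_of_nonneg (by positivity)]
      have : (1 : ℝ) ^ 2 * (2 * S * 1) ^ 2 - (2 * S * 0) ^ 2 = (2 * S) ^ 2 := by ring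
      rw [this, Real.sqrt_sq (by positivity)]
      ring
    rw [hB]
    have h8 : (A + S) / Real.sqrt 2 = 1 / 2 - 13 / 6000 * ε ^ 2 := by
      rw [hSdef]
      field_simp
      ring
    rw [h8, sub_self, abs_zero]
    positivity

end Crest.Agent.TetCover
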