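import Crest.Agent.TetCover.Sq

set_option autoImplicit false

/-!
Covers of ruled sets by sheared square cylinders: the pointwise local step and the global bound.
-/

namespace Crest.Agent.TetCover

open MeasureTheory Module Filter Topology
open scoped ENNReal

lemma Box_dist {x y r : ℝ} {p q : E2} (hp : p ∈ Box x y r) (hq : q ∈ Box x y r) : ‖p - q‖ ≤ 2 * r := by
  obtain ⟨⟨h1, h2⟩, h3, h4⟩ := hp
  obtain ⟨⟨h1', h2'⟩, h3', h4'⟩ := hq
  refine (norm_le_abs_add _).trans ?_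
  simp only [PiLp.sub_apply]
  have h6 : |p 0 - q 0| ≤ r := by rw [abs_le]; constructor <;> linarith
  have h7 : |p 1 - q 1| ≤ r := by rw [abs_le]; constructor <;> linarith
  linarith

lemma Box_side_le {x y r ρ : ℝ} (hr : 0 < r) {p₀ : E2} (hB : Box x y r ⊆ Metric.ball p₀ ρ) :
    r < 4 * ρ := by
  have h1 : (!₂[x, y] : E2) ∈ Box x y r := by
    simp only [Box, Set.mem_ofPred_eq, Matrix.cons_val_zero, Matrix.cons_val_one, Set.mem_Ico]
    refine ⟨⟨le_refl _, ?_⟩, le_refl _, ?_⟩ <;> linarith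
  have h2 : (!₂[x + r / 2, y] : E2) ∈ Box x y r := by
    simp only [Box, Set.mem_ofPred_eq, Matrix.cons_val_zero, Matrix.cons_val_one, Set.mem_Ico]
    refine ⟨⟨?_, ?_⟩, ?_, ?_⟩ <;> linarith
  have h3 := hB h1
  have h4 := hB h2
  rw [mem_ball_iff_norm] at h3 h4
  have h5 : ‖(!₂[x + r / 2, y] : E2) - !₂[x, y]‖ < 2 * ρ := by
    have e : (!₂[x + r / 2, y] : E2) - !₂[x, y] = (!₂[x + r / 2, y] - p₀) - (!₂[x, y] - p₀) := by abel
    rw [e]
    exact (norm_sub_le _ _).trans_lt (by linarith)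
  have h6 := abs_coord_le ((!₂[x + r / 2, y] : E2) - !₂[x, y]) 0
  simp only [PiLp.sub_apply, Matrix.cons_val_zero, add_sub_cancel_left] at h6
  rw [abs_of_pos (by linarith)] at h6
  linarith

lemma local_step (V : E2 → E2) (L h : ℝ) (hL : 0 < L) (p₀ : E2) (A : E2 →L[ℝ] E2)
    (hA : HasStrictFDerivAt V A p₀) (htr : LinearMap.trace ℝ _ (A : E2 →ₗ[ℝ] E2) = 0)
    (hdet : -(L ^ 2)⁻¹ < LinearMap.det (A : E2 →ₗ[ℝ] E2) ∧ LinearMap.det (A : E2 →ₗ[ℝ] E2) ≤ 0)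
    (η : ℝ) (hη : 0 < η) :
    ∃ ρ : ℝ, 0 < ρ ∧ ∀ x y r : ℝ, 0 < r → Box x y r ⊆ Metric.ball p₀ ρ →
      Cov V L h (Box x y r) ((Jh h (V p₀) + η) * r ^ 2) := by
  obtain ⟨φ, α, β, hφ, hd⟩ := exists_iso_frame (A : E2 →ₗ[ℝ] E2) htr
  have hL2 : 0 < L ^ 2 := by positivity
  have h0 : 0 ≤ α * β := by linarith [hdet.2]
  have h1 : L ^ 2 * (α * β) < 1 := by
    have h2 : α * β < (L ^ 2)⁻¹ := by linarith [hdet.1]
    calc L ^ 2 * (α * β) < L ^ 2 * (L ^ 2)⁻¹ := mul_lt_mul_of_pos_left h2 hL2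
      _ = 1 := mul_inv_cancel₀ hL2.ne'
  obtain ⟨C, hC⟩ : ∃ C, C = (1 + L * (|α| + |β|)) / (1 - L ^ 2 * (α * β)) := ⟨_, rfl⟩
  have hC0 : 0 ≤ C := by
    rw [hC]; apply div_nonneg
    · positivity
    · linarith
  obtain ⟨J₀, hJ₀⟩ : ∃ J₀, J₀ = Jh h (V p₀) := ⟨_, rfl⟩
  have hJ₀0 : 0 < J₀ := by rw [hJ₀]; exact Jh_pos _ _
  -- choice of the small parameter
  obtain ⟨x, hx0, hx⟩ : ∃ x : ℝ, 0 < x ∧
      (1 + 4 * (C + 1) * x) ^ 2 * (1 + 2 * x) ^ 2 * (J₀ + x) ≤ J₀ + η := by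
    have hcont : Continuous (fun x : ℝ => (1 + 4 * (C + 1) * x) ^ 2 * (1 + 2 * x) ^ 2 * (J₀ + x)) := by
      fun_prop
    have h2 : ∀ᶠ x in 𝓝 (0:ℝ), (1 + 4 * (C + 1) * x) ^ 2 * (1 + 2 * x) ^ 2 * (J₀ + x) < J₀ + η := by
      apply hcont.continuousAt.eventually_lt continuousAt_const
      simp; exact hη
    obtain ⟨ε, hε, hball⟩ := Metric.eventually_nhds_iff.1 h2
    refine ⟨ε / 2, by linarith, (hball ?_).le⟩
    rw [Real.dist_eq, sub_zero, abs_of_pos (by linarith)]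
    linarith
  obtain ⟨N, hN⟩ : ∃ N : ℕ, 1 / x ≤ N := exists_nat_ge (1 / x)
  have hNpos : (0:ℝ) < N := lt_of_lt_of_le (by positivity) hN
  have hNx : 1 / (N:ℝ) ≤ x := by
    rw [div_le_iff₀ hNpos]
    rw [div_le_iff₀ hx0] at hN
    linarith
  -- strict differentiability
  obtain ⟨ρ₁, hρ₁, hb1⟩ : ∃ ρ₁ > 0, ∀ p ∈ Metric.ball p₀ ρ₁, ∀ p' ∈ Metric.ball p₀ ρ₁,
      ‖V p - V p' - A (p - p')‖ ≤ x / (2 * L * N) * ‖p - p'‖ := by
    have hω : 0 < x / (2 * L * N) := by positivity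
    have h2 := hA.isLittleO.def hω
    obtain ⟨ε, hε, hball⟩ := Metric.eventually_nhds_iff_ball.1 h2
    refine ⟨ε, hε, fun p hp p' hp' => ?_⟩
    apply hball (p, p')
    rw [← ball_prod_same]
    exact ⟨hp, hp'⟩
  -- continuity of the weight
  obtain ⟨ρ₂, hρ₂, hb2⟩ : ∃ ρ₂ > 0, ∀ g : E2, ‖g - V p₀‖ < ρ₂ → Jh h g ≤ J₀ + x := by
    have h2 : ∀ᶠ g in 𝓝 (V p₀), Jh h g < J₀ + x := by
      apply (continuous_Jh h).continuousAt.eventually_lt continuousAt_const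
      rw [← hJ₀]; linarith
    obtain ⟨ε, hε, hball⟩ := Metric.eventually_nhds_iff.1 h2
    exact ⟨ε, hε, fun g hg => (hball (by rw [dist_eq_norm]; exact hg)).le⟩
  obtain ⟨ρ₃, hρ₃, hb3⟩ : ∃ ρ₃ > 0, ∀ p ∈ Metric.ball p₀ ρ₃, ‖V p - V p₀‖ < ρ₂ / 2 := by
    obtain ⟨ε, hε, hball⟩ := Metric.continuousAt_iff.1 hA.continuousAt (ρ₂ / 2) (by linarith)
    refine ⟨ε, hε, fun p hp => ?_⟩
    rw [← dist_eq_norm]; exact hball hp
  have hA0 : 0 ≤ ‖A‖ := norm_nonneg _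
  set ρ := min ρ₁ (min ρ₃ (ρ₂ / (16 * (‖A‖ + 1) * (C + 1)))) with hρ
  have hρpos : 0 < ρ := by
    apply lt_min hρ₁ (lt_min hρ₃ (by positivity))
  refine ⟨ρ, hρpos, ?_⟩
  intro x₀ y₀ r hr hB
  have hr4 := Box_side_le hr hB
  have hB1 : Box x₀ y₀ r ⊆ Metric.ball p₀ ρ₁ := hB.trans (Metric.ball_subset_ball (min_le_left _ _))
  have hB3 : Box x₀ y₀ r ⊆ Metric.ball p₀ ρ₃ := hB.trans (Metric.ball_subset_ball
    ((min_le_right _ _).trans (min_le_left _ _)))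
  have hρ' : ρ * (16 * (‖A‖ + 1) * (C + 1)) ≤ ρ₂ := by
    have : ρ ≤ ρ₂ / (16 * (‖A‖ + 1) * (C + 1)) := (min_le_right _ _).trans (min_le_right _ _)
    rwa [le_div_iff₀ (by positivity)] at this
  set p₁ : E2 := !₂[x₀, y₀] with hp₁
  have hp₁B : p₁ ∈ Box x₀ y₀ r := by
    simp only [hp₁, Box, Set.mem_ofPred_eq, Matrix.cons_val_zero, Matrix.cons_val_one, Set.mem_Ico]
    refine ⟨⟨le_refl _, ?_⟩, le_refl _, ?_⟩ <;> linarith
  obtain ⟨δ, hδ⟩ : ∃ δ, δ = r / N := ⟨_, rfl⟩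
  have hδpos : 0 < δ := by rw [hδ]; positivity
  have hδr : δ ≤ x * r := by
    rw [hδ, div_eq_mul_one_div, mul_comm]
    exact mul_le_mul_of_nonneg_right hNx hr.le
  have hδr1 : δ ≤ r := by
    rw [hδ]
    apply div_le_self hr.le
    have : 0 < N := by exact_mod_cast hNpos
    exact_mod_cast this
  have hcov := local_cover V L h hL (A : E2 →ₗ[ℝ] E2) φ α β hφ h0 h1 p₁ δ x C (J₀ + x) (2 * r)
    ((r + 4 * (C + 1) * δ) ^ 2) hδpos hx0.le hC (Box x₀ y₀ r)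
    (Box (x₀ - 2 * (C + 1) * δ) (y₀ - 2 * (C + 1) * δ) (r + 4 * (C + 1) * δ))
    (by
      intro p hp
      have h2 := hb1 p (hB1 hp) p₁ (hB1 hp₁B)
      have h3 := Box_dist hp hp₁B
      calc L * ‖V p - V p₁ - A (p - p₁)‖ ≤ L * (x / (2 * L * N) * ‖p - p₁‖) :=
            mul_le_mul_of_nonneg_left h2 hL.le
        _ ≤ L * (x / (2 * L * N) * (2 * r)) := by
            apply mul_le_mul_of_nonneg_left _ hL.le
            exact mul_le_mul_of_nonneg_left h3 (by positivity)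
        _ = x * δ := by rw [hδ]; field_simp)
    (fun p hp => Box_dist hp hp₁B) (by positivity)
    (by
      rintro q ⟨p, hp, hpq⟩
      apply hb2
      have e1 : V p₁ + A (q - p₁) - V p₀ = (V p₁ - V p₀) + A (q - p₁) := by abel
      have h2 : ‖A (q - p₁)‖ ≤ ‖A‖ * ‖q - p₁‖ := A.le_opNorm _
      have h3 : ‖q - p₁‖ ≤ 2 * (C + 1) * r := by
        have e2 : q - p₁ = (p - p₁) - (p - q) := by abel
        rw [e2]
        refine (norm_sub_le _ _).trans ?_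
        have h4 := Box_dist hp hp₁B
        have h5 : 2 * C * δ ≤ 2 * C * r := mul_le_mul_of_nonneg_left hδr1 (by positivity)
        linarith
      have h4 : ‖A‖ * ‖q - p₁‖ ≤ ρ₂ / 2 := by
        calc ‖A‖ * ‖q - p₁‖ ≤ (‖A‖ + 1) * (2 * (C + 1) * r) := by
              apply mul_le_mul (by linarith) h3 (norm_nonneg _) (by linarith)
          _ ≤ (‖A‖ + 1) * (2 * (C + 1) * (4 * ρ)) := by
              apply mul_le_mul_of_nonneg_left _ (by linarith)
              exact mul_le_mul_of_nonneg_left hr4.le (by positivity)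
          _ = ρ * (16 * (‖A‖ + 1) * (C + 1)) / 2 := by ring
          _ ≤ ρ₂ / 2 := by linarith
      have e3 : V p₁ + (A : E2 →ₗ[ℝ] E2) (q - p₁) - V p₀ = (V p₁ - V p₀) + A (q - p₁) := e1
      rw [e3]
      have h5 := hb3 p₁ (hB3 hp₁B)
      refine (norm_add_le _ _).trans_lt ?_
      linarith)
    (by positivity)
    (by rw [volume_Box _ _ _ (by positivity)])
    (by
      rintro z ⟨p, ⟨⟨h2, h3⟩, h4, h5⟩, hzp⟩
      have h6 := abs_le.1 ((abs_coord_le (z - p) 0).trans hzp)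
      have h7 := abs_le.1 ((abs_coord_le (z - p) 1).trans hzp)
      simp only [PiLp.sub_apply] at h6 h7
      refine ⟨⟨?_, ?_⟩, ?_, ?_⟩ <;> linarith)
  apply hcov.mono
  have h2 : (r + 4 * (C + 1) * δ) ^ 2 ≤ (1 + 4 * (C + 1) * x) ^ 2 * r ^ 2 := by
    rw [← mul_pow]
    apply pow_le_pow_left₀ (by positivity)
    have : 4 * (C + 1) * δ ≤ 4 * (C + 1) * (x * r) := mul_le_mul_of_nonneg_left hδr (by positivity)
    linarith
  calc (r + 4 * (C + 1) * δ) ^ 2 * (1 + 2 * x) ^ 2 * (J₀ + x)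
      ≤ ((1 + 4 * (C + 1) * x) ^ 2 * r ^ 2) * (1 + 2 * x) ^ 2 * (J₀ + x) := by
        apply mul_le_mul_of_nonneg_right _ (by positivity)
        exact mul_le_mul_of_nonneg_right h2 (by positivity)
    _ = ((1 + 4 * (C + 1) * x) ^ 2 * (1 + 2 * x) ^ 2 * (J₀ + x)) * r ^ 2 := by ring
    _ ≤ (J₀ + η) * r ^ 2 := mul_le_mul_of_nonneg_right hx (by positivity)
    _ = (Jh h (V p₀) + η) * r ^ 2 := by rw [hJ₀]


lemma Box_grid_disjoint (r : ℝ) (hr : 0 < r) {i j : ℤ × ℤ} (hij : i ≠ j) :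
    Disjoint (Box (r * i.1) (r * i.2) r) (Box (r * j.1) (r * j.2) r) := by
  rw [Set.disjoint_left]
  rintro x ⟨⟨h2, h3⟩, h4, h5⟩ ⟨⟨h2', h3'⟩, h4', h5'⟩
  apply hij
  have aux : ∀ (m n : ℤ) (w : ℝ), r * m ≤ w → w < r * m + r → r * n ≤ w → w < r * n + r → m = n := by
    intro m n w h1 h2 h3 h4
    have h5 : r * (m:ℝ) < r * ((n:ℝ) + 1) := by linarith
    have h6 : r * (n:ℝ) < r * ((m:ℝ) + 1) := by linarith
    have h7 := lt_of_mul_lt_mul_left h5 hr.le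
    have h8 := lt_of_mul_lt_mul_left h6 hr.le
    have h9 : m < n + 1 := by exact_mod_cast h7
    have h10 : n < m + 1 := by exact_mod_cast h8
    omega
  exact Prod.ext (aux _ _ _ h2 h3 h2' h3') (aux _ _ _ h4 h5 h4' h5')

lemma mem_Box_grid (r : ℝ) (hr : 0 < r) (x : E2) :
    x ∈ Box (r * (⌊x 0 / r⌋ : ℤ)) (r * (⌊x 1 / r⌋ : ℤ)) r := by
  have aux : ∀ w : ℝ, r * (⌊w / r⌋ : ℤ) ≤ w ∧ w < r * (⌊w / r⌋ : ℤ) + r := by
    intro w
    have h1 := Int.floor_le (w / r)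
    have h2 := Int.lt_floor_add_one (w / r)
    rw [le_div_iff₀ hr] at h1
    rw [div_lt_iff₀ hr] at h2
    constructor <;> linarith
  exact ⟨aux _, aux _⟩

/-- The global bound. -/
theorem cov_global (D : Set E2) (hD : IsCompact D) (V : E2 → E2) (U : Set E2) (hU : IsOpen U)
    (hDU : D ⊆ U) (hV : ContDiffOn ℝ 1 V U) (L h : ℝ) (hL : 0 < L)
    (htr : ∀ p ∈ D, LinearMap.trace ℝ _ (fderiv ℝ V p).toLinearMap = 0)
    (hdet : ∀ p ∈ D, -(L ^ 2)⁻¹ < LinearMap.det (fderiv ℝ V p).toLinearMap ∧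
      LinearMap.det (fderiv ℝ V p).toLinearMap ≤ 0)
    (ε : ℝ) (hε : 0 < ε) :
    Cov V L h D ((∫ p in D, Jh h (V p)) + ε) := by
  classical
  have hDm : MeasurableSet D := hD.measurableSet
  have hDfin : volume D ≠ ⊤ := hD.measure_lt_top.ne
  have hVD : ContinuousOn V D := hV.continuousOn.mono hDU
  have hJD : ContinuousOn (fun p => Jh h (V p)) D := (continuous_Jh h).comp_continuousOn hVD
  have hJint : IntegrableOn (fun p => Jh h (V p)) D := hJD.integrableOn_compact hD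
  obtain ⟨m, hm⟩ : ∃ m, m = volume.real D := ⟨_, rfl⟩
  have hm0 : 0 ≤ m := by rw [hm]; exact measureReal_nonneg
  obtain ⟨η, hη, hη1, hηm⟩ : ∃ η : ℝ, 0 < η ∧ η ≤ 1 ∧ 2 * η * m ≤ ε / 2 := by
    refine ⟨min 1 (ε / (4 * (m + 1))), lt_min one_pos (by positivity), min_le_left _ _, ?_⟩
    have h1 : min 1 (ε / (4 * (m + 1))) ≤ ε / (4 * (m + 1)) := min_le_right _ _
    have h2 : 0 < min 1 (ε / (4 * (m + 1))) := lt_min one_pos (by positivity)
    have h3 : min 1 (ε / (4 * (m + 1))) * (4 * (m + 1)) ≤ ε := by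
      rwa [le_div_iff₀ (by positivity)] at h1
    nlinarith
  -- radii at the points of D
  have hloc : ∀ p₀ : D, ∃ ρ : ℝ, 0 < ρ ∧
      (∀ x y r : ℝ, 0 < r → Box x y r ⊆ Metric.ball (p₀ : E2) ρ →
        Cov V L h (Box x y r) ((Jh h (V p₀) + η) * r ^ 2)) ∧
      ∀ p ∈ D, p ∈ Metric.ball (p₀ : E2) ρ → Jh h (V p₀) ≤ Jh h (V p) + η := by
    rintro ⟨p₀, hp₀⟩
    have hcd : ContDiffAt ℝ 1 V p₀ := hV.contDiffAt (hU.mem_nhds (hDU hp₀))
    have hst : HasStrictFDerivAt V (fderiv ℝ V p₀) p₀ := hcd.hasStrictFDerivAt (by norm_num)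
    obtain ⟨ρ₁, hρ₁, h1⟩ := local_step V L h hL p₀ (fderiv ℝ V p₀) hst (htr p₀ hp₀) (hdet p₀ hp₀) η hη
    obtain ⟨ρ₂, hρ₂, h2⟩ := Metric.continuousOn_iff.1 hJD p₀ hp₀ η hη
    refine ⟨min ρ₁ ρ₂, lt_min hρ₁ hρ₂, ?_, ?_⟩
    · intro x y r hr hB
      exact h1 x y r hr (hB.trans (Metric.ball_subset_ball (min_le_left _ _)))
    · intro p hp hpb
      have h3 := h2 p hp (lt_of_lt_of_le (Metric.mem_ball.1 hpb) (min_le_right _ _))
      rw [Real.dist_eq] at h3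
      have h4 := abs_lt.1 h3
      simp only
      linarith [h4.1]
  choose ρ hρ hcov hJρ using hloc
  obtain ⟨lam, hlam, hleb⟩ := lebesgue_number_lemma_of_metric (c := fun p₀ : D => Metric.ball (p₀ : E2) (ρ p₀))
    hD (fun _ => Metric.isOpen_ball) (fun p hp => Set.mem_iUnion.2 ⟨⟨p, hp⟩, Metric.mem_ball_self (hρ _)⟩)
  -- outer open set
  obtain ⟨W, hDW, hWo, hWfin, hWd⟩ := hDm.exists_isOpen_sdiff_lt hDfin
    (ε := ENNReal.ofReal (ε / 4)) (by simp [hε])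
  obtain ⟨κ, hκ, hthick⟩ := hD.exists_thickening_subset_open hWo hDW
  have hWDfin : volume (W \ D) ≠ ⊤ := (hWd.trans ENNReal.ofReal_lt_top).ne
  have hWDr : volume.real (W \ D) ≤ ε / 4 := by
    rw [Measure.real]
    have := ENNReal.toReal_mono ENNReal.ofReal_ne_top hWd.le
    rwa [ENNReal.toReal_ofReal (by positivity)] at this
  -- grid
  obtain ⟨r, hr, hrlam, hrκ⟩ : ∃ r : ℝ, 0 < r ∧ 2 * r < lam ∧ 2 * r < κ := by
    refine ⟨min lam κ / 4, by positivity, ?_, ?_⟩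
    · have := min_le_left lam κ; linarith
    · have := min_le_right lam κ; linarith
  obtain ⟨B, hB⟩ := hD.isBounded.exists_norm_le
  obtain ⟨M, hM⟩ : ∃ M : ℤ, (B + r) / r ≤ M := ⟨_, Int.le_ceil _⟩
  set Q : ℤ × ℤ → Set E2 := fun i => Box (r * i.1) (r * i.2) r with hQ
  set F : Finset (ℤ × ℤ) := (Finset.Icc (-M) M ×ˢ Finset.Icc (-M) M).filter
    (fun i => (Q i ∩ D).Nonempty) with hF
  have hbound : ∀ x ∈ D, ∀ i : Fin 2, ⌊x i / r⌋ ∈ Finset.Icc (-M) M := by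
    intro x hx i
    have h1 := (abs_coord_le x i).trans (hB x hx)
    have h2 := abs_le.1 h1
    have h3 := Int.floor_le (x i / r)
    have h4 := Int.lt_floor_add_one (x i / r)
    rw [le_div_iff₀ hr] at h3
    rw [div_lt_iff₀ hr] at h4
    rw [div_le_iff₀ hr] at hM
    rw [Finset.mem_Icc]
    constructor
    · have h5 : (-(M:ℝ)) * r ≤ (⌊x i / r⌋ : ℝ) * r := by linarith
      have h6 := le_of_mul_le_mul_right h5 hr
      exact_mod_cast h6
    · have h5 : (⌊x i / r⌋ : ℝ) * r ≤ (M:ℝ) * r := by linarith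
      have h6 := le_of_mul_le_mul_right h5 hr
      exact_mod_cast h6
  have hDF : D ⊆ ⋃ i ∈ F, Q i := by
    intro x hx
    refine Set.mem_iUnion₂.2 ⟨(⌊x 0 / r⌋, ⌊x 1 / r⌋), ?_, mem_Box_grid r hr x⟩
    rw [hF, Finset.mem_filter, Finset.mem_product]
    exact ⟨⟨hbound x hx 0, hbound x hx 1⟩, x, mem_Box_grid r hr x, hx⟩
  -- centres
  have hcen : ∀ i : ℤ × ℤ, i ∈ F → ∃ p₀ : D, Q i ⊆ Metric.ball (p₀ : E2) (ρ p₀) ∧ Q i ⊆ W := by
    intro i hi
    rw [hF, Finset.mem_filter] at hi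
    obtain ⟨_, x, hxQ, hxD⟩ := hi
    obtain ⟨p₀, hp₀⟩ := hleb x hxD
    refine ⟨p₀, ?_, ?_⟩
    · intro z hz
      apply hp₀
      rw [mem_ball_iff_norm]
      exact (Box_dist hz hxQ).trans_lt hrlam
    · intro z hz
      apply hthick
      rw [Metric.mem_thickening_iff]
      refine ⟨x, hxD, ?_⟩
      rw [dist_eq_norm]
      exact (Box_dist hz hxQ).trans_lt hrκ
  -- choose centres with default
  have hcen' : ∀ i : ℤ × ℤ, ∃ J : ℝ, i ∈ F → (Cov V L h (Q i) ((J + η) * r ^ 2) ∧ 0 ≤ J ∧ J ≤ 1 ∧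
      (∀ p ∈ Q i ∩ D, J ≤ Jh h (V p) + η) ∧ Q i ⊆ W) := by
    intro i
    by_cases hi : i ∈ F
    · obtain ⟨p₀, h1, h2⟩ := hcen i hi
      refine ⟨Jh h (V p₀), fun _ => ⟨hcov p₀ _ _ r hr h1, (Jh_pos _ _).le, Jh_le_one _ _, ?_, h2⟩⟩
      rintro p ⟨hpQ, hpD⟩
      exact hJρ p₀ p hpD (h1 hpQ)
    · exact ⟨0, fun h => absurd h hi⟩
  choose J hJ using hcen'
  have hcovD := (Cov.biUnion F Q (fun i => (J i + η) * r ^ 2) (fun i hi => (hJ i hi).1)).subset hDF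
  apply hcovD.mono
  -- the sum
  have hQm : ∀ i, MeasurableSet (Q i) := fun i => measurableSet_Box _ _ _
  have hQv : ∀ i, volume.real (Q i) = r ^ 2 := by
    intro i
    rw [Measure.real, hQ]
    simp only
    rw [volume_Box _ _ _ hr.le, ENNReal.toReal_ofReal (by positivity)]
  have hQfin : ∀ i, volume (Q i) ≠ ⊤ := by
    intro i
    rw [hQ]; simp only
    rw [volume_Box _ _ _ hr.le]; exact ENNReal.ofReal_ne_top
  have hterm : ∀ i ∈ F, (J i + η) * r ^ 2 ≤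
      (∫ p in Q i ∩ D, (Jh h (V p) + 2 * η)) + 2 * volume.real (Q i \ D) := by
    intro i hi
    obtain ⟨_, hJ0, hJ1, hJp, _⟩ := hJ i hi
    have h1 : volume.real (Q i ∩ D) + volume.real (Q i \ D) = r ^ 2 := by
      rw [← hQv i]
      exact measureReal_inter_add_sdiff hDm (hQfin i)
    rw [← h1, mul_add]
    apply add_le_add
    · have h2 : ∫ _p in Q i ∩ D, (J i + η) = (J i + η) * volume.real (Q i ∩ D) := by
        rw [setIntegral_const, smul_eq_mul, mul_comm]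
      rw [← h2]
      apply setIntegral_mono_on
      · exact integrableOn_const (ne_top_of_le_ne_top hDfin (measure_mono Set.inter_subset_right))
      · have h3 : IntegrableOn (fun p => Jh h (V p) + 2 * η) D := hJint.add (integrableOn_const hDfin)
        exact h3.mono_set Set.inter_subset_right
      · exact (hQm i).inter hDm
      · intro p hp
        have := hJp p hp
        linarith
    · apply mul_le_mul_of_nonneg_right _ measureReal_nonneg
      linarith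
  have hsum : ∑ i ∈ F, (J i + η) * r ^ 2 ≤
      ∑ i ∈ F, ((∫ p in Q i ∩ D, (Jh h (V p) + 2 * η)) + 2 * volume.real (Q i \ D)) :=
    Finset.sum_le_sum hterm
  refine hsum.trans ?_
  rw [Finset.sum_add_distrib, ← Finset.mul_sum]
  have hint : ∑ i ∈ F, ∫ p in Q i ∩ D, (Jh h (V p) + 2 * η) = ∫ p in D, (Jh h (V p) + 2 * η) := by
    rw [← integral_biUnion_finset F (fun i _ => (hQm i).inter hDm)]
    · congr 2
      ext x
      simp only [Set.mem_iUnion, Set.mem_inter_iff, exists_prop]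
      constructor
      · rintro ⟨i, _, _, hx⟩; exact hx
      · intro hx
        obtain ⟨i, hi, hxi⟩ := Set.mem_iUnion₂.1 (hDF hx)
        exact ⟨i, hi, hxi, hx⟩
    · intro i _ j _ hij
      exact (Box_grid_disjoint r hr hij).mono Set.inter_subset_left Set.inter_subset_left
    · intro i _
      have h3 : IntegrableOn (fun p => Jh h (V p) + 2 * η) D := hJint.add (integrableOn_const hDfin)
      exact h3.mono_set Set.inter_subset_right
  have hmeas : ∑ i ∈ F, volume.real (Q i \ D) ≤ ε / 4 := by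
    rw [← measureReal_biUnion_finset (μ := volume) (s := F) (f := fun i => Q i \ D)
      (h := fun i _ => ne_top_of_le_ne_top (hQfin i) (measure_mono Set.sdiff_subset))]
    · refine le_trans ?_ hWDr
      apply measureReal_mono _ hWDfin
      intro x hx
      obtain ⟨i, hi, hxi, hxD⟩ := Set.mem_iUnion₂.1 hx
      exact ⟨(hJ i hi).2.2.2.2 hxi, hxD⟩
    · intro i _ j _ hij
      exact (Box_grid_disjoint r hr hij).mono Set.sdiff_subset Set.sdiff_subset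
    · intro i _
      exact (hQm i).diff hDm
  rw [hint]
  have hI : ∫ p in D, (Jh h (V p) + 2 * η) = (∫ p in D, Jh h (V p)) + 2 * η * m := by
    rw [integral_add hJint (integrableOn_const hDfin), setIntegral_const, smul_eq_mul, hm]
    ring
  rw [hI]
  linarith

end Crest.Agent.TetCover
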