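import Crest.Agent.TetCover.Area

set_option autoImplicit false

/-!
Radial sweeps: one cell of the sweep, its covering triangle and its inscribed triangle; and a Riemann
sum estimate.
-/

namespace Crest.Agent.TetCover.Sweep

open MeasureTheory Module
open scoped ENNReal
open Crest.Agent.TetCover

/-- Triple product. -/
noncomputable def dt (a b u : E3) : ℝ :=
  a 0 * (b 1 * u 2 - b 2 * u 1) - a 1 * (b 0 * u 2 - b 2 * u 0) + a 2 * (b 0 * u 1 - b 1 * u 0)

lemma inn (a b : E3) : inner ℝ a b = a 0 * b 0 + a 1 * b 1 + a 2 * b 2 := by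
  simp [PiLp.inner_apply, Fin.sum_univ_three]; ring

lemma nsq (a : E3) : ‖a‖ ^ 2 = a 0 ^ 2 + a 1 ^ 2 + a 2 ^ 2 := by
  rw [← real_inner_self_eq_norm_sq, inn]; ring

/-- Projection along the (not necessarily unit) vector `U`. -/
noncomputable def pj (U : E3) : E3 →ₗ[ℝ] E3 where
  toFun y := y - (inner ℝ y U / ‖U‖ ^ 2) • U
  map_add' x y := by rw [inner_add_left, add_div, add_smul]; abel
  map_smul' c x := by
    simp only [inner_smul_left, conj_trivial, RingHom.id_apply, smul_sub, smul_smul, mul_div_assoc]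

lemma pj_apply (U y : E3) : pj U y = y - (inner ℝ y U / ‖U‖ ^ 2) • U := rfl

lemma pj_coe (U : E3) : (fun y : E3 => y - (inner ℝ y U / ‖U‖ ^ 2) • U) = pj U := rfl

lemma inner_pj (U y : E3) (hU : U ≠ 0) : inner ℝ (pj U y) U = 0 := by
  have : ‖U‖ ^ 2 ≠ 0 := pow_ne_zero _ (norm_ne_zero_iff.2 hU)
  rw [pj_apply, inner_sub_left, inner_smul_left, real_inner_self_eq_norm_sq]
  simp only [conj_trivial]
  field_simp
  ring

lemma pj_self (U : E3) (hU : U ≠ 0) : pj U U = 0 := by
  have : ‖U‖ ^ 2 ≠ 0 := pow_ne_zero _ (norm_ne_zero_iff.2 hU)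
  rw [pj_apply, real_inner_self_eq_norm_sq, div_self this, one_smul, sub_self]

lemma area2_pj (U a b : E3) (hU : U ≠ 0) : area2 (pj U a) (pj U b) = |dt a b U| / ‖U‖ := by
  have hn : ‖U‖ ^ 2 ≠ 0 := pow_ne_zero _ (norm_ne_zero_iff.2 hU)
  have hpos : 0 < ‖U‖ := norm_pos_iff.2 hU
  have h1 : |dt a b U| / ‖U‖ = Real.sqrt (dt a b U ^ 2 / ‖U‖ ^ 2) := by
    rw [Real.sqrt_div (sq_nonneg _), Real.sqrt_sq_eq_abs, Real.sqrt_sq hpos.le]
  rw [area2, h1]
  congr 1
  have hz : ∀ c : E3, ‖pj U c‖ ^ 2 = ‖c‖ ^ 2 - inner ℝ c U ^ 2 / ‖U‖ ^ 2 := by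
    intro c
    rw [pj_apply, norm_sub_sq_real, norm_smul, inner_smul_right, Real.norm_eq_abs, mul_pow, sq_abs]
    field_simp
    ring
  have hi : inner ℝ (pj U a) (pj U b) = inner ℝ a b - inner ℝ a U * inner ℝ b U / ‖U‖ ^ 2 := by
    rw [pj_apply, pj_apply, inner_sub_left, inner_sub_right, inner_sub_right, inner_smul_left,
      inner_smul_left, inner_smul_right, inner_smul_right, real_inner_self_eq_norm_sq,
      real_inner_comm U b]
    simp only [conj_trivial]
    field_simp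
    ring
  rw [hz, hz, hi]
  field_simp
  rw [nsq, nsq, nsq, inn, inn, inn]
  simp only [dt]
  ring

lemma dt_perp (e a b v : E3) (he : ‖e‖ = 1) (ha : inner ℝ a e = 0) (hb : inner ℝ b e = 0)
    (hv : inner ℝ v e = 0) : dt a b v = 0 := by
  have he2 : e 0 ^ 2 + e 1 ^ 2 + e 2 ^ 2 = 1 := by rw [← nsq, he]; norm_num
  rw [inn] at ha hb hv
  have h0 : e 0 * dt a b v = 0 := by
    simp only [dt]
    linear_combination (b 1 * v 2 - b 2 * v 1) * ha + (v 1 * a 2 - v 2 * a 1) * hb +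
      (a 1 * b 2 - a 2 * b 1) * hv
  have h1 : e 1 * dt a b v = 0 := by
    simp only [dt]
    linear_combination (b 2 * v 0 - b 0 * v 2) * ha + (v 2 * a 0 - v 0 * a 2) * hb +
      (a 2 * b 0 - a 0 * b 2) * hv
  have h2 : e 2 * dt a b v = 0 := by
    simp only [dt]
    linear_combination (b 0 * v 1 - b 1 * v 0) * ha + (v 0 * a 1 - v 1 * a 0) * hb +
      (a 0 * b 1 - a 1 * b 0) * hv
  linear_combination e 0 * h0 + e 1 * h1 + e 2 * h2 - dt a b v * he2

lemma dt_add (a b u v : E3) : dt a b (u + v) = dt a b u + dt a b v := by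
  simp only [dt, PiLp.add_apply]; ring

lemma dt_unit (e a b : E3) (he : ‖e‖ = 1) (ha : inner ℝ a e = 0) (hb : inner ℝ b e = 0) :
    |dt a b e| = area2 a b := by
  have hne : e ≠ 0 := by intro h; rw [h, norm_zero] at he; exact zero_ne_one he
  have h := area2_pj e a b hne
  have h1 : pj e a = a := by rw [pj_apply, ha]; simp
  have h2 : pj e b = b := by rw [pj_apply, hb]; simp
  rw [h1, h2, he, div_one] at h
  exact h.symm

lemma dt_U (e a b W : E3) (he : ‖e‖ = 1) (ha : inner ℝ a e = 0) (hb : inner ℝ b e = 0)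
    (hW : inner ℝ W e = 0) : |dt a b (e + W)| = area2 a b := by
  rw [dt_add, dt_perp e a b W he ha hb hW, add_zero, dt_unit e a b he ha hb]

lemma norm_U (e W : E3) (he : ‖e‖ = 1) (hW : inner ℝ W e = 0) :
    ‖e + W‖ = Real.sqrt (1 + ‖W‖ ^ 2) := by
  rw [← Real.sqrt_sq (norm_nonneg (e + W)), norm_add_sq_real, he, real_inner_comm, hW]
  congr 1; ring

lemma U_ne (e W : E3) (he : ‖e‖ = 1) (hW : inner ℝ W e = 0) : e + W ≠ 0 := by
  rw [← norm_ne_zero_iff, norm_U e W he hW]
  have : 0 < 1 + ‖W‖ ^ 2 := by positivity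
  exact (Real.sqrt_pos.2 this).ne'

lemma dt_fan (a b u : E3) (h lo hi : ℝ) :
    dt (h • (a + lo • b)) (h • (a + hi • b)) u = (hi - lo) * h ^ 2 * dt a b u := by
  simp only [dt, PiLp.add_apply, PiLp.smul_apply, smul_eq_mul]; ring

/-- Area of the projection of a fan triangle. -/
lemma area_fan (e a b W P : E3) (he : ‖e‖ = 1) (ha : inner ℝ a e = 0) (hb : inner ℝ b e = 0)
    (hW : inner ℝ W e = 0) (h lo hi : ℝ) (hlh : lo ≤ hi) :
    area2 (pj (e + W) (P + h • (a + lo • b)) - pj (e + W) P)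
      (pj (e + W) (P + h • (a + hi • b)) - pj (e + W) P) / 2 =
      (hi - lo) * (area2 a b * (h ^ 2 / (2 * Real.sqrt (1 + ‖W‖ ^ 2)))) := by
  rw [← map_sub, ← map_sub, add_sub_cancel_left, add_sub_cancel_left,
    area2_pj _ _ _ (U_ne e W he hW), dt_fan, norm_U e W he hW, abs_mul, dt_U e a b W he ha hb hW,
    abs_mul, abs_of_nonneg (sub_nonneg.2 hlh), abs_of_nonneg (sq_nonneg h)]
  have : 0 < Real.sqrt (1 + ‖W‖ ^ 2) := Real.sqrt_pos.2 (by positivity)
  field_simp

lemma affInd_of_area (p q r : E3) (h : area2 (q - p) (r - p) ≠ 0) :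
    AffineIndependent ℝ ![p, q, r] := by
  rw [affineIndependent_iff_not_collinear_set]
  intro hc
  rw [collinear_iff_of_mem (p₀ := p) (by simp)] at hc
  obtain ⟨v, hv⟩ := hc
  obtain ⟨x, hx⟩ := hv q (by simp)
  obtain ⟨y, hy⟩ := hv r (by simp)
  apply h
  have h1 : q - p = x • v := by rw [hx]; simp
  have h2 : r - p = y • v := by rw [hy]; simp
  rw [h1, h2, area2, norm_smul, norm_smul, inner_smul_left, inner_smul_right,
    real_inner_self_eq_norm_sq, Real.norm_eq_abs, Real.norm_eq_abs, mul_pow, mul_pow, sq_abs, sq_abs]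
  simp only [conj_trivial]
  rw [show x ^ 2 * ‖v‖ ^ 2 * (y ^ 2 * ‖v‖ ^ 2) - (x * (y * ‖v‖ ^ 2)) ^ 2 = 0 by ring]
  exact Real.sqrt_zero

/-- One cell: the covering triangle. -/
lemma cell_cover (e a b p₀ W : E3) (he : ‖e‖ = 1) (ha : inner ℝ a e = 0) (hb : inner ℝ b e = 0)
    (hW : inner ℝ W e = 0) (hab : 0 < area2 a b) (lo hi c K r₁ : ℝ) (hlh : lo < hi)
    (hc1 : lo ≤ c) (hc2 : c ≤ hi) (hH : 0 < r₁ + 4 * K * (hi - lo)) :
    ∃ p q r : E3, inner ℝ p (e + W) = 0 ∧ inner ℝ q (e + W) = 0 ∧ inner ℝ r (e + W) = 0 ∧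
      AffineIndependent ℝ ![p, q, r] ∧
      (∀ (ρ τ E₁ E₂ σ : ℝ), 0 ≤ ρ → ρ ≤ r₁ → lo ≤ τ → τ ≤ hi → |E₁| ≤ K * (hi - lo) →
        |E₂| ≤ K * (hi - lo) ^ 2 →
        pj (e + W) (p₀ + ρ • (a + τ • b) + E₁ • (a + c • b) + E₂ • b + σ • (e + W)) ∈
          convexHull ℝ ({p, q, r} : Set E3)) ∧
      (μHE[2] (convexHull ℝ ({p, q, r} : Set E3))).toReal =
        (hi - lo) * (area2 a b * ((r₁ + 4 * K * (hi - lo)) ^ 2 / (2 * Real.sqrt (1 + ‖W‖ ^ 2)))) := by
  have hU := U_ne e W he hW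
  set D := hi - lo with hD
  have hDpos : 0 < D := sub_pos.2 hlh
  set h := r₁ + 4 * K * D with hh
  set P : E3 := p₀ + (-(3 * K * D)) • (a + c • b) + ((hi - c) * (-(2 * K * D)) + K * D ^ 2) • b with hP
  refine ⟨pj (e + W) P, pj (e + W) (P + h • (a + lo • b)), pj (e + W) (P + h • (a + hi • b)),
    inner_pj _ _ hU, inner_pj _ _ hU, inner_pj _ _ hU, ?_, ?_, ?_⟩
  · apply affInd_of_area
    have h1 := area_fan e a b W P he ha hb hW h lo hi hlh.le
    have h2 : 0 < Real.sqrt (1 + ‖W‖ ^ 2) := Real.sqrt_pos.2 (by positivity)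
    have h3 : 0 < (hi - lo) * (area2 a b * (h ^ 2 / (2 * Real.sqrt (1 + ‖W‖ ^ 2)))) := by
      rw [← hD]; positivity
    rw [← h1] at h3
    intro h4
    rw [h4] at h3
    norm_num at h3
  · intro ρ τ E₁ E₂ σ hρ0 hρ1 hτ0 hτ1 hE1 hE2
    rw [abs_le] at hE1 hE2
    rw [mem_triangle_iff]
    -- coordinates
    refine ⟨((hi - τ) * ρ + (E₁ + K * D) * (hi - c) + (K * D ^ 2 - E₂)) / (h * D),
      ((τ - lo) * ρ + (E₁ + K * D) * (c - lo) + (K * D ^ 2 + E₂)) / (h * D), ?_, ?_, ?_, ?_⟩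
    · apply div_nonneg _ (by positivity)
      have := mul_nonneg (sub_nonneg.2 hτ1) hρ0
      have := mul_nonneg (by linarith [hE1.1] : 0 ≤ E₁ + K * D) (sub_nonneg.2 hc2)
      linarith [hE2.2]
    · apply div_nonneg _ (by positivity)
      have := mul_nonneg (sub_nonneg.2 hτ0) hρ0
      have := mul_nonneg (by linarith [hE1.1] : 0 ≤ E₁ + K * D) (sub_nonneg.2 hc1)
      linarith [hE2.1]
    · rw [← add_div, div_le_one (by positivity)]
      have e1 : (hi - τ) * ρ + (E₁ + K * D) * (hi - c) + (K * D ^ 2 - E₂) +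
          ((τ - lo) * ρ + (E₁ + K * D) * (c - lo) + (K * D ^ 2 + E₂)) = (ρ + E₁ + 3 * K * D) * D := by
        rw [hD]; ring
      rw [e1]
      apply mul_le_mul_of_nonneg_right _ hDpos.le
      rw [hh]; linarith [hE1.2]
    · have hhne : h ≠ 0 := hH.ne'
      have hDne : D ≠ 0 := hDpos.ne'
      have key : p₀ + ρ • (a + τ • b) + E₁ • (a + c • b) + E₂ • b =
          P + ((((hi - τ) * ρ + (E₁ + K * D) * (hi - c) + (K * D ^ 2 - E₂)) / (h * D)) •
            (h • (a + lo • b)) +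
          (((τ - lo) * ρ + (E₁ + K * D) * (c - lo) + (K * D ^ 2 + E₂)) / (h * D)) •
            (h • (a + hi • b))) := by
        ext j
        simp only [hP, PiLp.add_apply, PiLp.smul_apply, smul_eq_mul]
        have hhi : hi = D + lo := by rw [hD]; ring
        field_simp
        rw [hhi]
        ring
      clear_value P
      rw [map_add, map_smul, pj_self _ hU, smul_zero, add_zero, key]
      simp only [map_add, map_smul, add_sub_cancel_left]
  · rw [muHE_triangle_toReal]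
    exact area_fan e a b W P he ha hb hW h lo hi hlh.le

/-- One cell: the inscribed triangle. -/
lemma cell_inner (e a b p₀ W : E3) (he : ‖e‖ = 1) (ha : inner ℝ a e = 0) (hb : inner ℝ b e = 0)
    (hW : inner ℝ W e = 0) (lo hi r₀ : ℝ) (hlh : lo ≤ hi) (hr : 0 ≤ r₀) (S : Set E3)
    (hS : ∀ ρ τ : ℝ, 0 ≤ ρ → ρ ≤ r₀ → lo ≤ τ → τ ≤ hi → p₀ + ρ • (a + τ • b) ∈ S) :
    ENNReal.ofReal ((hi - lo) * (area2 a b * (r₀ ^ 2 / (2 * Real.sqrt (1 + ‖W‖ ^ 2))))) ≤
      μHE[2] (pj (e + W) '' S) := by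
  rw [← area_fan e a b W p₀ he ha hb hW r₀ lo hi hlh, ← muHE_triangle]
  apply measure_mono
  intro x hx
  rw [mem_triangle_iff] at hx
  obtain ⟨α, β, hα, hβ, hαβ, rfl⟩ := hx
  rw [← map_sub, ← map_sub, add_sub_cancel_left, add_sub_cancel_left, ← map_smul, ← map_smul,
    ← map_add, ← map_add]
  refine ⟨_, ?_, rfl⟩
  rcases (add_nonneg hα hβ).eq_or_lt with h0 | h0
  · have h1 : α = 0 := by linarith
    have h2 : β = 0 := by linarith
    subst h1 h2
    have := hS 0 lo le_rfl hr le_rfl hlh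
    simpa using this
  · have h3 := hS ((α + β) * r₀) ((α * lo + β * hi) / (α + β)) (by positivity)
      (by nlinarith) (by rw [le_div_iff₀ h0]; nlinarith) (by rw [div_le_iff₀ h0]; nlinarith)
    convert h3 using 1
    ext j
    simp only [PiLp.add_apply, PiLp.smul_apply, smul_eq_mul]
    field_simp
    ring

lemma fin_tele {N : ℕ} (G : Fin (N + 1) → ℝ) :
    ∑ i : Fin N, (G i.succ - G i.castSucc) = G (Fin.last N) - G 0 := by
  induction N with
  | zero => simp
  | succ n ih =>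
    rw [Fin.sum_univ_castSucc]
    have := ih (fun i => G i.castSucc)
    simp only [← Fin.succ_castSucc] at this ⊢
    have h2 : ∑ i : Fin n, (G i.castSucc.succ - G i.castSucc.castSucc) =
        G (Fin.last n).castSucc - G 0 := by
      rw [← Fin.castSucc_zero]; exact this
    rw [h2, Fin.succ_last]
    ring

/-- Cells cover the interval. -/
lemma exists_cell {N : ℕ} (t : Fin (N + 1) → ℝ) (ht : StrictMono t) (h0 : t 0 < t (Fin.last N))
    (τ : ℝ) (h1 : t 0 ≤ τ) (h2 : τ ≤ t (Fin.last N)) :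
    ∃ i : Fin N, t i.castSucc ≤ τ ∧ τ ≤ t i.succ := by
  have key : ∀ k : Fin (N + 1), τ ≤ t k → τ = t 0 ∨ ∃ i : Fin N, t i.castSucc ≤ τ ∧ τ ≤ t i.succ := by
    intro k
    induction k using Fin.induction with
    | zero => intro h; left; exact le_antisymm h h1
    | succ i ih =>
      intro h
      rcases le_total τ (t i.castSucc) with h3 | h3
      · exact ih h3
      · right; exact ⟨i, h3, h⟩
  rcases key _ h2 with h3 | h3
  · cases N with
    | zero => exact absurd h0 (lt_irrefl _)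
    | succ n =>
      refine ⟨0, ?_, ?_⟩
      · rw [Fin.castSucc_zero, h3]
      · rw [h3]; exact ht.monotone (Fin.zero_le _)
  · exact h3

/-- Riemann sums. -/
lemma riemann {N : ℕ} (t : Fin (N + 1) → ℝ) (ht : StrictMono t) (F : ℝ → ℝ)
    (hF : ContinuousOn F (Set.Icc (t 0) (t (Fin.last N)))) (ε : ℝ) (A : Fin N → ℝ)
    (hA : ∀ i : Fin N, ∀ τ, t i.castSucc ≤ τ → τ ≤ t i.succ →
      |A i - (t i.succ - t i.castSucc) * F τ| ≤ (t i.succ - t i.castSucc) * ε) :
    |∑ i, A i - ∫ τ in t 0..t (Fin.last N), F τ| ≤ (t (Fin.last N) - t 0) * ε := by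
  have hmem : ∀ k : Fin (N + 1), t k ∈ Set.Icc (t 0) (t (Fin.last N)) := fun k =>
    ⟨ht.monotone (Fin.zero_le _), ht.monotone (Fin.le_last _)⟩
  have hint : ∀ j k : Fin (N + 1), IntervalIntegrable F volume (t j) (t k) := by
    intro j k
    apply ContinuousOn.intervalIntegrable
    exact hF.mono (Set.uIcc_subset_Icc (hmem j) (hmem k))
  have h1 : ∑ i : Fin N, ∫ τ in t i.castSucc..t i.succ, F τ = ∫ τ in t 0..t (Fin.last N), F τ := by
    have h2 := fin_tele (fun k : Fin (N + 1) => ∫ τ in t 0..t k, F τ)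
    simp only [intervalIntegral.integral_same, sub_zero] at h2
    rw [← h2]
    refine Finset.sum_congr rfl fun i _ => ?_
    rw [intervalIntegral.integral_interval_sub_left (hint _ _) (hint _ _)]
  rw [← h1, ← Finset.sum_sub_distrib]
  refine (Finset.abs_sum_le_sum_abs _ _).trans ?_
  have h3 : (t (Fin.last N) - t 0) * ε = ∑ i : Fin N, (t i.succ - t i.castSucc) * ε := by
    rw [← Finset.sum_mul, fin_tele]
  rw [h3]
  refine Finset.sum_le_sum fun i _ => ?_
  have hlt : t i.castSucc < t i.succ := ht (Fin.castSucc_lt_succ)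
  have hpos : 0 < t i.succ - t i.castSucc := sub_pos.2 hlt
  have h4 : A i = ∫ τ in t i.castSucc..t i.succ, (A i / (t i.succ - t i.castSucc)) := by
    rw [intervalIntegral.integral_const, smul_eq_mul, mul_div_cancel₀ _ hpos.ne']
  have h5 : A i - ∫ τ in t i.castSucc..t i.succ, F τ =
      ∫ τ in t i.castSucc..t i.succ, (A i / (t i.succ - t i.castSucc) - F τ) := by
    rw [intervalIntegral.integral_sub intervalIntegrable_const (hint _ _), ← h4]
  rw [h5, ← Real.norm_eq_abs]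
  have h6 := intervalIntegral.norm_integral_le_of_norm_le_const (a := t i.castSucc) (b := t i.succ)
    (f := fun τ => A i / (t i.succ - t i.castSucc) - F τ) (C := ε) (by
      intro τ hτ
      rw [Set.uIoc_of_le hlt.le] at hτ
      have h7 := hA i τ hτ.1.le hτ.2
      rw [Real.norm_eq_abs]
      have h8 : A i / (t i.succ - t i.castSucc) - F τ =
          (A i - (t i.succ - t i.castSucc) * F τ) / (t i.succ - t i.castSucc) := by
        field_simp
      rw [h8, abs_div, abs_of_pos hpos, div_le_iff₀ hpos]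
      linarith)
  rw [abs_of_pos hpos, mul_comm] at h6
  exact h6

/-- The change of direction along the sweep. -/
lemma ftc (a b : E3) (α β : ℝ) (w : ℝ → E3) (lam : ℝ → ℝ) (hlam : ContinuousOn lam (Set.Icc α β))
    (hw' : ∀ t ∈ Set.Icc α β, HasDerivWithinAt w (lam t • (a + t • b)) (Set.Icc α β) t)
    (M : ℝ) (hM : ∀ t ∈ Set.Icc α β, |lam t| ≤ M) (c τ : ℝ) (hc : c ∈ Set.Icc α β)
    (hτ : τ ∈ Set.Icc α β) :
    ∃ E₁ E₂ : ℝ, |E₁| ≤ M * |τ - c| ∧ |E₂| ≤ M * |τ - c| * |τ - c| ∧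
      w τ = w c + E₁ • (a + c • b) + E₂ • b := by
  have hsub : Set.uIcc c τ ⊆ Set.Icc α β := Set.uIcc_subset_Icc hc hτ
  have hI1 : IntervalIntegrable lam volume c τ := (hlam.mono hsub).intervalIntegrable
  have hI2 : IntervalIntegrable (fun u => lam u * (u - c)) volume c τ :=
    ((hlam.mono hsub).mul (continuous_id.sub continuous_const).continuousOn).intervalIntegrable
  have hJ1 : ∀ v : E3, IntervalIntegrable (fun u => lam u • v) volume c τ := fun v =>
    ((hlam.mono hsub).smul continuousOn_const).intervalIntegrable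
  have hJ2 : ∀ v : E3, IntervalIntegrable (fun u => (lam u * (u - c)) • v) volume c τ := fun v =>
    (((hlam.mono hsub).mul (continuous_id.sub continuous_const).continuousOn).smul
      continuousOn_const).intervalIntegrable
  refine ⟨∫ u in c..τ, lam u, ∫ u in c..τ, lam u * (u - c), ?_, ?_, ?_⟩
  · rw [← Real.norm_eq_abs]
    apply intervalIntegral.norm_integral_le_of_norm_le_const
    intro u hu
    exact hM u (hsub (Set.uIoc_subset_uIcc hu))
  · rw [← Real.norm_eq_abs]
    apply intervalIntegral.norm_integral_le_of_norm_le_const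
    intro u hu
    have hu' := Set.uIoc_subset_uIcc hu
    rw [Real.norm_eq_abs, abs_mul]
    apply mul_le_mul (hM u (hsub hu')) _ (abs_nonneg _) ((abs_nonneg _).trans (hM u (hsub hu')))
    exact Set.abs_sub_left_of_mem_uIcc hu'
  · have hcont : ContinuousOn w (Set.uIcc c τ) := fun u hu =>
      ((hw' u (hsub hu)).continuousWithinAt).mono hsub
    have hder : ∀ x ∈ Set.Ioo (min c τ) (max c τ),
        HasDerivWithinAt w (lam x • (a + x • b)) (Set.Ioi x) x := by
      intro x hx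
      have hx' : x ∈ Set.Ioo α β := ⟨lt_of_le_of_lt (le_min hc.1 hτ.1) hx.1,
        lt_of_lt_of_le hx.2 (max_le hc.2 hτ.2)⟩
      exact ((hw' x ⟨hx'.1.le, hx'.2.le⟩).hasDerivAt (Icc_mem_nhds hx'.1 hx'.2)).hasDerivWithinAt
    have heq : ∀ u : ℝ, lam u • (a + u • b) = lam u • (a + c • b) + (lam u * (u - c)) • b := by
      intro u; module
    have hI3 : IntervalIntegrable (fun u => lam u • (a + u • b)) volume c τ := by
      simp_rw [heq]
      exact (hJ1 _).add (hJ2 _)
    have h := intervalIntegral.integral_eq_sub_of_hasDeriv_right hcont hder hI3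
    simp_rw [heq] at h
    rw [intervalIntegral.integral_add (hJ1 _) (hJ2 _),
      intervalIntegral.integral_smul_const, intervalIntegral.integral_smul_const] at h
    rw [add_assoc, h]
    abel

lemma area2_pos (a b : E3) (hab : LinearIndependent ℝ ![a, b]) : 0 < area2 a b := by
  rw [area2]
  apply Real.sqrt_pos.2
  rcases (gram_nonneg a b).lt_or_eq with h | h
  · exact h
  · exfalso
    rw [LinearIndependent.pair_iff] at hab
    have hv : ‖b‖ ^ 2 • a + (-(inner ℝ a b)) • b = 0 := by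
      rw [← norm_eq_zero, ← sq_eq_zero_iff, norm_add_sq_real, norm_smul, norm_smul, inner_smul_left,
        inner_smul_right, Real.norm_eq_abs, Real.norm_eq_abs, mul_pow, mul_pow, sq_abs, sq_abs]
      simp only [conj_trivial]
      linear_combination (-(‖b‖ ^ 2)) * h
    have h1 := (hab _ _ hv).1
    have hb : b = 0 := by simpa using h1
    have h2 := hab 0 1 (by simp [hb])
    exact one_ne_zero h2.2

lemma sq_close (r x ε B : ℝ) (hr : 0 ≤ r) (hrB : r ≤ B) (hx : 0 ≤ x) (hxr : |x - r| ≤ ε)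
    (hε : ε ≤ 1) : |x ^ 2 - r ^ 2| ≤ ε * (2 * B + 1) := by
  have h1 : x ^ 2 - r ^ 2 = (x - r) * (x + r) := by ring
  rw [h1, abs_mul, abs_of_nonneg (add_nonneg hx hr)]
  have h2 := (abs_le.1 hxr).2
  exact mul_le_mul hxr (by linarith) (by linarith) ((abs_nonneg _).trans hxr)

end Crest.Agent.TetCover.Sweep
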