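import Crest.Agent.TetCover.Area

set_option autoImplicit false

/-!
Flat triangles with a direction: the orthogonal projection of a flat triangle along a direction,
its area, and the cylinder spanned by it.
-/

namespace Crest.Agent.TetCover

open MeasureTheory Module
open scoped ENNReal

/-- The determinant of three vectors of three-space. -/
noncomputable def flatDet (a b u : E3) : ℝ :=
  a 0 * (b 1 * u 2 - b 2 * u 1) - a 1 * (b 0 * u 2 - b 2 * u 0) + a 2 * (b 0 * u 1 - b 1 * u 0)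

lemma inner_eq3 (a b : E3) : inner ℝ a b = a 0 * b 0 + a 1 * b 1 + a 2 * b 2 := by
  simp [PiLp.inner_apply, Fin.sum_univ_three]; ring

lemma normsq3 (a : E3) : ‖a‖ ^ 2 = a 0 ^ 2 + a 1 ^ 2 + a 2 ^ 2 := by
  rw [← real_inner_self_eq_norm_sq, inner_eq3]; ring

/-- The orthogonal projection along the unit vector `u`. -/
noncomputable def pr (u x : E3) : E3 := x - inner ℝ x u • u

lemma pr_sub (u x y : E3) : pr u x - pr u y = pr u (x - y) := by
  simp only [pr, inner_sub_left, sub_smul]; abel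

lemma inner_pr (u x : E3) (hu : ‖u‖ = 1) : inner ℝ (pr u x) u = 0 := by
  rw [pr, inner_sub_left, inner_smul_left, real_inner_self_eq_norm_sq, hu]; simp

lemma area2_pr (u a b : E3) (hu : ‖u‖ = 1) : area2 (pr u a) (pr u b) = |flatDet a b u| := by
  have hu2 : u 0 ^ 2 + u 1 ^ 2 + u 2 ^ 2 = 1 := by rw [← normsq3, hu]; norm_num
  rw [area2, ← Real.sqrt_sq_eq_abs]
  congr 1
  rw [normsq3, normsq3, inner_eq3]
  simp only [pr, PiLp.sub_apply, PiLp.smul_apply, smul_eq_mul, inner_eq3, flatDet]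
  linear_combination ((a 0 * u 0 + a 1 * u 1 + a 2 * u 2) ^ 2 * (b 0 ^ 2 + b 1 ^ 2 + b 2 ^ 2) +
    (b 0 * u 0 + b 1 * u 1 + b 2 * u 2) ^ 2 * (a 0 ^ 2 + a 1 ^ 2 + a 2 ^ 2) -
    2 * (a 0 * u 0 + a 1 * u 1 + a 2 * u 2) * (b 0 * u 0 + b 1 * u 1 + b 2 * u 2) *
      (a 0 * b 0 + a 1 * b 1 + a 2 * b 2) -
    ((a 0 ^ 2 + a 1 ^ 2 + a 2 ^ 2) * (b 0 ^ 2 + b 1 ^ 2 + b 2 ^ 2) -
      (a 0 * b 0 + a 1 * b 1 + a 2 * b 2) ^ 2)) * hu2

lemma flatDet_smul (a b u : E3) (s : ℝ) : flatDet a b (s • u) = s * flatDet a b u := by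
  simp only [flatDet, PiLp.smul_apply, smul_eq_mul]; ring

/-- The cylinder over a flat triangle in a direction `U`, rewritten with a unit direction and a base
triangle orthogonal to it. -/
lemma cyl_of_flat (P Q R U : E3) (hU : U ≠ 0) :
    ∃ u p q r : E3, ‖u‖ = 1 ∧ inner ℝ p u = 0 ∧ inner ℝ q u = 0 ∧ inner ℝ r u = 0 ∧
      (∀ (α β s : ℝ), 0 ≤ α → 0 ≤ β → α + β ≤ 1 →
        ∃ b ∈ convexHull ℝ ({p, q, r} : Set E3), ∃ t : ℝ,
          P + (α • (Q - P) + β • (R - P)) + s • U = b + t • u) ∧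
      (μHE[2] (convexHull ℝ ({p, q, r} : Set E3))).toReal =
        |flatDet (Q - P) (R - P) U| / (2 * ‖U‖) := by
  have hU' : ‖U‖ ≠ 0 := norm_ne_zero_iff.2 hU
  have hUpos : 0 < ‖U‖ := norm_pos_iff.2 hU
  set u : E3 := ‖U‖⁻¹ • U with hu
  have hu1 : ‖u‖ = 1 := by
    rw [hu, norm_smul, norm_inv, norm_norm, inv_mul_cancel₀ hU']
  refine ⟨u, pr u P, pr u Q, pr u R, hu1, inner_pr _ _ hu1, inner_pr _ _ hu1, inner_pr _ _ hu1,
    ?_, ?_⟩
  · intro α β s hα hβ hαβ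
    refine ⟨pr u P + (α • (pr u Q - pr u P) + β • (pr u R - pr u P)), ?_,
      inner ℝ (P + (α • (Q - P) + β • (R - P))) u + s * ‖U‖, ?_⟩
    · rw [mem_triangle_iff]
      exact ⟨α, β, hα, hβ, hαβ, rfl⟩
    · have hsU : s • U = (s * ‖U‖) • u := by
        rw [hu, smul_smul, mul_assoc, mul_inv_cancel₀ hU', mul_one]
      rw [hsU]
      simp only [pr, inner_add_left, inner_smul_left, inner_sub_left, conj_trivial]
      module
  · rw [muHE_triangle_toReal, pr_sub, pr_sub, area2_pr _ _ _ hu1, hu, flatDet_smul, abs_mul,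
      abs_of_pos (inv_pos.2 hUpos)]
    field_simp

end Crest.Agent.TetCover
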