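import Crest.Agent.TetCover.Area

set_option autoImplicit false

/-!
Passing from triangular bases to parallelograms and to relatively open sets, and transport of
covers to an arbitrary regular tetrahedron.
-/

namespace Crest.Agent.TetCover

open MeasureTheory Module Filter Topology
open scoped ENNReal

/-- An orthonormal frame containing a given unit vector. -/
lemma exists_onb_plane (u : E3) (hu : ‖u‖ = 1) : ∃ e f : E3, ‖e‖ = 1 ∧ ‖f‖ = 1 ∧
    inner ℝ e u = 0 ∧ inner ℝ f u = 0 ∧
    ∀ x : E3, x = inner ℝ u x • u + inner ℝ e x • e + inner ℝ f x • f := by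
  have hv : Orthonormal ℝ (({0} : Set (Fin 3)).domRestrict (fun _ : Fin 3 => u)) := by
    constructor
    · intro i; simpa using hu
    · intro i j hij
      exact absurd (Subsingleton.elim i j) hij
  obtain ⟨b, hb⟩ := hv.exists_orthonormalBasis_extension_of_card_eq (by simp)
  have h0 : b 0 = u := hb 0 (by simp)
  refine ⟨b 1, b 2, b.orthonormal.1 1, b.orthonormal.1 2, ?_, ?_, ?_⟩
  · rw [← h0]; exact b.orthonormal.2 (by decide)
  · rw [← h0]; exact b.orthonormal.2 (by decide)
  · intro x
    have := b.sum_repr' x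
    rw [Fin.sum_univ_three, h0] at this
    exact this.symm

lemma muHE_plane_bounded (u : E3) (hu : ‖u‖ = 1) (s : Set E3) (hs : Bornology.IsBounded s)
    (hsu : ∀ x ∈ s, inner ℝ x u = 0) : μHE[2] s < ∞ := by
  obtain ⟨e, f, he, hf, -, -, hx⟩ := exists_onb_plane u hu
  obtain ⟨R, hR⟩ := hs.subset_closedBall 0
  set R' : ℝ := max R 1 with hR'
  have hR1 : 1 ≤ R' := le_max_right _ _
  have hsub : s ⊆ {x : E3 | ∃ s ∈ Set.Icc (0 : ℝ) 1, ∃ t ∈ Set.Icc (0 : ℝ) 1,
      x = (-(R' • (e + f))) + s • ((2 * R') • e) + t • ((2 * R') • f)} := by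
    intro x hxs
    have hn : ‖x‖ ≤ R' := by
      have := hR hxs
      rw [mem_closedBall_zero_iff] at this
      exact this.trans (le_max_left _ _)
    have h1 : |inner ℝ e x| ≤ R' := by
      have := abs_real_inner_le_norm e x
      rw [he, one_mul] at this
      linarith
    have h2 : |inner ℝ f x| ≤ R' := by
      have := abs_real_inner_le_norm f x
      rw [hf, one_mul] at this
      linarith
    rw [abs_le] at h1 h2
    have hR0 : (0 : ℝ) < 2 * R' := by linarith
    refine ⟨(inner ℝ e x + R') / (2 * R'), ⟨by apply div_nonneg <;> linarith, ?_⟩,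
      (inner ℝ f x + R') / (2 * R'), ⟨by apply div_nonneg <;> linarith, ?_⟩, ?_⟩
    · rw [div_le_one hR0]; linarith
    · rw [div_le_one hR0]; linarith
    · rw [smul_smul, smul_smul, div_mul_cancel₀ _ hR0.ne', div_mul_cancel₀ _ hR0.ne']
      have h3 := hx x
      have h4 : inner ℝ u x = 0 := by rw [real_inner_comm]; exact hsu x hxs
      rw [h4, zero_smul, zero_add] at h3
      conv_lhs => rw [h3]
      module
  refine (measure_mono hsub).trans_lt ?_
  rw [muHE_parallelogram]
  exact ENNReal.ofReal_lt_top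

/-- A compact subset of a plane has relatively open bounded neighbourhoods of almost the same
area. -/
lemma exists_open_base (u : E3) (hu : ‖u‖ = 1) (T : Set E3) (hT : IsCompact T)
    (hTu : ∀ x ∈ T, inner ℝ x u = 0) (ε : ℝ) (hε : 0 < ε) :
    ∃ O : Set E3, IsOpen O ∧ Bornology.IsBounded O ∧ T ⊆ O ∧
      (μHE[2] (O ∩ {x : E3 | inner ℝ x u = 0})).toReal ≤ (μHE[2] T).toReal + ε := by
  set P : Set E3 := {x : E3 | inner ℝ x u = 0} with hP
  have hPc : IsClosed P := isClosed_eq (by fun_prop) continuous_const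
  set ν : Measure E3 := (μHE[2] : Measure E3).restrict P with hν
  have hb : ∀ r : ℝ, Bornology.IsBounded (Metric.thickening r T) := fun r =>
    hT.isBounded.thickening
  have hfin : ∀ r : ℝ, ν (Metric.thickening r T) < ∞ := by
    intro r
    rw [hν, Measure.restrict_apply Metric.isOpen_thickening.measurableSet]
    exact muHE_plane_bounded u hu _ ((hb r).subset Set.inter_subset_left) (fun x hx => hx.2)
  have hlim := tendsto_measure_thickening_of_isClosed (μ := ν) (s := T)
    ⟨1, one_pos, (hfin 1).ne⟩ hT.isClosed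
  have hνT : ν T = μHE[2] T := by
    rw [hν, Measure.restrict_apply hT.isClosed.measurableSet, Set.inter_eq_left.2]
    exact fun x hx => hTu x hx
  have hTfin : μHE[2] T ≠ ∞ := (muHE_plane_bounded u hu T hT.isBounded hTu).ne
  rw [hνT] at hlim
  have hlim2 := (ENNReal.tendsto_toReal hTfin).comp hlim
  have hev : ∀ᶠ r in 𝓝[>] (0:ℝ), (ν (Metric.thickening r T)).toReal < (μHE[2] T).toReal + ε :=
    hlim2.eventually_lt_const (by linarith)
  obtain ⟨r, hr, hr0⟩ := (hev.and self_mem_nhdsWithin).exists
  refine ⟨Metric.thickening r T, Metric.isOpen_thickening, hb r,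
    Metric.self_subset_thickening hr0 T, ?_⟩
  rw [hν, Measure.restrict_apply Metric.isOpen_thickening.measurableSet] at hr
  exact hr.le

end Crest.Agent.TetCover
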