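import Crest.Agent.TetCover.Transport

set_option autoImplicit false

/-!
Final covering statements (parallelogram bases, relatively open bases) from a triangular cover.
-/

namespace Crest.Agent.TetCover

open MeasureTheory Module Filter Topology
open scoped ENNReal Pointwise

lemma muHE_similar_image (L : E3 ≃ₗᵢ[ℝ] E3) (G : E3) (ρ : ℝ) (hρ : 0 < ρ) (s : Set E3) :
    (μHE[2] ((fun y => G + ρ • L y) '' s)).toReal = ρ ^ 2 * (μHE[2] s).toReal := by
  have e : (fun y => G + ρ • L y) '' s = (IsometryEquiv.addLeft G) '' (ρ • (L '' s)) := by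
    ext x
    simp only [Set.mem_image, Set.mem_smul_set, exists_exists_and_eq_and]
    rfl
  rw [e, Isometry.euclideanHausdorffMeasure_image (IsometryEquiv.isometry _),
    Measure.euclideanHausdorffMeasure_smul₀ 2 hρ.ne',
    Isometry.euclideanHausdorffMeasure_image L.isometry]
  simp only [ENNReal.toReal_smul, NNReal.smul_def, smul_eq_mul]
  push_cast
  rw [Real.norm_of_nonneg hρ.le]

lemma area2_smul_isometry (L : E3 ≃ₗᵢ[ℝ] E3) (ρ : ℝ) (hρ : 0 < ρ) (a b : E3) :
    area2 (ρ • L a) (ρ • L b) = ρ ^ 2 * area2 a b := by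
  unfold area2
  rw [real_inner_smul_left, real_inner_smul_right, LinearIsometryEquiv.inner_map_map,
    norm_smul, norm_smul, L.norm_map, L.norm_map, Real.norm_of_nonneg hρ.le]
  have : (ρ * ‖a‖) ^ 2 * (ρ * ‖b‖) ^ 2 - (ρ * (ρ * inner ℝ a b)) ^ 2 =
      (ρ ^ 2) ^ 2 * (‖a‖ ^ 2 * ‖b‖ ^ 2 - inner ℝ a b ^ 2) := by ring
  rw [this, Real.sqrt_mul (by positivity), Real.sqrt_sq (by positivity)]

lemma area2_smul_smul (s t : ℝ) (hs : 0 ≤ s) (ht : 0 ≤ t) (a b : E3) :
    area2 (s • a) (t • b) = s * t * area2 a b := by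
  unfold area2
  rw [real_inner_smul_left, real_inner_smul_right, norm_smul, norm_smul,
    Real.norm_of_nonneg hs, Real.norm_of_nonneg ht]
  have : (s * ‖a‖) ^ 2 * (t * ‖b‖) ^ 2 - (s * (t * inner ℝ a b)) ^ 2 =
      (s * t) ^ 2 * (‖a‖ ^ 2 * ‖b‖ ^ 2 - inner ℝ a b ^ 2) := by ring
  rw [this, Real.sqrt_mul (by positivity), Real.sqrt_sq (by positivity)]

/-- Areas of projections of bounded sets are finite. -/
lemma muHE_proj_lt_top (W : Set E3) (hW : Bornology.IsBounded W) (v : E3) (hv : ‖v‖ = 1) :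
    μHE[2] ((fun y : E3 => y - inner ℝ y v • v) '' W) < ∞ := by
  refine muHE_plane_bounded v hv _ ?_ ?_
  · have hL : LipschitzWith 1 (fun y : E3 => y - inner ℝ y v • v) ∨ True := Or.inr trivial
    obtain ⟨R, hR⟩ := hW.subset_closedBall 0
    refine (Metric.isBounded_closedBall (x := (0 : E3)) (r := 2 * R)).subset ?_
    rintro _ ⟨y, hy, rfl⟩
    have h1 : ‖y‖ ≤ R := by simpa using hR hy
    rw [mem_closedBall_zero_iff]
    have h2 : ‖inner ℝ y v • v‖ ≤ ‖y‖ := by
      rw [norm_smul, hv, mul_one]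
      have := abs_real_inner_le_norm y v
      rw [hv, mul_one] at this
      exact this
    calc ‖y - inner ℝ y v • v‖ ≤ ‖y‖ + ‖inner ℝ y v • v‖ := norm_sub_le _ _
      _ ≤ 2 * R := by linarith
  · rintro _ ⟨y, -, rfl⟩
    simp only [inner_sub_left, real_inner_smul_left, real_inner_self_eq_norm_sq, hv]
    ring

/-- Sum of the strip weights. -/
lemma sum_strip (N : ℕ) (hN : 0 < N) :
    ∑ j : Fin N, (1 / (N : ℝ)) * (1 - (j : ℝ) / N) = 1 / 2 + 1 / (2 * N) := by
  have hN' : (N : ℝ) ≠ 0 := by positivity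
  have h : ∀ M : ℕ, ∑ j ∈ Finset.range M, (j : ℝ) = M * (M - 1) / 2 := by
    intro M
    induction M with
    | zero => simp
    | succ M ih => rw [Finset.sum_range_succ, ih]; push_cast; ring
  rw [Fin.sum_univ_eq_sum_range (fun j : ℕ => (1 / (N : ℝ)) * (1 - (j : ℝ) / N)) N,
    ← Finset.mul_sum, Finset.sum_sub_distrib, ← Finset.sum_div, h N]
  simp only [Finset.sum_const, Finset.card_range, nsmul_eq_mul, mul_one]
  field_simp
  ring

/-- A triangle is covered by thin parallelograms. -/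
lemma triangle_subset_strips (N : ℕ) (hN : 0 < N) (p q r x : E3)
    (hx : x ∈ convexHull ℝ ({p, q, r} : Set E3)) :
    ∃ j : Fin N, ∃ s ∈ Set.Icc (0 : ℝ) 1, ∃ t ∈ Set.Icc (0 : ℝ) 1,
      x = (p + ((j : ℝ) / N) • (q - p)) + s • ((1 / (N : ℝ)) • (q - p)) +
        t • ((1 - (j : ℝ) / N) • (r - p)) := by
  rw [mem_triangle_iff] at hx
  obtain ⟨α, β, hα, hβ, hαβ, rfl⟩ := hx
  have hN' : (0 : ℝ) < N := by exact_mod_cast hN
  -- the strip
  obtain ⟨j, hj1, hj2⟩ : ∃ j : Fin N, (j : ℝ) / N ≤ α ∧ α ≤ ((j : ℝ) + 1) / N := by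
    by_cases h1 : α < 1
    · refine ⟨⟨⌊α * N⌋₊, ?_⟩, ?_, ?_⟩
      · rw [Nat.floor_lt (by positivity)]
        nlinarith
      · rw [div_le_iff₀ hN']
        exact Nat.floor_le (by positivity)
      · rw [le_div_iff₀ hN']
        exact (Nat.lt_floor_add_one _).le
    · have h2 : α = 1 := by linarith
      subst h2
      refine ⟨⟨N - 1, by omega⟩, ?_, ?_⟩
      · rw [div_le_one hN']
        have : ((N - 1 : ℕ) : ℝ) ≤ N := by exact_mod_cast Nat.sub_le _ _
        exact this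
      · rw [one_le_div hN']
        have : ((N - 1 : ℕ) : ℝ) + 1 = N := by
          have : (N - 1) + 1 = N := by omega
          exact_mod_cast this
        simp only
        rw [this]
  have hjN : (j : ℝ) < N := by exact_mod_cast j.2
  have hc : 0 < 1 - (j : ℝ) / N := by
    rw [sub_pos, div_lt_one hN']; exact hjN
  refine ⟨j, α * N - j, ⟨?_, ?_⟩, β / (1 - (j : ℝ) / N), ⟨by positivity, ?_⟩, ?_⟩
  · rw [div_le_iff₀ hN'] at hj1; linarith
  · rw [le_div_iff₀ hN'] at hj2; linarith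
  · rw [div_le_one hc]; linarith
  · rw [smul_smul, smul_smul, div_mul_cancel₀ _ hc.ne']
    have : (α * N - j) * (1 / (N : ℝ)) = α - (j : ℝ) / N := by field_simp
    rw [this]
    module

/-- From a triangular cover of `W` to parallelogram covers and relatively open covers. -/
theorem final_cover (W : Set E3) (hW : Bornology.IsBounded W) (M η : ℝ) (hM : 0 < M) (hη : 0 < η)
    (hproj : ∀ v : E3, ‖v‖ = 1 →
      ENNReal.ofReal M ≤ μHE[2] ((fun y : E3 => y - inner ℝ y v • v) '' W))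
    (m : ℕ) (u p q r : Fin m → E3)
    (hu : ∀ i, ‖u i‖ = 1)
    (ho : ∀ i, inner ℝ (p i) (u i) = 0 ∧ inner ℝ (q i) (u i) = 0 ∧ inner ℝ (r i) (u i) = 0)
    (hK : W ⊆ ⋃ i, {x : E3 | ∃ b ∈ convexHull ℝ {p i, q i, r i}, ∃ t : ℝ, x = b + t • u i})
    (hA : ∑ i, (μHE[2] (convexHull ℝ ({p i, q i, r i} : Set E3))).toReal ≤ M / 2 - η) :
    (∃ (k : ℕ) (u c a b : Fin k → E3),
      (∀ i, ‖u i‖ = 1) ∧
      (∀ i, inner ℝ (c i) (u i) = 0 ∧ inner ℝ (a i) (u i) = 0 ∧ inner ℝ (b i) (u i) = 0) ∧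
      W ⊆ ⋃ i, {x : E3 |
        ∃ s ∈ Set.Icc (0 : ℝ) 1, ∃ t ∈ Set.Icc (0 : ℝ) 1, ∃ τ : ℝ, x = c i + s • a i + t • b i + τ • u i} ∧
      (∃ δ : ℝ, 0 < δ ∧ ∀ v : E3, ‖v‖ = 1 →
        (∑ i, (μHE[2] {x : E3 |
            ∃ s ∈ Set.Icc (0 : ℝ) 1, ∃ t ∈ Set.Icc (0 : ℝ) 1, x = c i + s • a i + t • b i}).toReal) + δ ≤
          (μHE[2] ((fun y => y - inner ℝ y v • v) '' W)).toReal / 2) ∧
      ∑ i, (μHE[2] {x : E3 |
            ∃ s ∈ Set.Icc (0 : ℝ) 1, ∃ t ∈ Set.Icc (0 : ℝ) 1, x = c i + s • a i + t • b i}).toReal /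
          (μHE[2] ((fun y => y - inner ℝ y (u i) • u i) '' W)).toReal < 1 / 2) ∧
    (∃ (k : ℕ) (u : Fin k → E3) (B : Fin k → Set E3),
      (∀ i, ‖u i‖ = 1) ∧
      (∀ i, Bornology.IsBounded (B i) ∧ ∃ O : Set E3, IsOpen O ∧
        B i = O ∩ {x | inner ℝ x (u i) = 0}) ∧
      W ⊆
        ⋃ i, {x : E3 | ∃ y ∈ B i, ∃ τ : ℝ, x = y + τ • u i} ∧
      (∃ δ : ℝ, 0 < δ ∧ ∀ v : E3, ‖v‖ = 1 →
        (∑ i, (μHE[2] (B i)).toReal) + δ ≤
          (μHE[2] ((fun y => y - inner ℝ y v • v) '' W)).toReal / 2) ∧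
      ∑ i, (μHE[2] (B i)).toReal /
          (μHE[2] ((fun y => y - inner ℝ y (u i) • u i) '' W)).toReal < 1 / 2) := by
  have hproj' : ∀ v : E3, ‖v‖ = 1 →
      M ≤ (μHE[2] ((fun y : E3 => y - inner ℝ y v • v) '' W)).toReal := by
    intro v hv
    have h1 := hproj v hv
    rwa [ENNReal.ofReal_le_iff_le_toReal (muHE_proj_lt_top W hW v hv).ne] at h1
  -- generic last step
  have gen : ∀ (k : ℕ) (u' : Fin k → E3) (hu' : ∀ i, ‖u' i‖ = 1) (A : Fin k → ℝ)
      (hA0 : ∀ i, 0 ≤ A i) (hA' : ∑ i, A i ≤ M / 2 - η / 2),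
      (∃ δ : ℝ, 0 < δ ∧ ∀ v : E3, ‖v‖ = 1 → (∑ i, A i) + δ ≤
        (μHE[2] ((fun y => y - inner ℝ y v • v) '' W)).toReal / 2) ∧
      ∑ i, A i / (μHE[2] ((fun y => y - inner ℝ y (u' i) • u' i) '' W)).toReal < 1 / 2 := by
    intro k u' hu' A hA0 hA'
    refine ⟨⟨η / 2, by positivity, fun v hv => ?_⟩, ?_⟩
    · have := hproj' v hv
      linarith
    · calc ∑ i, A i / (μHE[2] ((fun y => y - inner ℝ y (u' i) • u' i) '' W)).toReal
          ≤ ∑ i, A i / M := by
            refine Finset.sum_le_sum fun i _ => ?_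
            exact div_le_div_of_nonneg_left (hA0 i) hM (hproj' _ (hu' i))
        _ = (∑ i, A i) / M := by rw [Finset.sum_div]
        _ < 1 / 2 := by
            rw [div_lt_iff₀ hM]
            linarith
  have hA2 : ∑ i, area2 (q i - p i) (r i - p i) / 2 ≤ M / 2 - η := by
    simpa only [muHE_triangle_toReal] using hA
  have hA0 : 0 ≤ ∑ i, area2 (q i - p i) (r i - p i) :=
    Finset.sum_nonneg fun i _ => area2_nonneg _ _
  constructor
  · -- parallelograms
    obtain ⟨N, hN1, hN2⟩ : ∃ N : ℕ, 0 < N ∧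
        (∑ i, area2 (q i - p i) (r i - p i)) / (2 * N) ≤ η / 2 := by
      obtain ⟨N, hN⟩ := exists_nat_gt ((∑ i, area2 (q i - p i) (r i - p i)) / η)
      refine ⟨N + 1, Nat.succ_pos _, ?_⟩
      rw [div_lt_iff₀ hη] at hN
      rw [div_le_iff₀ (by positivity)]
      push_cast
      nlinarith
    have hN' : (0 : ℝ) < N := by exact_mod_cast hN1
    let E := (finProdFinEquiv (m := m) (n := N)).symm
    refine ⟨m * N, fun k => u (E k).1,
      fun k => p (E k).1 + (((E k).2 : ℝ) / N) • (q (E k).1 - p (E k).1),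
      fun k => (1 / (N : ℝ)) • (q (E k).1 - p (E k).1),
      fun k => (1 - ((E k).2 : ℝ) / N) • (r (E k).1 - p (E k).1), fun k => hu _, ?_, ?_, ?_⟩
    · intro k
      obtain ⟨h1, h2, h3⟩ := ho (E k).1
      refine ⟨?_, ?_, ?_⟩ <;>
        simp only [inner_add_left, inner_sub_left, real_inner_smul_left, h1, h2, h3] <;> ring
    · intro x hx
      obtain ⟨i, b, hb, τ, rfl⟩ := Set.mem_iUnion.1 (hK hx)
      obtain ⟨j, s, hs, t, ht, hbe⟩ := triangle_subset_strips N hN1 _ _ _ _ hb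
      refine Set.mem_iUnion.2 ⟨finProdFinEquiv (i, j), s, hs, t, ht, τ, ?_⟩
      simp only [E, Equiv.symm_apply_apply]
      rw [← hbe]
    · simp only [muHE_parallelogram_toReal]
      refine gen (m * N) (fun k => u (E k).1) (fun k => hu _)
        (fun k => area2 ((1 / (N : ℝ)) • (q (E k).1 - p (E k).1))
          ((1 - ((E k).2 : ℝ) / N) • (r (E k).1 - p (E k).1))) (fun k => area2_nonneg _ _) ?_
      have hsum : ∑ k : Fin (m * N), area2 ((1 / (N : ℝ)) • (q (E k).1 - p (E k).1))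
          ((1 - ((E k).2 : ℝ) / N) • (r (E k).1 - p (E k).1)) =
          ∑ i : Fin m, ∑ j : Fin N, area2 ((1 / (N : ℝ)) • (q i - p i))
            ((1 - (j : ℝ) / N) • (r i - p i)) := by
        rw [← Fintype.sum_prod_type']
        exact Equiv.sum_comp E (fun x : Fin m × Fin N => area2 ((1 / (N : ℝ)) • (q x.1 - p x.1))
            ((1 - (x.2 : ℝ) / N) • (r x.1 - p x.1)))
      rw [hsum]
      have h3 : ∀ i : Fin m, ∑ j : Fin N, area2 ((1 / (N : ℝ)) • (q i - p i))
            ((1 - (j : ℝ) / N) • (r i - p i)) =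
          (1 / 2 + 1 / (2 * N)) * area2 (q i - p i) (r i - p i) := by
        intro i
        rw [← sum_strip N hN1, Finset.sum_mul]
        refine Finset.sum_congr rfl fun j _ => ?_
        have hjN : (j : ℝ) < N := by exact_mod_cast j.2
        exact area2_smul_smul _ _ (by positivity)
          (by rw [sub_nonneg]; exact ((div_lt_one hN').2 hjN).le) _ _
      rw [Finset.sum_congr rfl fun i _ => h3 i, ← Finset.mul_sum]
      rw [← Finset.sum_div] at hA2
      have h4 : (1 / 2 + 1 / (2 * (N : ℝ))) * ∑ i, area2 (q i - p i) (r i - p i) =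
          (∑ i, area2 (q i - p i) (r i - p i)) / 2 +
            (∑ i, area2 (q i - p i) (r i - p i)) / (2 * N) := by
        field_simp
      rw [h4]
      linarith
  · -- relatively open bases
    have hT : ∀ i, IsCompact (convexHull ℝ ({p i, q i, r i} : Set E3)) := fun i =>
      Set.Finite.isCompact_convexHull ℝ (Set.toFinite _)
    have hTu : ∀ i, ∀ x ∈ convexHull ℝ ({p i, q i, r i} : Set E3), inner ℝ x (u i) = 0 := by
      intro i x hx
      rw [mem_triangle_iff] at hx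
      obtain ⟨α, β, -, -, -, rfl⟩ := hx
      obtain ⟨h1, h2, h3⟩ := ho i
      simp only [inner_add_left, inner_sub_left, real_inner_smul_left, h1, h2, h3]
      ring
    have hex := fun i => exists_open_base (u i) (hu i) _ (hT i) (hTu i) (η / (2 * (m + 1)))
      (by positivity)
    choose O hO1 hO2 hO3 hO4 using hex
    refine ⟨m, u, fun i => O i ∩ {x | inner ℝ x (u i) = 0}, hu,
      fun i => ⟨(hO2 i).subset Set.inter_subset_left, O i, hO1 i, rfl⟩, ?_, ?_⟩
    · intro x hx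
      obtain ⟨i, b, hb, τ, rfl⟩ := Set.mem_iUnion.1 (hK hx)
      exact Set.mem_iUnion.2 ⟨i, b, ⟨hO3 i hb, hTu i b hb⟩, τ, rfl⟩
    · refine gen m u hu (fun i => (μHE[2] (O i ∩ {x : E3 | inner ℝ x (u i) = 0})).toReal)
        (fun i => ENNReal.toReal_nonneg) ?_
      calc ∑ i, (μHE[2] (O i ∩ {x : E3 | inner ℝ x (u i) = 0})).toReal
          ≤ ∑ i, ((μHE[2] (convexHull ℝ ({p i, q i, r i} : Set E3))).toReal + η / (2 * (m + 1))) :=
            Finset.sum_le_sum fun i _ => hO4 i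
        _ = ∑ i, (μHE[2] (convexHull ℝ ({p i, q i, r i} : Set E3))).toReal +
              m * (η / (2 * (m + 1))) := by
            rw [Finset.sum_add_distrib]; simp
        _ ≤ M / 2 - η + η / 2 := by
            have : (m : ℝ) * (η / (2 * (m + 1))) ≤ η / 2 := by
              have hm : (0 : ℝ) ≤ m := Nat.cast_nonneg m
              rw [mul_div_assoc', div_le_div_iff₀ (by positivity) (by positivity)]
              nlinarith
            linarith
        _ = M / 2 - η / 2 := by ring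

/-- Transport of a triangular cover of the standard tetrahedron to any regular tetrahedron. -/
theorem transport_cover
    (hproj : ∀ v : E3, ‖v‖ = 1 →
      ENNReal.ofReal (Real.sqrt 2) ≤ μHE[2] ((fun y : E3 => y - inner ℝ y v • v) '' K0))
    (m : ℕ) (u p q r : Fin m → E3)
    (hu : ∀ i, ‖u i‖ = 1)
    (ho : ∀ i, inner ℝ (p i) (u i) = 0 ∧ inner ℝ (q i) (u i) = 0 ∧ inner ℝ (r i) (u i) = 0)
    (hK : K0 ⊆ ⋃ i, {x : E3 | ∃ b ∈ convexHull ℝ {p i, q i, r i}, ∃ t : ℝ, x = b + t • u i})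
    (η : ℝ) (hη : 0 < η)
    (hA : ∑ i, (μHE[2] (convexHull ℝ ({p i, q i, r i} : Set E3))).toReal ≤ Real.sqrt 2 / 2 - η)
    (w : Fin 4 → E3) (ℓ : ℝ) (hℓ : 0 < ℓ)
    (hw : ∀ i j, i ≠ j → dist (w i) (w j) = ℓ) :
    ∃ (M η' : ℝ) (u p q r : Fin m → E3), 0 < M ∧ 0 < η' ∧
      (∀ v : E3, ‖v‖ = 1 →
        ENNReal.ofReal M ≤ μHE[2] ((fun y : E3 => y - inner ℝ y v • v) '' convexHull ℝ (Set.range w))) ∧
      (∀ i, ‖u i‖ = 1) ∧
      (∀ i, inner ℝ (p i) (u i) = 0 ∧ inner ℝ (q i) (u i) = 0 ∧ inner ℝ (r i) (u i) = 0) ∧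
      (convexHull ℝ (Set.range w) ⊆
        ⋃ i, {x : E3 | ∃ b ∈ convexHull ℝ {p i, q i, r i}, ∃ t : ℝ, x = b + t • u i}) ∧
      ∑ i, (μHE[2] (convexHull ℝ ({p i, q i, r i} : Set E3))).toReal ≤ M / 2 - η' := by
  obtain ⟨L, G, hLG⟩ := exists_similarity w ℓ hℓ hw
  set ρ : ℝ := ℓ / 2 with hρdef
  have hρ : 0 < ρ := by positivity
  rw [hLG]
  let T : Fin m → E3 → E3 := fun i x => (G - inner ℝ G (L (u i)) • L (u i)) + ρ • L x
  refine ⟨ρ ^ 2 * Real.sqrt 2, ρ ^ 2 * η, fun i => L (u i), fun i => T i (p i),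
    fun i => T i (q i), fun i => T i (r i), by positivity, by positivity, ?_, ?_, ?_, ?_, ?_⟩
  · intro v hv
    have e1 : (fun y : E3 => y - inner ℝ y v • v) '' ((fun x => G + ρ • L x) '' K0) =
        (fun y => (G - inner ℝ G v • v) + ρ • L y) ''
          ((fun y : E3 => y - inner ℝ y (L.symm v) • L.symm v) '' K0) := by
      rw [Set.image_image, Set.image_image]
      refine Set.image_congr fun x _ => ?_
      simp only [map_sub, map_smul, LinearIsometryEquiv.apply_symm_apply, inner_add_left,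
        real_inner_smul_left]
      have : inner ℝ (L x) v = inner ℝ x (L.symm v) := by
        rw [← LinearIsometryEquiv.inner_map_map L x (L.symm v), L.apply_symm_apply]
      rw [this]
      module
    have hv' : ‖L.symm v‖ = 1 := by rw [LinearIsometryEquiv.norm_map, hv]
    have hb : Bornology.IsBounded K0 :=
      isBounded_convexHull.2 (Set.toFinite _).isBounded
    rw [e1, ENNReal.ofReal_le_iff_le_toReal]
    · rw [muHE_similar_image L _ ρ hρ]
      have h2 := hproj _ hv'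
      rw [ENNReal.ofReal_le_iff_le_toReal (muHE_proj_lt_top K0 hb _ hv').ne] at h2
      exact mul_le_mul_of_nonneg_left h2 (by positivity)
    · rw [← e1]
      refine (muHE_proj_lt_top _ ?_ v hv).ne
      rw [← hLG]
      exact isBounded_convexHull.2 (Set.finite_range w).isBounded
  · intro i; rw [LinearIsometryEquiv.norm_map, hu i]
  · intro i
    obtain ⟨h1, h2, h3⟩ := ho i
    have gen : ∀ x : E3, inner ℝ x (u i) = 0 → inner ℝ (T i x) (L (u i)) = 0 := by
      intro x hx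
      simp only [T, inner_add_left, inner_sub_left, real_inner_smul_left,
        LinearIsometryEquiv.inner_map_map, hx, real_inner_self_eq_norm_sq,
        LinearIsometryEquiv.norm_map, hu i]
      ring
    exact ⟨gen _ h1, gen _ h2, gen _ h3⟩
  · rintro _ ⟨x, hx, rfl⟩
    obtain ⟨i, b, hb, t, rfl⟩ := Set.mem_iUnion.1 (hK hx)
    refine Set.mem_iUnion.2 ⟨i, T i b, ?_, inner ℝ G (L (u i)) + ρ * t, ?_⟩
    · rw [mem_triangle_iff] at hb ⊢
      obtain ⟨α, β, h1, h2, h3, rfl⟩ := hb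
      refine ⟨α, β, h1, h2, h3, ?_⟩
      simp only [T, map_add, map_sub, map_smul]
      module
    · simp only [T, map_add, map_smul]
      module
  · simp only [muHE_triangle_toReal] at hA ⊢
    have h1 : ∀ i, area2 (T i (q i) - T i (p i)) (T i (r i) - T i (p i)) =
        ρ ^ 2 * area2 (q i - p i) (r i - p i) := by
      intro i
      rw [← area2_smul_isometry L ρ hρ]
      congr 1 <;> simp only [T, map_sub] <;> module
    simp only [h1]
    have h2 : ∑ i, ρ ^ 2 * area2 (q i - p i) (r i - p i) / 2 =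
        ρ ^ 2 * ∑ i, area2 (q i - p i) (r i - p i) / 2 := by
      rw [Finset.mul_sum]
      refine Finset.sum_congr rfl fun i _ => by ring
    rw [h2]
    have h3 := mul_le_mul_of_nonneg_left hA (by positivity : 0 ≤ ρ ^ 2)
    calc ρ ^ 2 * ∑ i, area2 (q i - p i) (r i - p i) / 2 ≤ ρ ^ 2 * (Real.sqrt 2 / 2 - η) := h3
      _ = ρ ^ 2 * Real.sqrt 2 / 2 - ρ ^ 2 * η := by ring

end Crest.Agent.TetCover
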