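import Crest.Agent.TetCover.Area

set_option autoImplicit false

/-!
An orthonormal frame exchanged (up to factors) by a traceless planar linear map.
-/

namespace Crest.Agent.TetCover

open MeasureTheory Module

lemma apply_e2 (A : E2 →ₗ[ℝ] E2) (x : E2) (i : Fin 2) :
    A x i = x 0 * A (EuclideanSpace.single 0 1) i + x 1 * A (EuclideanSpace.single 1 1) i := by
  have hx : x = x 0 • (EuclideanSpace.single (0 : Fin 2) (1:ℝ)) + x 1 • (EuclideanSpace.single (1 : Fin 2) (1:ℝ)) := by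
    ext j; fin_cases j <;> simp
  conv_lhs => rw [hx]
  simp [map_add, map_smul]

lemma trace_e2 (A : E2 →ₗ[ℝ] E2) :
    LinearMap.trace ℝ _ A = A (EuclideanSpace.single 0 1) 0 + A (EuclideanSpace.single 1 1) 1 := by
  rw [LinearMap.trace_eq_matrix_trace ℝ (EuclideanSpace.basisFun (Fin 2) ℝ).toBasis, Matrix.trace_fin_two]
  simp [LinearMap.toMatrix_apply]

lemma det_e2 (A : E2 →ₗ[ℝ] E2) :
    LinearMap.det A = A (EuclideanSpace.single 0 1) 0 * A (EuclideanSpace.single 1 1) 1 -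
      A (EuclideanSpace.single 1 1) 0 * A (EuclideanSpace.single 0 1) 1 := by
  rw [← LinearMap.det_toMatrix (EuclideanSpace.basisFun (Fin 2) ℝ).toBasis, Matrix.det_fin_two]
  simp [LinearMap.toMatrix_apply]

lemma exists_angle (p q : ℝ) : ∃ θ : ℝ, p * (Real.cos θ ^ 2 - Real.sin θ ^ 2) +
    q * (Real.sin θ * Real.cos θ) = 0 := by
  by_cases hz : (⟨-(q / 2), p⟩ : ℂ) = 0
  · have h1 := congrArg Complex.re hz
    have h2 := congrArg Complex.im hz
    simp at h1 h2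
    exact ⟨0, by simp [h2]⟩
  · refine ⟨Complex.arg ⟨-(q / 2), p⟩ / 2, ?_⟩
    set ψ := Complex.arg ⟨-(q / 2), p⟩ with hψ
    have hn : ‖(⟨-(q / 2), p⟩ : ℂ)‖ ≠ 0 := norm_ne_zero_iff.2 hz
    have hcos := Complex.cos_arg hz
    have hsin := Complex.sin_arg (⟨-(q / 2), p⟩ : ℂ)
    rw [← hψ] at hcos hsin
    simp only at hcos hsin
    have e1 : Real.cos (ψ / 2) ^ 2 - Real.sin (ψ / 2) ^ 2 = Real.cos ψ := by
      have := Real.cos_two_mul' (ψ / 2)
      rw [← this]; congr 1; ring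
    have e2 : Real.sin (ψ / 2) * Real.cos (ψ / 2) = Real.sin ψ / 2 := by
      have := Real.sin_two_mul (ψ / 2)
      have h3 : 2 * (ψ / 2) = ψ := by ring
      rw [h3] at this
      rw [this]; ring
    rw [e1, e2, hcos, hsin]
    field_simp
    ring

lemma exists_frame (A : E2 →ₗ[ℝ] E2) (htr : LinearMap.trace ℝ _ A = 0) :
    ∃ (u v : E2) (α β : ℝ), ‖u‖ = 1 ∧ ‖v‖ = 1 ∧ inner ℝ u v = 0 ∧ A u = α • v ∧ A v = β • u ∧
      LinearMap.det A = -(α * β) := by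
  rw [trace_e2] at htr
  rw [det_e2]
  obtain ⟨p, hp⟩ : ∃ p, p = A (EuclideanSpace.single 0 1) 0 := ⟨_, rfl⟩
  obtain ⟨q, hq⟩ : ∃ q, q = A (EuclideanSpace.single 1 1) 0 := ⟨_, rfl⟩
  obtain ⟨r, hr⟩ : ∃ r, r = A (EuclideanSpace.single 0 1) 1 := ⟨_, rfl⟩
  have hs : A (EuclideanSpace.single 1 1) 1 = -p := by rw [hp]; linarith
  obtain ⟨θ, hθ⟩ := exists_angle p (q + r)
  obtain ⟨c, hc⟩ : ∃ c, c = Real.cos θ := ⟨_, rfl⟩
  obtain ⟨s, hs'⟩ : ∃ s, s = Real.sin θ := ⟨_, rfl⟩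
  have hcs : c ^ 2 + s ^ 2 = 1 := by rw [hc, hs']; exact Real.cos_sq_add_sin_sq θ
  rw [← hc, ← hs'] at hθ
  have hA : ∀ x : E2, A x = !₂[x 0 * p + x 1 * q, x 0 * r - x 1 * p] := by
    intro x
    ext i
    fin_cases i
    · simp [apply_e2 A x 0, ← hp, ← hq]
    · simp [apply_e2 A x 1, ← hr, hs]; ring
  refine ⟨!₂[c, s], !₂[-s, c], r * c ^ 2 - q * s ^ 2 - 2 * p * c * s,
    q * c ^ 2 - r * s ^ 2 - 2 * p * c * s, ?_, ?_, ?_, ?_, ?_, ?_⟩
  · rw [EuclideanSpace.norm_eq]; simp [Fin.sum_univ_two, hcs]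
  · rw [EuclideanSpace.norm_eq]; simp [Fin.sum_univ_two]; linarith
  · simp [PiLp.inner_apply, Fin.sum_univ_two]; ring
  · rw [hA]
    ext i
    fin_cases i
    · simp
      linear_combination c * hθ + (-p * c - q * s) * (hcs)
    · simp
      linear_combination s * hθ + (p * s - r * c) * (hcs)
  · rw [hA]
    ext i
    fin_cases i
    · simp
      linear_combination s * hθ + (p * s - q * c) * hcs
    · simp
      linear_combination (-c) * hθ + (p * c + r * s) * hcs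
  · rw [← hp, ← hq, ← hr, hs]
    linear_combination (-(p * (c ^ 2 - s ^ 2) + (q + r) * (s * c))) * hθ +
      (p ^ 2 + q * r) * (c ^ 2 + s ^ 2 + 1) * hcs


lemma norm_e2 (x : E2) : ‖x‖ = Real.sqrt (x 0 ^ 2 + x 1 ^ 2) := by
  rw [EuclideanSpace.norm_eq]; simp [Fin.sum_univ_two]

lemma abs_coord_le (x : E2) (i : Fin 2) : |x i| ≤ ‖x‖ := by
  have := PiLp.norm_apply_le x i
  simpa using this

lemma norm_le_abs_add (x : E2) : ‖x‖ ≤ |x 0| + |x 1| := by
  rw [norm_e2]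
  apply Real.sqrt_le_iff.2
  refine ⟨by positivity, ?_⟩
  have h0 := sq_abs (x 0)
  have h1 := sq_abs (x 1)
  have h2 : 0 ≤ |x 0| * |x 1| := by positivity
  nlinarith

/-- The isometry of the plane attached to an orthonormal pair. -/
lemma exists_isometry (u v : E2) (hu : ‖u‖ = 1) (hv : ‖v‖ = 1) (huv : inner ℝ u v = 0) :
    ∃ φ : E2 ≃ₗᵢ[ℝ] E2, ∀ y : E2, φ y = y 0 • u + y 1 • v := by
  let f : E2 →ₗ[ℝ] E2 :=
    { toFun := fun y => y 0 • u + y 1 • v
      map_add' := fun x y => by simp [add_smul]; abel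
      map_smul' := fun c x => by simp [mul_smul, smul_add] }
  have hf : ∀ y, ‖f y‖ = ‖y‖ := by
    intro y
    have h1 : ‖f y‖ ^ 2 = ‖y‖ ^ 2 := by
      have e : f y = y 0 • u + y 1 • v := rfl
      rw [e, norm_add_sq_real, norm_smul, norm_smul, hu, hv, inner_smul_left, inner_smul_right, huv,
        norm_e2, Real.sq_sqrt (by positivity)]
      simp
    exact (pow_left_inj₀ (norm_nonneg _) (norm_nonneg _) two_ne_zero).1 h1
  let g : E2 →ₗᵢ[ℝ] E2 := ⟨f, hf⟩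
  refine ⟨g.toLinearIsometryEquiv rfl, fun y => rfl⟩

lemma exists_iso_frame (A : E2 →ₗ[ℝ] E2) (htr : LinearMap.trace ℝ _ A = 0) :
    ∃ (φ : E2 ≃ₗᵢ[ℝ] E2) (α β : ℝ), (∀ y : E2, A (φ y) = φ !₂[β * y 1, α * y 0]) ∧
      LinearMap.det A = -(α * β) := by
  obtain ⟨u, v, α, β, hu, hv, huv, hAu, hAv, hdet⟩ := exists_frame A htr
  obtain ⟨φ, hφ⟩ := exists_isometry u v hu hv huv
  refine ⟨φ, α, β, ?_, hdet⟩
  intro y
  rw [hφ, hφ, map_add, map_smul, map_smul, hAu, hAv]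
  simp only [PiLp.toLp_apply, Matrix.cons_val_zero, Matrix.cons_val_one, smul_smul]
  rw [add_comm, mul_comm (y 1), mul_comm (y 0)]

end Crest.Agent.TetCover
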