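import Mathlib

set_option autoImplicit false

/-!
The sheared lattice lemma: `[0,1]² + ℤ (1,a) + ℤ (b,1) = ℝ²` when `0 ≤ a b < 1`.
-/

namespace Crest.Agent.TetCover

lemma lattice_key (a b P Q : ℝ) (h0 : 0 ≤ a * b) (h1 : a * b < 1) :
    ∃ m n : ℤ, 0 ≤ P - (m + b * n) ∧ P - (m + b * n) ≤ 1 ∧
      0 ≤ Q - (n + a * m) ∧ Q - (n + a * m) ≤ 1 := by
  set M : ℤ → ℤ := fun n => ⌊P - b * n⌋ with hM
  set Y : ℤ → ℝ := fun n => n + a * M n with hY
  have hM1 : ∀ n : ℤ, (M n : ℝ) ≤ P - b * n := fun n => Int.floor_le _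
  have hM2 : ∀ n : ℤ, P - b * n < M n + 1 := fun n => Int.lt_floor_add_one _
  have hc : 0 < 1 - a * b := by linarith
  have hYup : ∀ n : ℤ, Y n ≤ (1 - a * b) * n + a * P + |a| := by
    intro n
    have h2 : a * (M n - (P - b * n)) ≤ |a| := by
      calc a * (M n - (P - b * n)) ≤ |a * (M n - (P - b * n))| := le_abs_self _
        _ = |a| * |M n - (P - b * n)| := abs_mul _ _
        _ ≤ |a| * 1 := by
            apply mul_le_mul_of_nonneg_left _ (abs_nonneg a)
            rw [abs_le]; constructor <;> linarith [hM1 n, hM2 n]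
        _ = |a| := mul_one _
    simp only [hY]
    linarith
  have hYlo : ∀ n : ℤ, (1 - a * b) * n + a * P - |a| ≤ Y n := by
    intro n
    have h2 : -|a| ≤ a * (M n - (P - b * n)) := by
      have h3 : |a * (M n - (P - b * n))| ≤ |a| := by
        rw [abs_mul]
        calc |a| * |(M n : ℝ) - (P - b * n)| ≤ |a| * 1 := by
              apply mul_le_mul_of_nonneg_left _ (abs_nonneg a)
              rw [abs_le]; constructor <;> linarith [hM1 n, hM2 n]
          _ = |a| := mul_one _
      exact (abs_le.1 h3).1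
    simp only [hY]
    linarith
  obtain ⟨n, hn, hmax⟩ := Int.exists_greatest_of_bdd (P := fun n : ℤ => Y n ≤ Q)
    ⟨⌈(Q - a * P + |a|) / (1 - a * b)⌉, by
      intro z hz
      have h2 := hYlo z
      have h3 : (z : ℝ) ≤ (Q - a * P + |a|) / (1 - a * b) := by
        rw [le_div_iff₀ hc]; linarith
      exact_mod_cast h3.trans (Int.le_ceil _)⟩
    ⟨⌊(Q - a * P - |a|) / (1 - a * b)⌋, by
      have h2 := hYup ⌊(Q - a * P - |a|) / (1 - a * b)⌋
      have h3 := Int.floor_le ((Q - a * P - |a|) / (1 - a * b))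
      rw [le_div_iff₀ hc] at h3
      linarith⟩
  have hn1 : Q < Y (n + 1) := by
    by_contra hcon
    have := hmax (n + 1) (not_lt.1 hcon)
    omega
  have hstep : a * ((M (n + 1) : ℝ) - M n) ≤ 0 := by
    rcases lt_trichotomy b 0 with hb | hb | hb
    · have ha : a ≤ 0 := by
        by_contra hcon
        have : a * b < 0 := mul_neg_of_pos_of_neg (not_le.1 hcon) hb
        linarith
      have hmono : M n ≤ M (n + 1) := by
        apply Int.floor_le_floor
        push_cast
        linarith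
      have : (0:ℝ) ≤ (M (n + 1) : ℝ) - M n := by
        have : (M n : ℝ) ≤ M (n + 1) := by exact_mod_cast hmono
        linarith
      exact mul_nonpos_of_nonpos_of_nonneg ha this
    · have : M (n + 1) = M n := by simp [hM, hb]
      rw [this]; simp
    · have ha : 0 ≤ a := by
        by_contra hcon
        have : a * b < 0 := mul_neg_of_neg_of_pos (not_le.1 hcon) hb
        linarith
      have hmono : M (n + 1) ≤ M n := by
        apply Int.floor_le_floor
        push_cast
        linarith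
      have : (M (n + 1) : ℝ) - M n ≤ 0 := by
        have : (M (n + 1) : ℝ) ≤ M n := by exact_mod_cast hmono
        linarith
      exact mul_nonpos_of_nonneg_of_nonpos ha this
  have hYstep : Y (n + 1) ≤ Y n + 1 := by
    simp only [hY]
    push_cast
    linarith
  refine ⟨M n, n, by linarith [hM1 n], by linarith [hM2 n], ?_, ?_⟩
  · have := hn
    simp only [hY] at this
    linarith
  · simp only [hY] at hn1 hYstep
    linarith

/-- The lattice lemma with control of the solution. -/
lemma lattice_point (α β s X Y L : ℝ) (h0 : 0 ≤ α * β) (hL : 0 < L)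
    (h1 : L ^ 2 * (α * β) < 1) (hs : |s| ≤ L) :
    ∃ m n : ℤ,
      (0 ≤ (X - m) + s * β * (Y - n) ∧ (X - m) + s * β * (Y - n) ≤ 1) ∧
      (0 ≤ (Y - n) + s * α * (X - m) ∧ (Y - n) + s * α * (X - m) ≤ 1) ∧
      |X - m| ≤ (1 + L * (|α| + |β|)) / (1 - L ^ 2 * (α * β)) ∧
      |Y - n| ≤ (1 + L * (|α| + |β|)) / (1 - L ^ 2 * (α * β)) := by
  have hs2 : s ^ 2 ≤ L ^ 2 := by rw [← sq_abs s]; exact pow_le_pow_left₀ (abs_nonneg _) hs 2
  have hab0 : 0 ≤ (s * α) * (s * β) := by
    have : 0 ≤ s ^ 2 * (α * β) := mul_nonneg (sq_nonneg _) h0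
    linarith
  have hab1 : (s * α) * (s * β) ≤ L ^ 2 * (α * β) := by
    have := mul_le_mul_of_nonneg_right hs2 h0
    linarith
  obtain ⟨m, n, h2, h3, h4, h5⟩ := lattice_key (s * α) (s * β) (X + s * β * Y) (Y + s * α * X)
    hab0 (lt_of_le_of_lt hab1 h1)
  have hc : 0 < 1 - L ^ 2 * (α * β) := by linarith
  have hc' : 1 - L ^ 2 * (α * β) ≤ 1 - (s * α) * (s * β) := by linarith
  have hc'' : 0 < 1 - (s * α) * (s * β) := by linarith
  obtain ⟨z, hz⟩ : ∃ z, z = (X - m) + s * β * (Y - n) := ⟨_, rfl⟩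
  obtain ⟨w, hw⟩ : ∃ w, w = (Y - n) + s * α * (X - m) := ⟨_, rfl⟩
  have hz0 : 0 ≤ z := by rw [hz]; linarith
  have hz1 : z ≤ 1 := by rw [hz]; linarith
  have hw0 : 0 ≤ w := by rw [hw]; linarith
  have hw1 : w ≤ 1 := by rw [hw]; linarith
  have hsα : |s * α| ≤ L * |α| := by
    rw [abs_mul]; exact mul_le_mul_of_nonneg_right hs (abs_nonneg _)
  have hsβ : |s * β| ≤ L * |β| := by
    rw [abs_mul]; exact mul_le_mul_of_nonneg_right hs (abs_nonneg _)
  have e1 : (X - m) * (1 - (s * α) * (s * β)) = z - s * β * w := by rw [hz, hw]; ring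
  have e2 : (Y - n) * (1 - (s * α) * (s * β)) = w - s * α * z := by rw [hz, hw]; ring
  have b1 : |z - s * β * w| ≤ 1 + L * (|α| + |β|) := by
    calc |z - s * β * w| ≤ |z| + |s * β * w| := abs_sub _ _
      _ = |z| + |s * β| * |w| := by rw [abs_mul]
      _ ≤ 1 + (L * |β|) * 1 := by
          apply add_le_add
          · rw [abs_of_nonneg hz0]; exact hz1
          · apply mul_le_mul hsβ _ (abs_nonneg _) (by positivity)
            rw [abs_of_nonneg hw0]; exact hw1
      _ ≤ 1 + L * (|α| + |β|) := by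
          have : 0 ≤ L * |α| := by positivity
          linarith
  have b2 : |w - s * α * z| ≤ 1 + L * (|α| + |β|) := by
    calc |w - s * α * z| ≤ |w| + |s * α * z| := abs_sub _ _
      _ = |w| + |s * α| * |z| := by rw [abs_mul]
      _ ≤ 1 + (L * |α|) * 1 := by
          apply add_le_add
          · rw [abs_of_nonneg hw0]; exact hw1
          · apply mul_le_mul hsα _ (abs_nonneg _) (by positivity)
            rw [abs_of_nonneg hz0]; exact hz1
      _ ≤ 1 + L * (|α| + |β|) := by
          have : 0 ≤ L * |β| := by positivity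
          linarith
  refine ⟨m, n, ⟨by rw [← hz]; exact hz0, by rw [← hz]; exact hz1⟩,
    ⟨by rw [← hw]; exact hw0, by rw [← hw]; exact hw1⟩, ?_, ?_⟩
  · rw [le_div_iff₀ hc]
    calc |X - m| * (1 - L ^ 2 * (α * β)) ≤ |X - m| * (1 - (s * α) * (s * β)) :=
          mul_le_mul_of_nonneg_left hc' (abs_nonneg _)
      _ = |(X - m) * (1 - (s * α) * (s * β))| := by rw [abs_mul, abs_of_pos hc'']
      _ = |z - s * β * w| := by rw [e1]
      _ ≤ _ := b1
  · rw [le_div_iff₀ hc]
    calc |Y - n| * (1 - L ^ 2 * (α * β)) ≤ |Y - n| * (1 - (s * α) * (s * β)) :=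
          mul_le_mul_of_nonneg_left hc' (abs_nonneg _)
      _ = |(Y - n) * (1 - (s * α) * (s * β))| := by rw [abs_mul, abs_of_pos hc'']
      _ = |w - s * α * z| := by rw [e2]
      _ ≤ _ := b2

end Crest.Agent.TetCover
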