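import Crest.Agent.TetCover.Frame
import Crest.Agent.TetCover.Lattice

set_option autoImplicit false

/-!
Covers of ruled sets by sheared square cylinders: predicate, unions, local step.
-/

namespace Crest.Agent.TetCover

open MeasureTheory Module
open scoped ENNReal

/-- The weight of a velocity. -/
noncomputable def Jh (h : ℝ) (g : E2) : ℝ := 1 / Real.sqrt (1 + (g 0) ^ 2 + h ^ 2 * (g 1) ^ 2)

lemma Jh_pos (h : ℝ) (g : E2) : 0 < Jh h g := by
  unfold Jh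
  have : 0 < Real.sqrt (1 + (g 0) ^ 2 + h ^ 2 * (g 1) ^ 2) := Real.sqrt_pos.2 (by positivity)
  positivity

lemma Jh_le_one (h : ℝ) (g : E2) : Jh h g ≤ 1 := by
  unfold Jh
  have h1 : 1 ≤ Real.sqrt (1 + (g 0) ^ 2 + h ^ 2 * (g 1) ^ 2) := by
    rw [Real.one_le_sqrt]
    nlinarith [sq_nonneg (g 0), sq_nonneg (h * g 1)]
  rw [div_le_one (by linarith)]
  exact h1

lemma continuous_Jh (h : ℝ) : Continuous (Jh h) := by
  unfold Jh
  refine continuous_const.div (by fun_prop) ?_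
  intro g
  exact (Real.sqrt_pos.2 (by positivity)).ne'

/-- Finite covers by sheared square cylinders with total weight at most `M`. -/
def Cov (V : E2 → E2) (L h : ℝ) (X : Set E2) (M : ℝ) : Prop :=
  ∃ (k : ℕ) (c a b g : Fin k → E2),
      (∀ i, a i ≠ 0 ∧ ‖b i‖ = ‖a i‖ ∧ inner ℝ (a i) (b i) = 0) ∧
      {z : ℝ × E2 | ∃ p ∈ X, abs z.1 ≤ L ∧ z.2 = p + z.1 • V p} ⊆
        ⋃ i, {z : ℝ × E2 | ∃ x ∈ Set.Icc (0 : ℝ) 1, ∃ y ∈ Set.Icc (0 : ℝ) 1,
          z.2 = c i + x • a i + y • b i + z.1 • g i} ∧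
      ∑ i, ‖a i‖ ^ 2 * Jh h (g i) ≤ M

lemma Cov.mono {V : E2 → E2} {L h : ℝ} {X : Set E2} {M M' : ℝ} (hc : Cov V L h X M) (hM : M ≤ M') :
    Cov V L h X M' := by
  obtain ⟨k, c, a, b, g, h1, h2, h3⟩ := hc
  exact ⟨k, c, a, b, g, h1, h2, h3.trans hM⟩

lemma Cov.empty (V : E2 → E2) (L h : ℝ) : Cov V L h ∅ 0 := by
  refine ⟨0, Fin.elim0, Fin.elim0, Fin.elim0, Fin.elim0, fun i => Fin.elim0 i, ?_, by simp⟩
  rintro z ⟨p, hp, _⟩
  exact absurd hp (Set.notMem_empty p)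

lemma Cov.union {V : E2 → E2} {L h : ℝ} {X X' : Set E2} {M M' : ℝ} (hc : Cov V L h X M)
    (hc' : Cov V L h X' M') : Cov V L h (X ∪ X') (M + M') := by
  obtain ⟨k, c, a, b, g, h1, h2, h3⟩ := hc
  obtain ⟨k', c', a', b', g', h1', h2', h3'⟩ := hc'
  refine ⟨k + k', Fin.addCases c c', Fin.addCases a a', Fin.addCases b b', Fin.addCases g g',
    ?_, ?_, ?_⟩
  · intro i
    refine Fin.addCases (fun j => ?_) (fun j => ?_) i
    · simp only [Fin.addCases_left]; exact h1 j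
    · simp only [Fin.addCases_right]; exact h1' j
  · rintro z ⟨p, hp | hp, hz⟩
    · obtain ⟨i, hi⟩ := Set.mem_iUnion.1 (h2 ⟨p, hp, hz⟩)
      refine Set.mem_iUnion.2 ⟨Fin.castAdd k' i, ?_⟩
      simp only [Set.mem_ofPred_eq, Fin.addCases_left] at hi ⊢
      exact hi
    · obtain ⟨i, hi⟩ := Set.mem_iUnion.1 (h2' ⟨p, hp, hz⟩)
      refine Set.mem_iUnion.2 ⟨Fin.natAdd k i, ?_⟩
      simp only [Set.mem_ofPred_eq, Fin.addCases_right] at hi ⊢
      exact hi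
  · rw [Fin.sum_univ_add]
    simp only [Fin.addCases_left, Fin.addCases_right]
    exact add_le_add h3 h3'

lemma Cov.biUnion {V : E2 → E2} {L h : ℝ} {ι : Type*} [DecidableEq ι] (F : Finset ι) (X : ι → Set E2)
    (M : ι → ℝ) (hc : ∀ i ∈ F, Cov V L h (X i) (M i)) : Cov V L h (⋃ i ∈ F, X i) (∑ i ∈ F, M i) := by
  induction F using Finset.induction_on with
  | empty => simpa using Cov.empty V L h
  | insert i F hi ih =>
    rw [Finset.set_biUnion_insert, Finset.sum_insert hi]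
    exact (hc i (Finset.mem_insert_self i F)).union
      (ih fun j hj => hc j (Finset.mem_insert_of_mem hj))

lemma Cov.subset {V : E2 → E2} {L h : ℝ} {X X' : Set E2} {M : ℝ} (hc : Cov V L h X M)
    (hX : X' ⊆ X) : Cov V L h X' M := by
  obtain ⟨k, c, a, b, g, h1, h2, h3⟩ := hc
  refine ⟨k, c, a, b, g, h1, ?_, h3⟩
  rintro z ⟨p, hp, hz⟩
  exact h2 ⟨p, hX hp, hz⟩

lemma Cov.of_finset {V : E2 → E2} {L h : ℝ} {X : Set E2} {M : ℝ} {ι : Type*} (F : Finset ι)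
    (c a b g : ι → E2)
    (h1 : ∀ i ∈ F, a i ≠ 0 ∧ ‖b i‖ = ‖a i‖ ∧ inner ℝ (a i) (b i) = 0)
    (h2 : ∀ p ∈ X, ∀ s : ℝ, |s| ≤ L → ∃ i ∈ F, ∃ x ∈ Set.Icc (0 : ℝ) 1, ∃ y ∈ Set.Icc (0 : ℝ) 1,
      p + s • V p = c i + x • a i + y • b i + s • g i)
    (h3 : ∑ i ∈ F, ‖a i‖ ^ 2 * Jh h (g i) ≤ M) : Cov V L h X M := by
  refine ⟨F.card, fun i => c (F.equivFin.symm i), fun i => a (F.equivFin.symm i),
    fun i => b (F.equivFin.symm i), fun i => g (F.equivFin.symm i), ?_, ?_, ?_⟩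
  · intro i
    exact h1 _ (F.equivFin.symm i).2
  · rintro z ⟨p, hp, hz1, hz2⟩
    obtain ⟨i, hi, x, hx, y, hy, hxy⟩ := h2 p hp z.1 hz1
    refine Set.mem_iUnion.2 ⟨F.equivFin ⟨i, hi⟩, x, hx, y, hy, ?_⟩
    simp only [Equiv.symm_apply_apply]
    rw [hz2, hxy]
  · refine le_trans (le_of_eq ?_) h3
    rw [← Finset.sum_coe_sort F]
    exact Equiv.sum_comp F.equivFin.symm (fun i : F => ‖a i‖ ^ 2 * Jh h (g i))

/-- A half-open box in the plane. -/
def Box (x y d : ℝ) : Set E2 := {z | z 0 ∈ Set.Ico x (x + d) ∧ z 1 ∈ Set.Ico y (y + d)}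

lemma measurableSet_Box (x y d : ℝ) : MeasurableSet (Box x y d) := by
  have h1 : MeasurableSet {p : ℝ × ℝ | p.1 ∈ Set.Ico x (x + d) ∧ p.2 ∈ Set.Ico y (y + d)} :=
    measurableSet_Ico.prod measurableSet_Ico
  exact mp_E2.measurable h1

lemma volume_Box (x y d : ℝ) (hd : 0 ≤ d) : volume (Box x y d) = ENNReal.ofReal (d ^ 2) := by
  have h1 : MeasurableSet (Set.Ico x (x + d) ×ˢ Set.Ico y (y + d)) :=
    measurableSet_Ico.prod measurableSet_Ico
  have h := mp_E2.measure_preimage h1.nullMeasurableSet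
  have e : (fun z : E2 => (z 0, z 1)) ⁻¹' (Set.Ico x (x + d) ×ˢ Set.Ico y (y + d)) = Box x y d := rfl
  rw [e] at h
  rw [h, Measure.volume_eq_prod, Measure.prod_prod, Real.volume_Ico, Real.volume_Ico,
    add_sub_cancel_left, add_sub_cancel_left, ← ENNReal.ofReal_mul hd, sq]

/-- Counting lattice cells inside a set of bounded area. -/
lemma card_cells (φ : E2 ≃ₗᵢ[ℝ] E2) (p₁ : E2) (δ : ℝ) (hδ : 0 < δ) (F : Finset (ℤ × ℤ)) (S : Set E2)
    (W : ℝ) (hW : 0 ≤ W) (hS : volume S ≤ ENNReal.ofReal W)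
    (hF : ∀ i ∈ F, ∀ x : E2, ‖x - (p₁ + φ !₂[δ * (i.1 : ℝ), δ * (i.2 : ℝ)])‖ ≤ 2 * δ → x ∈ S) :
    (F.card : ℝ) * δ ^ 2 ≤ W := by
  set K : ℤ × ℤ → Set E2 := fun i => (fun x => φ.symm (x - p₁)) ⁻¹' (Box (δ * i.1) (δ * i.2) δ) with hK
  have hmp : MeasurePreserving (fun x : E2 => φ.symm (x - p₁)) volume volume :=
    (LinearIsometryEquiv.measurePreserving φ.symm).comp (measurePreserving_sub_right volume p₁)
  have hKm : ∀ i, MeasurableSet (K i) := fun i => hmp.measurable (measurableSet_Box _ _ _)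
  have hKv : ∀ i, volume (K i) = ENNReal.ofReal (δ ^ 2) := by
    intro i
    rw [hK]
    simp only
    rw [hmp.measure_preimage (measurableSet_Box _ _ _).nullMeasurableSet, volume_Box _ _ _ hδ.le]
  have hKS : ∀ i ∈ F, K i ⊆ S := by
    intro i hi x hx
    apply hF i hi
    have h1 : x - (p₁ + φ !₂[δ * (i.1 : ℝ), δ * (i.2 : ℝ)]) =
        φ (φ.symm (x - p₁) - !₂[δ * (i.1 : ℝ), δ * (i.2 : ℝ)]) := by
      rw [map_sub, LinearIsometryEquiv.apply_symm_apply]; abel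
    rw [h1, LinearIsometryEquiv.norm_map]
    refine (norm_le_abs_add _).trans ?_
    obtain ⟨⟨h2, h3⟩, h4, h5⟩ := hx
    simp only [PiLp.sub_apply, Matrix.cons_val_zero, Matrix.cons_val_one] at h2 h3 h4 h5 ⊢
    have h6 : |(φ.symm (x - p₁)) 0 - δ * (i.1 : ℝ)| ≤ δ := by
      rw [abs_le]; constructor <;> linarith
    have h7 : |(φ.symm (x - p₁)) 1 - δ * (i.2 : ℝ)| ≤ δ := by
      rw [abs_le]; constructor <;> linarith
    linarith
  have hdisj : ∀ i j : ℤ × ℤ, i ≠ j → Disjoint (K i) (K j) := by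
    intro i j hij
    rw [Set.disjoint_left]
    rintro x ⟨⟨h2, h3⟩, h4, h5⟩ ⟨⟨h2', h3'⟩, h4', h5'⟩
    apply hij
    set y := φ.symm (x - p₁)
    have aux : ∀ (m n : ℤ) (w : ℝ), δ * m ≤ w → w < δ * m + δ → δ * n ≤ w → w < δ * n + δ → m = n := by
      intro m n w h1 h2 h3 h4
      have h5 : δ * (m:ℝ) < δ * ((n:ℝ) + 1) := by linarith
      have h6 : δ * (n:ℝ) < δ * ((m:ℝ) + 1) := by linarith
      have h7 := lt_of_mul_lt_mul_left h5 hδ.le
      have h8 := lt_of_mul_lt_mul_left h6 hδ.le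
      have h9 : m < n + 1 := by exact_mod_cast h7
      have h10 : n < m + 1 := by exact_mod_cast h8
      omega
    exact Prod.ext (aux _ _ _ h2 h3 h2' h3') (aux _ _ _ h4 h5 h4' h5')
  have h1 : volume (⋃ i ∈ F, K i) = ∑ i ∈ F, volume (K i) :=
    measure_biUnion_finset (fun i _ j _ hij => hdisj i j hij) (fun i _ => hKm i)
  have h2 : volume (⋃ i ∈ F, K i) ≤ ENNReal.ofReal W :=
    (measure_mono (Set.iUnion₂_subset hKS)).trans hS
  rw [h1] at h2
  simp only [hKv, Finset.sum_const, nsmul_eq_mul] at h2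
  have h3 : ((F.card : ℝ≥0∞)) * ENNReal.ofReal (δ ^ 2) = ENNReal.ofReal ((F.card : ℝ) * δ ^ 2) := by
    rw [ENNReal.ofReal_mul (by positivity), ENNReal.ofReal_natCast]
  rw [h3] at h2
  exact (ENNReal.ofReal_le_ofReal_iff hW).1 h2


/-- The local step: cover of the part of the ruled set over a small set `X`. -/
lemma local_cover (V : E2 → E2) (L h : ℝ) (hL : 0 < L) (A : E2 →ₗ[ℝ] E2) (φ : E2 ≃ₗᵢ[ℝ] E2)
    (α β : ℝ) (hA : ∀ y : E2, A (φ y) = φ !₂[β * y 1, α * y 0]) (h0 : 0 ≤ α * β)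
    (h1 : L ^ 2 * (α * β) < 1) (p₁ : E2) (δ θ C J₁ R W : ℝ) (hδ : 0 < δ) (hθ : 0 ≤ θ)
    (hC : C = (1 + L * (|α| + |β|)) / (1 - L ^ 2 * (α * β))) (X S : Set E2)
    (hX : ∀ p ∈ X, L * ‖V p - V p₁ - A (p - p₁)‖ ≤ θ * δ)
    (hR : ∀ p ∈ X, ‖p - p₁‖ ≤ R)
    (hJ0 : 0 ≤ J₁)
    (hJ : ∀ q, (∃ p ∈ X, ‖p - q‖ ≤ 2 * C * δ) → Jh h (V p₁ + A (q - p₁)) ≤ J₁)
    (hW : 0 ≤ W) (hSW : volume S ≤ ENNReal.ofReal W)
    (hS : ∀ x, (∃ p ∈ X, ‖x - p‖ ≤ 2 * (C + 1) * δ) → x ∈ S) :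
    Cov V L h X (W * (1 + 2 * θ) ^ 2 * J₁) := by
  classical
  set q : ℤ × ℤ → E2 := fun i => p₁ + φ !₂[δ * (i.1 : ℝ), δ * (i.2 : ℝ)] with hq
  have hC0 : 0 ≤ C := by
    rw [hC]; apply div_nonneg
    · positivity
    · linarith
  obtain ⟨M, hM⟩ : ∃ M : ℤ, (R + 2 * C * δ) / δ ≤ M := ⟨_, Int.le_ceil _⟩
  set F : Finset (ℤ × ℤ) := (Finset.Icc (-M) M ×ˢ Finset.Icc (-M) M).filter
    (fun i => ∃ p ∈ X, ‖p - q i‖ ≤ 2 * C * δ) with hF
  have hscale : 0 < (1 + 2 * θ) * δ := by positivity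
  apply Cov.of_finset F (fun i => q i + φ !₂[-(θ * δ), -(θ * δ)])
    (fun _ => φ !₂[(1 + 2 * θ) * δ, 0]) (fun _ => φ !₂[0, (1 + 2 * θ) * δ])
    (fun i => V p₁ + A (q i - p₁))
  · intro i _
    refine ⟨?_, ?_, ?_⟩
    · intro hcon
      have h2 : ‖φ !₂[(1 + 2 * θ) * δ, 0]‖ = 0 := by rw [hcon, norm_zero]
      rw [LinearIsometryEquiv.norm_map, norm_e2] at h2
      simp only [Matrix.cons_val_zero, Matrix.cons_val_one] at h2
      rw [Real.sqrt_eq_zero (by positivity)] at h2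
      nlinarith
    · rw [LinearIsometryEquiv.norm_map, LinearIsometryEquiv.norm_map, norm_e2, norm_e2]
      simp only [Matrix.cons_val_zero, Matrix.cons_val_one]
      congr 1; ring
    · rw [LinearIsometryEquiv.inner_map_map]
      simp [PiLp.inner_apply, Fin.sum_univ_two]
  · intro p hp s hs
    -- coordinates
    obtain ⟨y, hy⟩ : ∃ y, y = φ.symm (p - p₁) := ⟨_, rfl⟩
    have hpy : p = p₁ + φ y := by rw [hy, LinearIsometryEquiv.apply_symm_apply]; abel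
    obtain ⟨e, he⟩ : ∃ e, e = φ.symm (V p - V p₁ - A (p - p₁)) := ⟨_, rfl⟩
    have hVp : V p = V p₁ + A (φ y) + φ e := by
      rw [he, LinearIsometryEquiv.apply_symm_apply, hy, LinearIsometryEquiv.apply_symm_apply]; abel
    have hen : L * ‖e‖ ≤ θ * δ := by
      rw [he, LinearIsometryEquiv.norm_map]; exact hX p hp
    have hse : ∀ i, |s * e i| ≤ θ * δ := by
      intro i
      rw [abs_mul]
      exact (mul_le_mul hs (abs_coord_le e i) (abs_nonneg _) hL.le).trans hen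
    obtain ⟨m, n, ⟨a1, a2⟩, ⟨a3, a4⟩, a5, a6⟩ :=
      lattice_point α β s (y 0 / δ) (y 1 / δ) L h0 hL h1 hs
    rw [← hC] at a5 a6
    -- offset coordinates
    obtain ⟨X', hX'⟩ : ∃ X', X' = y 0 / δ - m := ⟨_, rfl⟩
    obtain ⟨Y', hY'⟩ : ∃ Y', Y' = y 1 / δ - n := ⟨_, rfl⟩
    rw [← hX', ← hY'] at a1 a2 a3 a4
    rw [← hX'] at a5
    rw [← hY'] at a6
    have hy0 : y 0 = δ * m + δ * X' := by rw [hX']; field_simp; ring
    have hy1 : y 1 = δ * n + δ * Y' := by rw [hY']; field_simp; ring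
    have hpq : p - q (m, n) = φ !₂[δ * X', δ * Y'] := by
      rw [hpy, hq]
      simp only
      rw [add_sub_add_left_eq_sub, ← map_sub]
      congr 1
      ext i
      fin_cases i
      · simp [hy0]
      · simp [hy1]
    have hpqn : ‖p - q (m, n)‖ ≤ 2 * C * δ := by
      rw [hpq, LinearIsometryEquiv.norm_map]
      refine (norm_le_abs_add _).trans ?_
      simp only [Matrix.cons_val_zero, Matrix.cons_val_one]
      rw [abs_mul, abs_mul, abs_of_pos hδ]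
      have b1 := mul_le_mul_of_nonneg_left a5 hδ.le
      have b2 := mul_le_mul_of_nonneg_left a6 hδ.le
      linarith
    have hqn : ‖φ !₂[δ * (m : ℝ), δ * (n : ℝ)]‖ ≤ R + 2 * C * δ := by
      have e1 : φ !₂[δ * (m : ℝ), δ * (n : ℝ)] = (p - p₁) - (p - q (m, n)) := by
        rw [hq]; simp only; abel
      rw [e1]
      exact (norm_sub_le _ _).trans (add_le_add (hR p hp) hpqn)
    rw [LinearIsometryEquiv.norm_map] at hqn
    have hmM : |δ * (m : ℝ)| ≤ R + 2 * C * δ := by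
      have := abs_coord_le !₂[δ * (m : ℝ), δ * (n : ℝ)] 0
      simp only [Matrix.cons_val_zero] at this
      exact this.trans hqn
    have hnM : |δ * (n : ℝ)| ≤ R + 2 * C * δ := by
      have := abs_coord_le !₂[δ * (m : ℝ), δ * (n : ℝ)] 1
      simp only [Matrix.cons_val_one] at this
      exact this.trans hqn
    have hbound : ∀ k : ℤ, |δ * (k : ℝ)| ≤ R + 2 * C * δ → k ∈ Finset.Icc (-M) M := by
      intro k hk
      rw [abs_mul, abs_of_pos hδ] at hk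
      have h2 : |(k : ℝ)| ≤ M := by
        refine le_trans ?_ hM
        rw [le_div_iff₀ hδ]; linarith
      have h3 := abs_le.1 h2
      rw [Finset.mem_Icc]
      constructor
      · have := h3.1; exact_mod_cast this
      · exact_mod_cast h3.2
    have hmem : (m, n) ∈ F := by
      rw [hF, Finset.mem_filter, Finset.mem_product]
      exact ⟨⟨hbound m hmM, hbound n hnM⟩, p, hp, hpqn⟩
    have hse0 := abs_le.1 (hse 0)
    have hse1 := abs_le.1 (hse 1)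
    have c1 := mul_le_mul_of_nonneg_left a1 hδ.le
    have c2 := mul_le_mul_of_nonneg_left a2 hδ.le
    have c3 := mul_le_mul_of_nonneg_left a3 hδ.le
    have c4 := mul_le_mul_of_nonneg_left a4 hδ.le
    refine ⟨(m, n), hmem,
      (δ * (X' + s * β * Y') + s * e 0 + θ * δ) / ((1 + 2 * θ) * δ), ⟨?_, ?_⟩,
      (δ * (Y' + s * α * X') + s * e 1 + θ * δ) / ((1 + 2 * θ) * δ), ⟨?_, ?_⟩, ?_⟩
    · apply div_nonneg _ hscale.le; linarith
    · rw [div_le_one hscale]; linarith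
    · apply div_nonneg _ hscale.le; linarith
    · rw [div_le_one hscale]; linarith
    · have hAq : A (φ y) - A (q (m, n) - p₁) = φ !₂[β * (δ * Y'), α * (δ * X')] := by
        rw [← map_sub]
        have e1 : φ y - (q (m, n) - p₁) = φ !₂[δ * X', δ * Y'] := by
          rw [← hpq, hpy]; abel
        rw [e1, hA]
        simp
      have e2 : p + s • V p - (q (m, n) + s • (V p₁ + A (q (m, n) - p₁))) =
          φ (!₂[δ * X', δ * Y'] + s • !₂[β * (δ * Y'), α * (δ * X')] + s • e) := by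
        rw [map_add, map_add, map_smul, map_smul, ← hpq, ← hAq, hVp]
        module
      have e3 : φ !₂[-(θ * δ), -(θ * δ)] +
          ((δ * (X' + s * β * Y') + s * e 0 + θ * δ) / ((1 + 2 * θ) * δ)) • φ !₂[(1 + 2 * θ) * δ, 0] +
          ((δ * (Y' + s * α * X') + s * e 1 + θ * δ) / ((1 + 2 * θ) * δ)) • φ !₂[0, (1 + 2 * θ) * δ] =
          φ (!₂[δ * X', δ * Y'] + s • !₂[β * (δ * Y'), α * (δ * X')] + s • e) := by
        rw [← map_smul, ← map_smul, ← map_add, ← map_add]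
        congr 1
        ext i
        fin_cases i
        · simp
          field_simp
          ring
        · simp
          field_simp
          ring
      rw [sub_eq_iff_eq_add] at e2
      rw [e2, ← e3]
      abel
  · have h2 : ∀ i ∈ F, ‖φ !₂[(1 + 2 * θ) * δ, 0]‖ ^ 2 * Jh h (V p₁ + A (q i - p₁)) ≤
        ((1 + 2 * θ) * δ) ^ 2 * J₁ := by
      intro i hi
      rw [hF, Finset.mem_filter] at hi
      have e1 : ‖φ !₂[(1 + 2 * θ) * δ, 0]‖ ^ 2 = ((1 + 2 * θ) * δ) ^ 2 := by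
        rw [LinearIsometryEquiv.norm_map, norm_e2, Real.sq_sqrt (by positivity)]
        simp
      rw [e1]
      exact mul_le_mul_of_nonneg_left (hJ _ hi.2) (by positivity)
    have h3 := card_cells φ p₁ δ hδ F S W hW hSW (by
      intro i hi x hx
      rw [hF, Finset.mem_filter] at hi
      obtain ⟨_, p, hp, hpq⟩ := hi
      apply hS x
      refine ⟨p, hp, ?_⟩
      have e1 : x - p = (x - q i) - (p - q i) := by abel
      rw [e1]
      refine (norm_sub_le _ _).trans ?_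
      have : ‖x - q i‖ ≤ 2 * δ := hx
      linarith)
    calc ∑ i ∈ F, ‖φ !₂[(1 + 2 * θ) * δ, 0]‖ ^ 2 * Jh h (V p₁ + A (q i - p₁))
        ≤ ∑ _i ∈ F, ((1 + 2 * θ) * δ) ^ 2 * J₁ := Finset.sum_le_sum h2
      _ = ((F.card : ℝ) * δ ^ 2) * ((1 + 2 * θ) ^ 2 * J₁) := by
          rw [Finset.sum_const, nsmul_eq_mul]; ring
      _ ≤ W * ((1 + 2 * θ) ^ 2 * J₁) := mul_le_mul_of_nonneg_right h3 (by positivity)
      _ = W * (1 + 2 * θ) ^ 2 * J₁ := by ring

end Crest.Agent.TetCover
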