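import Crest.Agent.TetCover.Open

set_option autoImplicit false

/-!
Transport of cylinder covers to an arbitrary regular tetrahedron and the final covering statements
with parallelogram bases and with relatively open bases.
-/

namespace Crest.Agent.TetCover

open MeasureTheory Module Filter Topology
open scoped ENNReal

/-- The standard tetrahedron. -/
noncomputable abbrev K0 : Set E3 :=
  convexHull ℝ {!₂[1, 0, 0], !₂[-1, 0, 0], !₂[0, 1, Real.sqrt 2], !₂[0, -1, Real.sqrt 2]}

/-- Three orthonormal vectors give a linear isometry. -/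
lemma exists_isometry_of_orthonormal (v : Fin 3 → E3) (hv : Orthonormal ℝ v) :
    ∃ L : E3 ≃ₗᵢ[ℝ] E3, ∀ x, L x = x 0 • v 0 + x 1 • v 1 + x 2 • v 2 := by
  have hv' : Orthonormal ℝ ((Set.univ : Set (Fin 3)).domRestrict v) :=
    hv.comp _ Subtype.val_injective
  obtain ⟨b, hb⟩ := hv'.exists_orthonormalBasis_extension_of_card_eq (by simp)
  refine ⟨b.repr.symm, fun x => ?_⟩
  have := b.sum_repr_symm x
  rw [Fin.sum_univ_three, hb 0 trivial, hb 1 trivial, hb 2 trivial] at this
  exact this.symm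

lemma inner_of_dist {a b : E3} {ℓ : ℝ} (ha : ‖a‖ = ℓ) (hb : ‖b‖ = ℓ) (hab : ‖a - b‖ = ℓ) :
    inner ℝ a b = ℓ ^ 2 / 2 := by
  have := norm_sub_sq_real a b
  rw [ha, hb, hab] at this
  linarith

/-- Any regular tetrahedron is a similar image of the standard one. -/
lemma exists_similarity (w : Fin 4 → E3) (ℓ : ℝ) (hℓ : 0 < ℓ)
    (hw : ∀ i j, i ≠ j → dist (w i) (w j) = ℓ) :
    ∃ (L : E3 ≃ₗᵢ[ℝ] E3) (G : E3),
      convexHull ℝ (Set.range w) = (fun x => G + (ℓ / 2) • L x) '' K0 := by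
  -- edge vectors
  set a := w 1 - w 0 with ha
  set b := w 2 - w 0 with hb
  set c := w 3 - w 0 with hc
  have na : ‖a‖ = ℓ := by rw [ha, ← dist_eq_norm]; exact hw _ _ (by decide)
  have nb : ‖b‖ = ℓ := by rw [hb, ← dist_eq_norm]; exact hw _ _ (by decide)
  have nc : ‖c‖ = ℓ := by rw [hc, ← dist_eq_norm]; exact hw _ _ (by decide)
  have nab : ‖a - b‖ = ℓ := by
    rw [ha, hb, sub_sub_sub_cancel_right, ← dist_eq_norm]; exact hw _ _ (by decide)
  have nac : ‖a - c‖ = ℓ := by
    rw [ha, hc, sub_sub_sub_cancel_right, ← dist_eq_norm]; exact hw _ _ (by decide)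
  have nbc : ‖b - c‖ = ℓ := by
    rw [hb, hc, sub_sub_sub_cancel_right, ← dist_eq_norm]; exact hw _ _ (by decide)
  have iab := inner_of_dist na nb nab
  have iac := inner_of_dist na nc nac
  have ibc := inner_of_dist nb nc nbc
  have iaa : inner ℝ a a = ℓ ^ 2 := by rw [real_inner_self_eq_norm_sq, na]
  have ibb : inner ℝ b b = ℓ ^ 2 := by rw [real_inner_self_eq_norm_sq, nb]
  have icc : inner ℝ c c = ℓ ^ 2 := by rw [real_inner_self_eq_norm_sq, nc]
  have iba : inner ℝ b a = ℓ ^ 2 / 2 := by rw [real_inner_comm]; exact iab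
  have ica : inner ℝ c a = ℓ ^ 2 / 2 := by rw [real_inner_comm]; exact iac
  have icb : inner ℝ c b = ℓ ^ 2 / 2 := by rw [real_inner_comm]; exact ibc
  have hs2 : Real.sqrt 2 ^ 2 = 2 := Real.sq_sqrt (by norm_num)
  have hs2' : Real.sqrt 2 * Real.sqrt 2 = 2 := Real.mul_self_sqrt (by norm_num)
  have hs0 : Real.sqrt 2 ≠ 0 := (Real.sqrt_pos.2 two_pos).ne'
  let v : Fin 3 → E3 := ![(ℓ⁻¹) • (-a), (ℓ⁻¹) • (b - c), ((Real.sqrt 2 * ℓ)⁻¹) • (b + c - a)]
  have v0 : v 0 = (ℓ⁻¹) • (-a) := rfl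
  have v1 : v 1 = (ℓ⁻¹) • (b - c) := rfl
  have v2 : v 2 = ((Real.sqrt 2 * ℓ)⁻¹) • (b + c - a) := rfl
  have i00 : inner ℝ (v 0) (v 0) = 1 := by
    rw [v0]
    simp only [real_inner_smul_left, real_inner_smul_right, inner_neg_left, inner_neg_right, iaa]
    field_simp
  have i11 : inner ℝ (v 1) (v 1) = 1 := by
    rw [v1]
    simp only [real_inner_smul_left, real_inner_smul_right, inner_sub_left, inner_sub_right,
      ibb, icc, ibc, icb]
    field_simp
    ring
  have i22 : inner ℝ (v 2) (v 2) = 1 := by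
    rw [v2]
    simp only [real_inner_smul_left, real_inner_smul_right, inner_sub_left, inner_sub_right,
      inner_add_left, inner_add_right, iaa, ibb, icc, ibc, icb, iab, iba, iac, ica]
    have hq : (Real.sqrt 2 * ℓ)⁻¹ * (Real.sqrt 2 * ℓ)⁻¹ = (2 * ℓ ^ 2)⁻¹ := by
      rw [← mul_inv, show Real.sqrt 2 * ℓ * (Real.sqrt 2 * ℓ) = 2 * ℓ ^ 2 by
        linear_combination ℓ ^ 2 * hs2']
    have hq2 : (2 * ℓ ^ 2)⁻¹ * (2 * ℓ ^ 2) = 1 := inv_mul_cancel₀ (by positivity)
    linear_combination (2 * ℓ ^ 2) * hq + hq2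
  have i01 : inner ℝ (v 0) (v 1) = 0 := by
    rw [v0, v1]
    simp only [real_inner_smul_left, real_inner_smul_right, inner_sub_left, inner_sub_right,
      inner_neg_left, iab, iac]
    ring
  have i02 : inner ℝ (v 0) (v 2) = 0 := by
    rw [v0, v2]
    simp only [real_inner_smul_left, real_inner_smul_right, inner_sub_left, inner_sub_right,
      inner_add_right, inner_neg_left, iab, iac, iaa]
    ring
  have i12 : inner ℝ (v 1) (v 2) = 0 := by
    rw [v1, v2]
    simp only [real_inner_smul_left, real_inner_smul_right, inner_sub_left, inner_sub_right,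
      inner_add_right, ibb, icc, ibc, icb, iba, ica]
    ring
  have hv : Orthonormal ℝ v := by
    rw [orthonormal_iff_ite]
    intro i j
    fin_cases i <;> fin_cases j
    · simpa using i00
    · simpa using i01
    · simpa using i02
    · simpa using (real_inner_comm _ _).trans i01
    · simpa using i11
    · simpa using i12
    · simpa using (real_inner_comm _ _).trans i02
    · simpa using (real_inner_comm _ _).trans i12
    · simpa using i22
  obtain ⟨L, hL⟩ := exists_isometry_of_orthonormal v hv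
  refine ⟨L, w 0 + (1 / 2 : ℝ) • a, ?_⟩
  let F : E3 →ᵃ[ℝ] E3 := (((ℓ / 2) • (L.toLinearEquiv : E3 →ₗ[ℝ] E3)).toAffineMap) +
    AffineMap.const ℝ E3 (w 0 + (1 / 2 : ℝ) • a)
  have hF : ∀ x, F x = (w 0 + (1 / 2 : ℝ) • a) + (ℓ / 2) • L x := by
    intro x; simp [F, add_comm]
  have e1 : (fun x => (w 0 + (1 / 2 : ℝ) • a) + (ℓ / 2) • L x) = F := by
    funext x; rw [hF]
  rw [e1, AffineMap.image_convexHull]
  congr 1
  have hs3 : ℓ / 2 * (Real.sqrt 2 * (Real.sqrt 2 * ℓ)⁻¹) = 1 / 2 := by field_simp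
  have hs4 : ℓ / 2 * ℓ⁻¹ = 1 / 2 := by field_simp
  have key : ∀ x y z : ℝ, F !₂[x, y, Real.sqrt 2 * z] =
      w 0 + (1 / 2 : ℝ) • a + ((x / 2) • (-a) + (y / 2) • (b - c) + (z / 2) • (b + c - a)) := by
    intro x y z
    have e0 : (!₂[x, y, Real.sqrt 2 * z] : E3) 0 = x := rfl
    have e1 : (!₂[x, y, Real.sqrt 2 * z] : E3) 1 = y := rfl
    have e2 : (!₂[x, y, Real.sqrt 2 * z] : E3) 2 = Real.sqrt 2 * z := rfl
    rw [hF, hL, v0, v1, v2, e0, e1, e2, smul_add, smul_add]
    congr 2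
    · congr 1
      · rw [smul_smul, smul_smul]; congr 1; linear_combination x * hs4
      · rw [smul_smul, smul_smul]; congr 1; linear_combination y * hs4
    · rw [smul_smul, smul_smul]; congr 1; linear_combination z * hs3
  have h0 : F !₂[1, 0, 0] = w 0 := by
    have := key 1 0 0
    rw [mul_zero] at this
    rw [this]; module
  have h1 : F !₂[-1, 0, 0] = w 1 := by
    have := key (-1) 0 0
    rw [mul_zero] at this
    rw [this, ha]; module
  have h2 : F !₂[0, 1, Real.sqrt 2] = w 2 := by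
    have := key 0 1 1
    rw [mul_one] at this
    rw [this, ha, hb, hc]; module
  have h3 : F !₂[0, -1, Real.sqrt 2] = w 3 := by
    have := key 0 (-1) 1
    rw [mul_one] at this
    rw [this, ha, hb, hc]; module
  rw [Set.image_insert_eq, Set.image_insert_eq, Set.image_insert_eq, Set.image_singleton,
    h0, h1, h2, h3]
  ext x
  simp only [Set.mem_range, Set.mem_insert_iff, Set.mem_singleton_iff]
  constructor
  · rintro ⟨i, rfl⟩
    fin_cases i <;> simp
  · rintro (rfl | rfl | rfl | rfl)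
    exacts [⟨0, rfl⟩, ⟨1, rfl⟩, ⟨2, rfl⟩, ⟨3, rfl⟩]

end Crest.Agent.TetCover
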